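import Crest.Statements.S0010
import Crest.Agent.Lib.MilnorRigidK
import Crest.Agent.Lib.MilnorRigidField

set_option autoImplicit false
open Crest.NumberTheoryR.MilnorK
open Crest Crest.NumberTheoryR

namespace Crest.Agent.S0010

open Crest.Agent.Lib.MilnorRigidDer Crest.Agent.Lib.MilnorRigidK Crest.Agent.Lib.MilnorRigidField

section helpers

variable {p : ℕ} [hp : Fact p.Prime] {K L : Type*} [Field K] [Field L] [CharP K p] [CharP L p]

theorem symm_compatible (Θ : KOne K p ≃ₗ[ZMod p] KOne L p) (hΘ : IsCompatible Θ) :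
    IsCompatible Θ.symm := by
  unfold IsCompatible at hΘ ⊢
  rw [← hΘ, ← Submodule.map_comp, ← TensorProduct.map_comp]
  have e : (Θ.symm.toLinearMap ∘ₗ Θ.toLinearMap) = LinearMap.id := by
    ext x
    simp
  rw [e, TensorProduct.map_id, Submodule.map_id]

theorem exists_notMem {a b : L} {δ₁ δ₂ : Der L} (h : δ₁ a ≠ 0) :
    ∃ y : L, y ∉ pth L p := ⟨a, fun hm => h (der_pth δ₁ hm)⟩

/-- the map preserves non-`p`-th powers -/
theorem notMem_of_presentation (Θ : KOne K p ≃ₗ[ZMod p] KOne L p) (α : K →+* L) (c : ZMod p)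
    (hα : ∀ u : Kˣ, Θ (cls K p u) = c • cls L p (Units.map α.toMonoidHom u)) (x : K)
    (hx : x ∉ pth K p) : α x ∉ pth L p := by
  intro hm
  apply hx
  have hx0 : x ≠ 0 := by
    rintro rfl
    exact hx (pth K p).zero_mem
  have h1 : cls L p (Units.map α.toMonoidHom (Units.mk0 x hx0)) = 0 := by
    rw [cls_eq_zero]
    simpa using hm
  have h2 := hα (Units.mk0 x hx0)
  have h3 : c • (0 : KOne L p) = 0 := by
    apply eq_zero_of_dl
    intro δ
    rw [dl_smul, map_zero, mul_zero]
  rw [h1, h3, LinearEquiv.map_eq_zero_iff, cls_eq_zero] at h2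
  simpa using h2

include hp in
variable (p) in
/-- `α` maps the algebraically closed subfield into the other one. -/
theorem map_mem {k : Subfield K} {l : Subfield L} [IsAlgClosed k] [IsAlgClosed l]
    (hL : ∃ s : Finset L, Subfield.closure ((l : Set L) ∪ (s : Set L)) = ⊤)
    (α : K →+* L) {x : K} (hx : x ∈ k) : α x ∈ l := by
  apply mem_of_forall_root (p := p) hL
  intro n
  obtain ⟨z, hz⟩ := IsAlgClosed.exists_pow_nat_eq (⟨x, hx⟩ : k) (pow_pos hp.out.pos n)
  refine ⟨α (z : K), ?_⟩
  rw [← map_pow]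
  congr 1
  have := congrArg Subtype.val hz
  simpa using this

/-- `c • (c' • [β u])` form: presentation of the composition -/
theorem comp_presentation (Θ : KOne K p ≃ₗ[ZMod p] KOne L p) (α : K →+* L) (α' : L →+* K)
    (c c' : ZMod p)
    (hα : ∀ u : Kˣ, Θ (cls K p u) = c • cls L p (Units.map α.toMonoidHom u))
    (hα' : ∀ u : Lˣ, Θ.symm (cls L p u) = c' • cls K p (Units.map α'.toMonoidHom u)) (u : Kˣ) :
    (1 : ZMod p) • cls K p (Units.map (RingHom.id K).toMonoidHom u) =
      (c * c') • cls K p (Units.map (α'.comp α).toMonoidHom u) := by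
  have e1 : cls K p u = Θ.symm (Θ (cls K p u)) := by simp
  have e2 : Units.map (RingHom.id K).toMonoidHom u = u := by
    ext; simp
  have e3 : Units.map (α'.comp α).toMonoidHom u =
      Units.map α'.toMonoidHom (Units.map α.toMonoidHom u) := by
    ext; simp
  rw [one_smul, e2, e3]
  conv_lhs => rw [e1, hα u, map_smul, hα']
  rw [smul_smul]

end helpers

/-- Let K and L be fields of characteristic p that are finitely generated and of transcendence degree at least 2 over algebraically closed subfields k and l. Let Θ be a linear isomorphism, over the integers mod p, from Kˣ/(Kˣ)^p to Lˣ/(Lˣ)^p that maps the span of the Steinberg elements [f] ⊗ [1 - f] (f ≠ 0, 1) of K exactly onto that of L. Then there is exactly one field isomorphism α from K to L with α(k) = l such that, for some non-zero scalar c, Θ[u] = c · [α(u)] for every unit u of K. -/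
theorem result {p : ℕ} [Fact p.Prime]
    {K L : Type*} [Field K] [Field L] [CharP K p] [CharP L p] (k : Subfield K) (l : Subfield L)
    [IsAlgClosed k] [IsAlgClosed l]
    (hK : ∃ s : Finset K, Subfield.closure ((k : Set K) ∪ (s : Set K)) = ⊤)
    (hL : ∃ s : Finset L, Subfield.closure ((l : Set L) ∪ (s : Set L)) = ⊤)
    (hK2 : 2 ≤ Algebra.trdeg k K) (hL2 : 2 ≤ Algebra.trdeg l L)
    (Θ : KOne K p ≃ₗ[ZMod p] KOne L p) (hΘ : IsCompatible Θ) :
    ∃! α : K ≃+* L, k.map α.toRingHom = l ∧
      ∃ c : ZMod p, c ≠ 0 ∧ ∀ u : Kˣ, Θ (cls K p u) = c • cls L p (Units.map α.toRingHom.toMonoidHom u) := by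
  have hdimL := exists_dim p hL hL2
  have hdimK := exists_dim p hK hK2
  have hΘ' := symm_compatible Θ hΘ
  obtain ⟨α, c, hc, hα⟩ := exists_alpha Θ hΘ hdimL
  obtain ⟨α', c', hc', hα'⟩ := exists_alpha Θ.symm hΘ' hdimK
  have hexK : ∃ y : K, y ∉ pth K p := by
    obtain ⟨a, b, δ₁, δ₂, h1, _, _⟩ := hdimK
    exact exists_notMem (a := a) (b := b) (δ₁ := δ₁) (δ₂ := δ₂) h1
  have hexL : ∃ y : L, y ∉ pth L p := by
    obtain ⟨a, b, δ₁, δ₂, h1, _, _⟩ := hdimL
    exact exists_notMem (a := a) (b := b) (δ₁ := δ₁) (δ₂ := δ₂) h1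
  have comp1 : α'.comp α = RingHom.id K :=
    (alpha_unique (RingHom.id K) (α'.comp α) 1 (c * c') one_ne_zero
      (comp_presentation Θ α α' c c' hα hα') (fun x hx => hx) hexK).symm
  have comp2 : α.comp α' = RingHom.id L := by
    have hα2 : ∀ u : Kˣ, Θ.symm.symm (cls K p u) = c • cls L p (Units.map α.toMonoidHom u) := hα
    exact (alpha_unique (RingHom.id L) (α.comp α') 1 (c' * c) one_ne_zero
      (comp_presentation Θ.symm α' α c' c hα' hα2) (fun x hx => hx) hexL).symm
  let αe : K ≃+* L := RingEquiv.ofRingHom α α' comp2 comp1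
  have hαe : ∀ x, αe x = α x := fun x => rfl
  have hαes : ∀ y, αe.symm y = α' y := fun y => rfl
  refine ⟨αe, ⟨?_, c, hc, ?_⟩, ?_⟩
  · apply le_antisymm
    · rintro y ⟨x, hx, rfl⟩
      exact map_mem p hL α hx
    · intro y hy
      refine ⟨α' y, map_mem p hK α' hy, ?_⟩
      have := congrArg (fun f => f y) comp2
      exact this
  · intro u
    exact hα u
  · rintro β ⟨_, c₂, _, hβ⟩
    have heq : α = β.toRingHom := by
      apply alpha_unique α β.toRingHom c c₂ hc
      · intro u
        rw [← hα u, hβ u]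
      · exact notMem_of_presentation Θ α c hα
      · exact hexK
    ext x
    have := congrArg (fun f => f x) heq
    exact this.symm

end Crest.Agent.S0010
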