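-- Row 34, S0045: see Crest/Agent/Lib/Ryser/ and findings #1707, row34-plan.
import Crest.Statements.S0045
import Crest.Agent.Lib.Ryser.Final

set_option autoImplicit false
open Crest Crest.CombinatoricsR

namespace Crest.Agent.S0045

/-- For every sufficiently large prime q there is a finite intersecting (q+1)-partite (q+1)-uniform hypergraph (vertices Fin N labelled by q+1 parts; a nonempty family of edges, each meeting every part in exactly one vertex; any two edges share a vertex) in which every part has exactly q+1 vertices, every vertex lies in an edge, and every set of vertices meeting all edges has at least q+1 elements (so the covering number is exactly q+1, not the q of Ryser's conjectured bound). -/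
theorem result :
    ∃ q₀ : ℕ, ∀ q : ℕ, q₀ ≤ q → q.Prime →
      ∃ (N : ℕ) (part : Fin N → Fin (q + 1)) (E : Finset (Finset (Fin N))),
        E.Nonempty ∧
        (∀ e ∈ E, ∀ i : Fin (q + 1), (e.filter (fun v => part v = i)).card = 1) ∧
        (∀ e ∈ E, ∀ f ∈ E, (e ∩ f).Nonempty) ∧
        (∀ i : Fin (q + 1), (Finset.univ.filter (fun v => part v = i)).card = q + 1) ∧
        (∀ v : Fin N, ∃ e ∈ E, v ∈ e) ∧
        (∀ S : Finset (Fin N), (∀ e ∈ E, (e ∩ S).Nonempty) → q + 1 ≤ S.card) := by
  obtain ⟨Q₀, hQ₀⟩ := Crest.Agent.Ryser.main_theorem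
  refine ⟨max Q₀ 101, fun q hq hp => ?_⟩
  haveI : Fact q.Prime := ⟨hp⟩
  have hq1 : Q₀ ≤ q := le_trans (le_max_left _ _) hq
  have hq2 : 101 ≤ q := le_trans (le_max_right _ _) hq
  have hcard : Fintype.card (ZMod q) = q := ZMod.card q
  have hchar : ringChar (ZMod q) = q := ZMod.ringChar_zmod_n q
  obtain ⟨𝓦, h1, h2, h3, h4⟩ := hQ₀ (ZMod q) (by rw [hcard]; exact hq1) (by rw [hchar]; exact hq2)
    (by rw [hcard]; exact Crest.Agent.Ryser.not_isSquare_prime hp)
  refine Crest.Agent.Ryser.transfer_hyper q (by rw [Fintype.card_option, hcard]) 𝓦 h1 h2 h3 ?_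
  intro S hS
  have := h4 S hS
  rwa [hcard] at this

end Crest.Agent.S0045
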