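import Crest.Statements.S0075
import Crest.Agent.Lib.CycleRamsey.BCBoundary4

set_option autoImplicit false
open Crest Crest.CombinatoricsR

namespace Crest.Agent.S0075

/-- Let m ≥ n ≥ 3 be natural numbers with (m, n) ≠ (3, 3), and let G be a simple graph on a finite vertex type with exactly (m - 1)(n - 1) + 1 vertices. Then G contains a cycle of length exactly m (a closed walk of length m repeating no vertex or edge) or n vertices that are pairwise non-adjacent in G. -/
theorem result (m n : ℕ) (hn : 3 ≤ n) (hnm : n ≤ m)
    (h33 : ¬ (m = 3 ∧ n = 3)) (V : Type) [Fintype V] [DecidableEq V]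
    (hV : Fintype.card V = (m - 1) * (n - 1) + 1) (G : SimpleGraph V) :
    (∃ v : V, ∃ p : G.Walk v v, p.IsCycle ∧ p.length = m) ∨ (∃ s : Finset V, Gᶜ.IsNClique n s) :=
  Crest.Agent.CycleRamsey.frozen_of_BC Crest.Agent.CycleRamsey.bigCliqueStatement m n hn hnm h33 V hV G

end Crest.Agent.S0075
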