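import Crest.Statements.S0077
import Crest.Agent.BiasedCube.Russo

set_option autoImplicit false
open Crest Crest.CombinatoricsR

namespace Crest.Agent.S0077

open Crest.CombinatoricsR.RandomGraph Crest.Agent.BC

/-- the action of vertex permutations on edge slots -/
def slotMap {n : ℕ} (σ : Equiv.Perm (Fin n)) (e : EdgeSlot n) : EdgeSlot n :=
  ⟨Sym2.map σ e.1, fun h => e.2 ((Sym2.isDiag_map σ.injective).1 h)⟩

/-- edge slots as an incidence structure with `r = 2`. -/
def edgeInc (n : ℕ) : Inc (Fin n) (EdgeSlot n) 2 where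
  inc e := e.1.toFinset
  card_inc e := Sym2.card_toFinset_of_not_isDiag _ e.2
  inc_inj := by
    intro e e' h
    apply Subtype.ext
    apply Sym2.ext
    intro x
    have h' : e.1.toFinset = e'.1.toFinset := h
    rw [← Sym2.mem_toFinset, ← Sym2.mem_toFinset, h']
  act σ e := slotMap σ e
  inc_act σ e := by
    ext v
    simp only [slotMap, Sym2.mem_toFinset, Sym2.mem_map, Finset.mem_map, Equiv.coe_toEmbedding]

lemma graphOf_adj {n : ℕ} (x : EdgeSlot n → Bool) (i j : Fin n) :
    (graphOf x).Adj i j ↔ ∃ h : ¬ (s(i, j) : Sym2 (Fin n)).IsDiag, x ⟨s(i, j), h⟩ = true := by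
  unfold graphOf
  rw [SimpleGraph.fromEdgeSet_adj]
  constructor
  · rintro ⟨⟨h, hx⟩, _⟩
    exact ⟨h, hx⟩
  · rintro ⟨h, hx⟩
    exact ⟨⟨h, hx⟩, by simpa using h⟩

lemma graphOf_comp {n : ℕ} (σ : Equiv.Perm (Fin n)) (x : EdgeSlot n → Bool) :
    graphOf (x ∘ slotMap σ) = (graphOf x).comap σ := by
  ext i j
  rw [SimpleGraph.comap_adj, graphOf_adj, graphOf_adj]
  have hd : ¬ (s(i, j) : Sym2 (Fin n)).IsDiag ↔ ¬ (s(σ i, σ j) : Sym2 (Fin n)).IsDiag := by
    simp only [Sym2.mk_isDiag_iff, EmbeddingLike.apply_eq_iff_eq]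
  have hk : ∀ (h : ¬ (s(i, j) : Sym2 (Fin n)).IsDiag)
      (h' : ¬ (s(σ i, σ j) : Sym2 (Fin n)).IsDiag),
      slotMap σ ⟨s(i, j), h⟩ = ⟨s(σ i, σ j), h'⟩ := by
    intro h h'
    apply Subtype.ext
    simp [slotMap]
  constructor
  · rintro ⟨h, hx⟩
    refine ⟨hd.1 h, ?_⟩
    rw [← hk h (hd.1 h)]
    exact hx
  · rintro ⟨h, hx⟩
    refine ⟨hd.2 h, ?_⟩
    show x (slotMap σ ⟨s(i, j), hd.2 h⟩) = true
    rw [hk (hd.2 h) h]
    exact hx

lemma graphOf_mono {n : ℕ} {x y : EdgeSlot n → Bool} (h : ∀ e, x e = true → y e = true) :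
    graphOf x ≤ graphOf y := by
  intro i j hij
  rw [graphOf_adj] at hij ⊢
  obtain ⟨hd, hx⟩ := hij
  exact ⟨hd, h _ hx⟩

/-- the variance bound at every bias -/
theorem var_bound_edge (n : ℕ) (hn : 2 ≤ n) (b : Bias) (F : (EdgeSlot n → Bool) → Bool)
    (hsym : ∀ σ x, F (x ∘ slotMap σ) = F x) :
    Crest.FinProb.bernoulliProb b.p {x | F x = true} *
        (1 - Crest.FinProb.bernoulliProb b.p {x | F x = true}) ≤
      2 ^ 17 / Real.log n ^ 2 * ∑ e, Crest.FinProb.bernoulliProb b.p
      {x | F (Function.update x e true) ≠ F (Function.update x e false)} := by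
  have hnR : (2 : ℝ) ≤ n := by exact_mod_cast hn
  have hL0 : 0 < Real.log n := Real.log_pos (by linarith)
  set L := Real.log n with hL
  have hTI := b.total_nonneg F
  by_cases hcase : 724 ≤ L
  · have hn4 : 2 * 2 ≤ n := by
      by_contra hcon
      have h1 : (n : ℝ) < 4 := by
        have : n < 4 := by omega
        exact_mod_cast this
      have h2 : L ≤ n - 1 := Real.log_le_sub_one_of_pos (by linarith)
      linarith
    have hcard : Fintype.card (Fin n) = n := Fintype.card_fin n
    have h1 := var_log_bool (edgeInc n) (le_refl 2) b F hsym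
      (by rw [hcard]; exact hn4) (by rw [hcard]; exact hcase)
    rw [hcard] at h1
    refine h1.trans ?_
    refine mul_le_mul_of_nonneg_right ?_ hTI
    have h2 : (((2 : ℕ) : ℝ) / (((2 : ℕ) : ℝ) - 1)) = 2 := by norm_num
    rw [h2]
    have h3 : L ^ (2 : ℝ) = L ^ 2 := by norm_num
    rw [h3]
    apply div_le_div_of_nonneg_right _ (by positivity)
    unfold cstR
    norm_num
  · push Not at hcase
    refine (b.poincare_bool F).trans ?_
    refine mul_le_mul_of_nonneg_right ?_ hTI
    rw [le_div_iff₀ (by positivity)]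
    nlinarith

/-- Let n ≥ 2 and let P be a family of simple graphs on n labelled vertices that is invariant under renaming vertices, closed under adding edges, non-empty and not everything; let 0 < ε < 1/2. If the binomial random graph with edge probability p ∈ [0, 1] lies in P with probability at least ε, then at every edge probability q ∈ [0, 1] with q ≥ p + 2^19 · log(1/(2ε)) / (log n)² it lies in P with probability at least 1 - ε: the threshold interval from ε to 1 - ε is at most that long. -/
theorem result (n : ℕ) (hn : 2 ≤ n)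
    (P : Set (SimpleGraph (Fin n)))
    (hsymm : ∀ σ : Equiv.Perm (Fin n), ∀ G : SimpleGraph (Fin n), G ∈ P → G.map σ.toEmbedding ∈ P)
    (hmono : ∀ G G' : SimpleGraph (Fin n), G ≤ G' → G ∈ P → G' ∈ P)
    (hne : P.Nonempty) (hnu : P ≠ Set.univ) (ε : ℝ) (hε0 : 0 < ε) (hε : ε < 1 / 2)
    (p q : ℝ) (hp0 : 0 ≤ p) (hp1 : p ≤ 1) (hq0 : 0 ≤ q) (hq1 : q ≤ 1)
    (hp : ε ≤ Crest.CombinatoricsR.RandomGraph.gnpProb n p P)
    (hq : p + 2 ^ 19 / Real.log n ^ 2 * Real.log (1 / (2 * ε)) ≤ q) :
    1 - ε ≤ Crest.CombinatoricsR.RandomGraph.gnpProb n q P := by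
  classical
  by_contra hcon
  push Not at hcon
  set F : (EdgeSlot n → Bool) → Bool := fun x => decide (graphOf x ∈ P) with hF
  have hFiff : ∀ x, F x = true ↔ graphOf x ∈ P := fun x => by simp [hF]
  set f := Bias.bf F with hfdef
  have hf01 : ∀ x, f x = 0 ∨ f x = 1 := Bias.bf_01 F
  have hset : ∀ t : ℝ, gnpProb n t P = uPoly f t := by
    intro t
    apply bernoulliProb_eq_uPoly
    · intro x hx
      have : F x = true := (hFiff x).2 hx
      simp [hfdef, Bias.bf, this]
    · intro x hx
      have : ¬ F x = true := fun h => hx ((hFiff x).1 h)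
      simp [hfdef, Bias.bf, this]
  have hset2 : {x : EdgeSlot n → Bool | F x = true} = {x | graphOf x ∈ P} := by
    ext x
    exact hFiff x
  rw [hset] at hp hcon
  -- symmetry
  have hsym : ∀ σ x, F (x ∘ slotMap σ) = F x := by
    intro σ x
    have h1 : graphOf (x ∘ slotMap σ) ∈ P ↔ graphOf x ∈ P := by
      rw [graphOf_comp]
      constructor
      · intro h
        have h2 := hsymm σ _ h
        rw [← SimpleGraph.comap_symm] at h2
        simpa [SimpleGraph.comap_comap] using h2
      · intro h
        have h2 := hsymm σ.symm _ h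
        rw [← SimpleGraph.comap_symm] at h2
        simpa using h2
    simp only [hF, h1]
  -- monotonicity of F
  have hupdate : ∀ (x : EdgeSlot n → Bool) (e : EdgeSlot n),
      f (Function.update x e false) ≤ f (Function.update x e true) := by
    intro x e
    simp only [hfdef, Bias.bf]
    by_cases h1 : F (Function.update x e false) = true
    · have h2 : F (Function.update x e true) = true := by
        rw [hFiff] at h1 ⊢
        refine hmono _ _ (graphOf_mono ?_) h1
        intro e' he'
        by_cases h3 : e' = e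
        · subst h3
          simp
        · rw [Function.update_of_ne h3] at he' ⊢
          exact he'
      simp [h1, h2]
    · rw [if_neg h1]
      split_ifs <;> norm_num
  -- the endpoints
  have hall : ∀ c : Bool, ∀ t : ℝ, (∀ e : EdgeSlot n, (if c then t else 1 - t) = 1) →
      (∀ e : EdgeSlot n, (if !c then t else 1 - t) = 0) →
      uPoly f t = f (fun _ => c) := by
    intro c t h1 h0
    unfold uPoly
    rw [Finset.sum_eq_single (fun _ => c)]
    · have : Crest.FinProb.bernoulliWeight t (fun _ : EdgeSlot n => c) = 1 := by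
        unfold Crest.FinProb.bernoulliWeight
        exact Finset.prod_eq_one (fun e _ => h1 e)
      rw [this, one_mul]
    · intro x _ hx
      have : ∃ e, x e ≠ c := by
        by_contra hcon
        push Not at hcon
        exact hx (funext hcon)
      obtain ⟨e, he⟩ := this
      have hxe : x e = !c := by
        cases c <;> cases hh : x e <;> simp_all
      have : Crest.FinProb.bernoulliWeight t x = 0 := by
        unfold Crest.FinProb.bernoulliWeight
        refine Finset.prod_eq_zero (Finset.mem_univ e) ?_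
        rw [hxe]
        exact h0 e
      rw [this, zero_mul]
    · intro h
      exact absurd (Finset.mem_univ _) h
  have hu1 : uPoly f 1 = 1 := by
    rw [hall true 1 (by simp) (by simp)]
    obtain ⟨G, hG⟩ := hne
    have htop : graphOf (fun _ : EdgeSlot n => true) ∈ P := by
      refine hmono G _ ?_ hG
      intro i j hij
      rw [graphOf_adj]
      have hne : i ≠ j := hij.ne
      exact ⟨by simpa using hne, rfl⟩
    have : F (fun _ => true) = true := (hFiff _).2 htop
    simp [hfdef, Bias.bf, this]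
  have hu0 : uPoly f 0 = 0 := by
    rw [hall false 0 (by simp) (by simp)]
    have hbot : graphOf (fun _ : EdgeSlot n => false) ∉ P := by
      intro h
      apply hnu
      ext G
      simp only [Set.mem_univ, iff_true]
      refine hmono _ G ?_ h
      intro i j hij
      rw [graphOf_adj] at hij
      obtain ⟨_, h2⟩ := hij
      simp at h2
    have : ¬ F (fun _ => false) = true := fun h => hbot ((hFiff _).1 h)
    simp [hfdef, Bias.bf, this]
  have hq1' : q < 1 := by
    rcases lt_or_eq_of_le hq1 with h | h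
    · exact h
    · rw [h, hu1] at hcon
      linarith
  have hp0' : 0 < p := by
    rcases lt_or_eq_of_le hp0 with h | h
    · exact h
    · rw [← h, hu0] at hp
      linarith
  have hnR : (2 : ℝ) ≤ n := by exact_mod_cast hn
  have hL0 : 0 < Real.log n := Real.log_pos (by linarith)
  set L := Real.log n with hL
  have h2ε : 0 < 2 * ε := by linarith
  have hlog0 : 0 < Real.log (1 / (2 * ε)) := by
    apply Real.log_pos
    rw [lt_div_iff₀ h2ε]
    linarith
  have hΔ : 0 < 2 ^ 19 / L ^ 2 * Real.log (1 / (2 * ε)) := by positivity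
  have hpq : p < q := by linarith
  set TI : ℝ → ℝ := fun t => ∑ e, Crest.FinProb.bernoulliProb t
      {x | F (Function.update x e true) ≠ F (Function.update x e false)} with hTI
  have hIcc : ∀ t ∈ Set.Icc p q, 0 < t ∧ t < 1 := by
    intro t ht
    exact ⟨by linarith [ht.1], by linarith [ht.2]⟩
  have hd : ∀ t ∈ Set.Icc p q, HasDerivAt (uPoly f) (TI t) t := by
    intro t ht
    let b : Bias := ⟨t, (hIcc t ht).1, (hIcc t ht).2⟩
    have h1 := b.hasDerivAt_uPoly f
    rw [b.sum_del_div_eq f hf01 hupdate, ← b.total_eq F] at h1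
    exact h1
  have hnn : ∀ t ∈ Set.Icc p q, 0 ≤ TI t := by
    intro t ht
    let b : Bias := ⟨t, (hIcc t ht).1, (hIcc t ht).2⟩
    exact b.total_nonneg F
  have hvar : ∀ t ∈ Set.Icc p q, (L ^ 2 / 2 ^ 17) * (uPoly f t * (1 - uPoly f t)) ≤ TI t := by
    intro t ht
    let b : Bias := ⟨t, (hIcc t ht).1, (hIcc t ht).2⟩
    have h1 := var_bound_edge n hn b F hsym
    have h2 : Crest.FinProb.bernoulliProb b.p {x | F x = true} = uPoly f t := by
      rw [hset2]
      exact hset t
    rw [h2] at h1
    have h3 : (L ^ 2 / 2 ^ 17) * (uPoly f t * (1 - uPoly f t)) ≤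
        (L ^ 2 / 2 ^ 17) * (2 ^ 17 / L ^ 2 * TI t) :=
      mul_le_mul_of_nonneg_left h1 (by positivity)
    have h4 : (L ^ 2 / 2 ^ 17) * (2 ^ 17 / L ^ 2 * TI t) = TI t := by
      field_simp
    rwa [h4] at h3
  have hode := logit_ode hpq hd hnn hvar hε0 hε hp hcon
  -- the contradiction
  have h5 : 4 * Real.log (1 / (2 * ε)) ≤ (L ^ 2 / 2 ^ 17) * (q - p) := by
    have h6 : 2 ^ 19 / L ^ 2 * Real.log (1 / (2 * ε)) ≤ q - p := by linarith
    have h7 := mul_le_mul_of_nonneg_left h6 (by positivity : 0 ≤ L ^ 2 / 2 ^ 17)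
    have h8 : (L ^ 2 / 2 ^ 17) * (2 ^ 19 / L ^ 2 * Real.log (1 / (2 * ε))) =
        4 * Real.log (1 / (2 * ε)) := by
      field_simp
      norm_num
    linarith
  have h1ε : 0 < 1 - ε := by linarith
  have h6 : Real.log (1 - ε) - Real.log ε ≤ 2 * Real.log (1 / (2 * ε)) := by
    have h7 : Real.log (4 * ε * (1 - ε)) ≤ 0 :=
      Real.log_nonpos (by positivity) (by nlinarith [sq_nonneg (2 * ε - 1)])
    have h8 : Real.log (4 * ε * (1 - ε)) = 2 * Real.log 2 + Real.log ε + Real.log (1 - ε) := by
      rw [Real.log_mul (by positivity) (by positivity), Real.log_mul (by norm_num) (by positivity)]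
      have : Real.log 4 = 2 * Real.log 2 := by
        rw [show (4 : ℝ) = 2 ^ 2 by norm_num, Real.log_pow]
        norm_num
      rw [this]
    have h9 : Real.log (1 / (2 * ε)) = - (Real.log 2 + Real.log ε) := by
      rw [one_div, Real.log_inv, Real.log_mul (by norm_num) (by positivity)]
    rw [h9]
    linarith
  linarith

end Crest.Agent.S0077
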