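import Crest.Statements.S0078
import Crest.Agent.BiasedCube.Bridge

set_option autoImplicit false
open Crest Crest.CombinatoricsR

namespace Crest.Agent.S0078

/-- The `r`-sets of `Fin n` as an incidence structure. -/
def hyperInc (n r : ℕ) :
    Crest.Agent.BC.Inc (Fin n) (Crest.CombinatoricsR.HypergraphCube.HyperedgeSlot n r) r where
  inc e := e.1
  card_inc e := e.2
  inc_inj := Subtype.val_injective
  act σ e := Crest.CombinatoricsR.HypergraphCube.relabelSlot σ e
  inc_act _ _ := rfl

/-- For every r ≥ 3 there is a real constant C such that for all n ≥ r, all 0 < p < 1 and every Boolean function f of the simple r-uniform hypergraph on n labelled vertices that is invariant under renaming the vertices (no monotonicity assumed), the variance of f under independent edge-coins of bias p, namely P(f = true) · (1 - P(f = true)), is at most C · (log n)^(-r/(r-1)) times the total pivotal influence of f at bias p (natural logarithm). -/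
theorem result (r : ℕ) (hr : 3 ≤ r) :
    ∃ C : ℝ, ∀ n : ℕ, r ≤ n → ∀ p : ℝ, 0 < p → p < 1 →
      ∀ f : (Crest.CombinatoricsR.HypergraphCube.HyperedgeSlot n r → Bool) → Bool,
        Crest.CombinatoricsR.HypergraphCube.IsSymmetric f →
          Crest.CombinatoricsR.HypergraphCube.probTrue p f *
              (1 - Crest.CombinatoricsR.HypergraphCube.probTrue p f) ≤
            C / Real.log n ^ ((r : ℝ) / ((r : ℝ) - 1)) *
              Crest.CombinatoricsR.HypergraphCube.totalInfluence p f := by
  refine ⟨Crest.Agent.BC.cstR r + (724 + 2 * r) ^ 2, ?_⟩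
  intro n hn p hp0 hp1 f hf
  let b : Crest.Agent.BC.Bias := ⟨p, hp0, hp1⟩
  have hrR : (3 : ℝ) ≤ r := by exact_mod_cast hr
  have hnR : (3 : ℝ) ≤ n := by
    have : 3 ≤ n := by omega
    exact_mod_cast this
  set L := Real.log n with hL
  have hL1 : 1 ≤ L := by
    rw [hL, Real.le_log_iff_exp_le (by linarith)]
    have := Real.exp_one_lt_d9
    linarith
  have hL0 : 0 < L := by linarith
  set β : ℝ := (r : ℝ) / ((r : ℝ) - 1) with hβ
  have hr1 : 0 < (r : ℝ) - 1 := by linarith
  have hβ2 : β ≤ 2 := by
    rw [hβ, div_le_iff₀ hr1]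
    linarith
  have hLβ0 : 0 < L ^ β := Real.rpow_pos_of_pos hL0 _
  have hC0 : 0 ≤ Crest.Agent.BC.cstR r := by
    unfold Crest.Agent.BC.cstR
    positivity
  have hTI : 0 ≤ Crest.CombinatoricsR.HypergraphCube.totalInfluence p f := b.total_nonneg f
  by_cases hcase : 2 * r ≤ n ∧ 724 ≤ L
  · have hcard : Fintype.card (Fin n) = n := Fintype.card_fin n
    have h1 := Crest.Agent.BC.var_log_bool (hyperInc n r) (by omega) b f (fun σ x => hf σ x)
      (by rw [hcard]; exact hcase.1) (by rw [hcard]; exact hcase.2)
    rw [hcard] at h1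
    refine le_trans h1 ?_
    refine mul_le_mul_of_nonneg_right ?_ hTI
    apply div_le_div_of_nonneg_right _ hLβ0.le
    have : (0 : ℝ) ≤ (724 + 2 * r) ^ 2 := by positivity
    linarith
  · have hLle : L ≤ 724 + 2 * r := by
      by_cases h2 : 724 ≤ L
      · have h3 : n < 2 * r := by
          by_contra h4
          exact hcase ⟨by omega, h2⟩
        have h4 : L ≤ n - 1 := Real.log_le_sub_one_of_pos (by linarith)
        have h5 : (n : ℝ) < 2 * r := by exact_mod_cast h3
        linarith
      · have : (0 : ℝ) ≤ r := by positivity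
        linarith
    have hLβ : L ^ β ≤ (724 + 2 * r) ^ 2 := by
      have h1 : L ^ β ≤ L ^ (2 : ℝ) := Real.rpow_le_rpow_of_exponent_le hL1 hβ2
      have h2 : L ^ (2 : ℝ) = L ^ 2 := by
        norm_num
      rw [h2] at h1
      exact h1.trans (pow_le_pow_left₀ hL0.le hLle 2)
    have h1 := b.poincare_bool f
    have h2 : (1 : ℝ) / 4 ≤ (Crest.Agent.BC.cstR r + (724 + 2 * r) ^ 2) / L ^ β := by
      rw [le_div_iff₀ hLβ0]
      linarith
    exact h1.trans (mul_le_mul_of_nonneg_right h2 hTI)

end Crest.Agent.S0078
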