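-- Sharpness of the exponent 1/3 (row 82): explicit three-atom wedge example on the cube.
import Crest.Statements.S0110

set_option autoImplicit false
open MeasureTheory
open scoped ENNReal NNReal
open Crest.AnalysisR.OT
open Crest Crest.AnalysisR Crest.AnalysisR.OT

namespace Crest.Agent.S0110

open scoped RealInnerProductSpace

/-- Euclidean space of dimension `d`. -/
abbrev Eu (d : ℕ) := EuclideanSpace ℝ (Fin d)

section Fenchel

set_option linter.unusedSectionVars false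

variable {d : ℕ} {ρ : Measure (Eu d)} [IsProbabilityMeasure ρ] {L : ℝ}
  {y : Fin 3 → Eu d} {c : Fin 3 → ℝ} {a : Eu d → Fin 3}

/-- Extension of the weights `c` to the whole space. -/
noncomputable def cc (y : Fin 3 → Eu d) (c : Fin 3 → ℝ) (z : Eu d) : ℝ :=
  ∑ b, Set.indicator {y b} (fun _ => c b) z

lemma cc_apply (hy : Function.Injective y) (b : Fin 3) : cc y c (y b) = c b := by
  unfold cc
  rw [Finset.sum_eq_single b]
  · simp
  · intro b' _ hb'
    apply Set.indicator_of_notMem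
    simp only [Set.mem_singleton_iff]
    exact fun h => hb' (hy h).symm
  · simp

lemma measurable_cc : Measurable (cc y c) := by
  unfold cc
  refine Finset.measurable_sum _ (fun b _ => ?_)
  exact measurable_const.indicator (measurableSet_singleton _)

/-- The function `V` used in the Fenchel argument. -/
noncomputable def VV (y : Fin 3 → Eu d) (c : Fin 3 → ℝ) (z : Eu d) : ℝ :=
  ‖z‖ ^ 2 - 2 * cc y c z

lemma measurable_VV : Measurable (VV y c) := by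
  unfold VV
  exact (measurable_norm.pow_const 2).sub (measurable_const.mul measurable_cc)

lemma ae_mem_range {S T : Eu d → Eu d} (hS : Measurable S) (hT : Measurable T)
    (hTr : ∀ x, T x ∈ Set.range y) (hmap : ρ.map S = ρ.map T) :
    ∀ᵐ x ∂ρ, ∃ b, S x = y b := by
  have hfin : MeasurableSet (Set.range y) := (Set.finite_range y).measurableSet
  have h0 : (ρ.map S) (Set.range y)ᶜ = 0 := by
    rw [hmap, Measure.map_apply hT hfin.compl]
    have : T ⁻¹' (Set.range y)ᶜ = ∅ := by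
      ext x; simpa using hTr x
    rw [this]; simp
  rw [Measure.map_apply hS hfin.compl] at h0
  have := (measure_eq_zero_iff_ae_notMem.mp h0)
  filter_upwards [this] with x hx
  obtain ⟨b, hb⟩ : S x ∈ Set.range y := by simpa using hx
  exact ⟨b, hb.symm⟩

lemma norm_le_of_range {z : Eu d} (h : ∃ b, z = y b) : ‖z‖ ≤ ∑ b, ‖y b‖ := by
  obtain ⟨b, rfl⟩ := h
  exact Finset.single_le_sum (f := fun b => ‖y b‖) (fun _ _ => norm_nonneg _) (Finset.mem_univ b)

lemma abs_cc_le (hy : Function.Injective y) {z : Eu d} (h : ∃ b, z = y b) :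
    |cc y c z| ≤ ∑ b, |c b| := by
  obtain ⟨b, rfl⟩ := h
  rw [cc_apply hy]
  exact Finset.single_le_sum (f := fun b => |c b|) (fun _ _ => abs_nonneg _) (Finset.mem_univ b)

lemma integrable_sq {S : Eu d → Eu d} (hS : Measurable S) (hL : ∀ᵐ x ∂ρ, ‖x‖ ≤ L)
    (hr : ∀ᵐ x ∂ρ, ∃ b, S x = y b) : Integrable (fun x => ‖x - S x‖ ^ 2) ρ := by
  refine Integrable.of_bound ?_ ((L + ∑ b, ‖y b‖) ^ 2) ?_
  · exact ((measurable_id.sub hS).norm.pow_const 2).aestronglyMeasurable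
  · filter_upwards [hL, hr] with x hx hb
    have h1 : ‖x - S x‖ ≤ L + ∑ b, ‖y b‖ :=
      (norm_sub_le _ _).trans (add_le_add hx (norm_le_of_range hb))
    rw [Real.norm_of_nonneg (by positivity)]
    exact pow_le_pow_left₀ (norm_nonneg _) h1 2

lemma integrable_VV (hy : Function.Injective y) {S : Eu d → Eu d} (hS : Measurable S)
    (hr : ∀ᵐ x ∂ρ, ∃ b, S x = y b) : Integrable (fun x => VV y c (S x)) ρ := by
  refine Integrable.of_bound ?_ ((∑ b, ‖y b‖) ^ 2 + 2 * ∑ b, |c b|) ?_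
  · exact (measurable_VV.comp hS).aestronglyMeasurable
  · filter_upwards [hr] with x hb
    have h1 := norm_le_of_range hb
    have h2 := abs_cc_le (c := c) hy hb
    unfold VV
    rw [Real.norm_eq_abs]
    have h3 : ‖S x‖ ^ 2 ≤ (∑ b, ‖y b‖) ^ 2 := pow_le_pow_left₀ (norm_nonneg _) h1 2
    have h4 : 0 ≤ ‖S x‖ ^ 2 := by positivity
    rw [abs_le]
    have h5 := abs_le.mp h2
    constructor <;> nlinarith [h5.1, h5.2]

lemma integral_VV_eq {S T : Eu d → Eu d} (hS : Measurable S) (hT : Measurable T)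
    (hmap : ρ.map S = ρ.map T) :
    ∫ x, VV y c (S x) ∂ρ = ∫ x, VV y c (T x) ∂ρ := by
  rw [← integral_map hS.aemeasurable measurable_VV.aestronglyMeasurable,
    ← integral_map hT.aemeasurable measurable_VV.aestronglyMeasurable, hmap]

/-- The Fenchel gap. -/
noncomputable def gap (y : Fin 3 → Eu d) (c : Fin 3 → ℝ) (a : Eu d → Fin 3) (S : Eu d → Eu d)
    (x : Eu d) : ℝ :=
  (⟪x, y (a x)⟫ - c (a x)) - (⟪x, S x⟫ - cc y c (S x))

lemma gap_identity (hy : Function.Injective y) (S : Eu d → Eu d) (x : Eu d) :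
    2 * gap y c a S x = (‖x - S x‖ ^ 2 - VV y c (S x))
      - (‖x - y (a x)‖ ^ 2 - VV y c (y (a x))) := by
  unfold gap VV
  rw [norm_sub_sq_real, norm_sub_sq_real, cc_apply hy]
  ring

lemma integral_gap (hy : Function.Injective y) {S : Eu d → Eu d} (ha : Measurable a)
    (hS : Measurable S) (hL : ∀ᵐ x ∂ρ, ‖x‖ ≤ L)
    (hmap : ρ.map S = ρ.map (fun x => y (a x))) :
    Integrable (gap y c a S) ρ ∧
    ∫ x, ‖x - S x‖ ^ 2 ∂ρ - ∫ x, ‖x - y (a x)‖ ^ 2 ∂ρ = 2 * ∫ x, gap y c a S x ∂ρ := by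
  have hT : Measurable (fun x => y (a x)) := (measurable_of_finite y).comp ha
  have hr : ∀ᵐ x ∂ρ, ∃ b, S x = y b :=
    ae_mem_range hS hT (fun x => ⟨a x, rfl⟩) hmap
  have hrT : ∀ᵐ x ∂ρ, ∃ b, y (a x) = y b := Filter.Eventually.of_forall fun x => ⟨a x, rfl⟩
  have i1 := integrable_sq hS hL hr
  have i2 := integrable_sq (S := fun x => y (a x)) hT hL hrT
  have i3 := integrable_VV (c := c) hy hS hr
  have i4 := integrable_VV (c := c) hy hT hrT
  have hfun : gap y c a S = fun x => (1 / 2 : ℝ) * ((‖x - S x‖ ^ 2 - VV y c (S x))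
      - (‖x - y (a x)‖ ^ 2 - VV y c (y (a x)))) := by
    funext x
    rw [← gap_identity hy S x]; ring
  have hA : Integrable (fun x => ‖x - S x‖ ^ 2 - VV y c (S x)) ρ := i1.sub i3
  have hB : Integrable (fun x => ‖x - y (a x)‖ ^ 2 - VV y c (y (a x))) ρ := i2.sub i4
  have hint : Integrable (fun x => (‖x - S x‖ ^ 2 - VV y c (S x))
      - (‖x - y (a x)‖ ^ 2 - VV y c (y (a x)))) ρ := hA.sub hB
  refine ⟨?_, ?_⟩
  · rw [hfun]; exact hint.const_mul _
  · have hV := integral_VV_eq (y := y) (c := c) hS hT hmap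
    rw [hfun, integral_const_mul, integral_sub hA hB, integral_sub i1 i3,
      integral_sub i2 i4, hV]
    ring

lemma gap_nonneg (hy : Function.Injective y)
    (hmax : ∀ x b, ⟪x, y b⟫ - c b ≤ ⟪x, y (a x)⟫ - c (a x)) {S : Eu d → Eu d} {x : Eu d}
    (hb : ∃ b, S x = y b) : 0 ≤ gap y c a S x := by
  obtain ⟨b, hb⟩ := hb
  unfold gap
  rw [hb, cc_apply hy]
  linarith [hmax x b]

lemma lint_eq {S : Eu d → Eu d} (h : Integrable (fun x => ‖x - S x‖ ^ 2) ρ) :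
    ∫⁻ x, ‖x - S x‖ₑ ^ 2 ∂ρ = ENNReal.ofReal (∫ x, ‖x - S x‖ ^ 2 ∂ρ) := by
  rw [ofReal_integral_eq_lintegral_ofReal h (Filter.Eventually.of_forall fun x => by positivity)]
  refine lintegral_congr fun x => ?_
  rw [ENNReal.ofReal_pow (norm_nonneg _), ofReal_norm]

/-- A selection of maximisers of the affine scores is an optimal map. -/
theorem isOptimal_of_sel (hy : Function.Injective y) (ha : Measurable a)
    (hL : ∀ᵐ x ∂ρ, ‖x‖ ≤ L)
    (hmax : ∀ x b, ⟪x, y b⟫ - c b ≤ ⟪x, y (a x)⟫ - c (a x)) :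
    IsOptimalMap ρ (ρ.map fun x => y (a x)) (fun x => y (a x)) := by
  have hT : Measurable (fun x => y (a x)) := (measurable_of_finite y).comp ha
  refine ⟨hT, rfl, fun S hS hmap => ?_⟩
  have hr : ∀ᵐ x ∂ρ, ∃ b, S x = y b :=
    ae_mem_range hS hT (fun x => ⟨a x, rfl⟩) hmap
  have hrT : ∀ᵐ x ∂ρ, ∃ b, y (a x) = y b := Filter.Eventually.of_forall fun x => ⟨a x, rfl⟩
  have i1 := integrable_sq hS hL hr
  have i2 := integrable_sq (S := fun x => y (a x)) hT hL hrT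
  rw [lint_eq i1, lint_eq i2]
  apply ENNReal.ofReal_le_ofReal
  obtain ⟨-, h⟩ := integral_gap (c := c) hy ha hS hL hmap
  have hg : 0 ≤ ∫ x, gap y c a S x ∂ρ :=
    integral_nonneg_of_ae (by
      filter_upwards [hr] with x hb using gap_nonneg hy hmax hb)
  linarith

/-- Any optimal map is almost everywhere a maximiser of the affine scores. -/
theorem ae_argmax_of_optimal (hy : Function.Injective y) (ha : Measurable a)
    (hL : ∀ᵐ x ∂ρ, ‖x‖ ≤ L)
    (hmax : ∀ x b, ⟪x, y b⟫ - c b ≤ ⟪x, y (a x)⟫ - c (a x)) {S : Eu d → Eu d}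
    (hopt : IsOptimalMap ρ (ρ.map fun x => y (a x)) S) :
    ∀ᵐ x ∂ρ, ∃ b, S x = y b ∧ ⟪x, y b⟫ - c b = ⟪x, y (a x)⟫ - c (a x) := by
  have hT : Measurable (fun x => y (a x)) := (measurable_of_finite y).comp ha
  obtain ⟨hS, hmap, hmin⟩ := hopt
  have hr : ∀ᵐ x ∂ρ, ∃ b, S x = y b :=
    ae_mem_range hS hT (fun x => ⟨a x, rfl⟩) hmap
  have hrT : ∀ᵐ x ∂ρ, ∃ b, y (a x) = y b := Filter.Eventually.of_forall fun x => ⟨a x, rfl⟩
  have i1 := integrable_sq hS hL hr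
  have i2 := integrable_sq (S := fun x => y (a x)) hT hL hrT
  have h1 := hmin (fun x => y (a x)) hT rfl
  rw [lint_eq i1, lint_eq i2, ENNReal.ofReal_le_ofReal_iff (integral_nonneg fun x => by positivity)]
    at h1
  obtain ⟨igap, h⟩ := integral_gap (c := c) hy ha hS hL hmap
  have hnn : 0 ≤ᵐ[ρ] gap y c a S := by
    filter_upwards [hr] with x hb using gap_nonneg hy hmax hb
  have hg : 0 ≤ ∫ x, gap y c a S x ∂ρ := integral_nonneg_of_ae hnn
  have h0 : ∫ x, gap y c a S x ∂ρ = 0 := by linarith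
  have hz := (integral_eq_zero_iff_of_nonneg_ae hnn igap).mp h0
  filter_upwards [hz, hr] with x hzx hb
  obtain ⟨b, hb⟩ := hb
  refine ⟨b, hb, ?_⟩
  have : gap y c a S x = 0 := hzx
  unfold gap at this
  rw [hb, cc_apply hy] at this
  linarith

end Fenchel


section Cube

variable {d : ℕ}

/-- The cube `[-1,1]^d`. -/
def cube (d : ℕ) : Set (Eu d) := {x | ∀ i, |x i| ≤ 1}

lemma measurable_coord (i : Fin d) : Measurable (fun x : Eu d => x i) :=
  (EuclideanSpace.proj (𝕜 := ℝ) i).continuous.measurable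

lemma measurableSet_box (l u : Fin d → ℝ) :
    MeasurableSet {x : Eu d | ∀ i, l i ≤ x i ∧ x i ≤ u i} := by
  have : {x : Eu d | ∀ i, l i ≤ x i ∧ x i ≤ u i}
      = ⋂ i, ({x : Eu d | l i ≤ x i} ∩ {x : Eu d | x i ≤ u i}) := by
    ext x; simp
  rw [this]
  refine MeasurableSet.iInter fun i => ?_
  exact (measurableSet_le measurable_const (measurable_coord i)).inter
    (measurableSet_le (measurable_coord i) measurable_const)

lemma vol_box (l u : Fin d → ℝ) :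
    volume {x : Eu d | ∀ i, l i ≤ x i ∧ x i ≤ u i} = ∏ i, ENNReal.ofReal (u i - l i) := by
  have mp := PiLp.volume_preserving_toLp (Fin d)
  have h := mp.measure_preimage (measurableSet_box l u).nullMeasurableSet
  rw [← h]
  have : (WithLp.toLp 2 : (Fin d → ℝ) → _) ⁻¹' {x : Eu d | ∀ i, l i ≤ x i ∧ x i ≤ u i}
      = Set.Icc l u := by
    ext x
    simp [Set.mem_Icc, Pi.le_def, forall_and]
  rw [this, Real.volume_Icc_pi]

lemma cube_eq_box : cube d = {x : Eu d | ∀ i, (fun _ => (-1 : ℝ)) i ≤ x i ∧ x i ≤ (fun _ => (1 : ℝ)) i} := by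
  ext x
  simp [cube, abs_le]

lemma measurableSet_cube : MeasurableSet (cube d) := by
  rw [cube_eq_box]; exact measurableSet_box _ _

lemma vol_cube : volume (cube d) = ENNReal.ofReal (2 ^ d) := by
  rw [cube_eq_box, vol_box, ENNReal.ofReal_pow (by norm_num)]
  norm_num

lemma vol_cube_ne_zero : volume (cube d) ≠ 0 := by
  rw [vol_cube]; simp

lemma vol_cube_ne_top : volume (cube d) ≠ ∞ := by
  rw [vol_cube]; exact ENNReal.ofReal_ne_top

instance isProb_rho : IsProbabilityMeasure (uniformProbOn (cube d)) := by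
  constructor
  simp only [uniformProbOn, Measure.smul_apply, Measure.restrict_apply MeasurableSet.univ,
    Set.univ_inter, smul_eq_mul]
  exact ENNReal.inv_mul_cancel vol_cube_ne_zero vol_cube_ne_top

lemma ae_mem_cube : ∀ᵐ x ∂(uniformProbOn (cube d)), x ∈ cube d := by
  unfold uniformProbOn
  have : ∀ᵐ x ∂(volume.restrict (cube d)), x ∈ cube d := ae_restrict_mem measurableSet_cube
  exact Measure.ae_smul_measure this _

lemma norm_le_of_cube {x : Eu d} (hx : x ∈ cube d) : ‖x‖ ≤ Real.sqrt d := by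
  rw [EuclideanSpace.norm_eq]
  apply Real.sqrt_le_sqrt
  calc ∑ i, ‖x i‖ ^ 2 ≤ ∑ _i : Fin d, (1 : ℝ) := by
        refine Finset.sum_le_sum fun i _ => ?_
        have := hx i
        rw [Real.norm_eq_abs]
        exact pow_le_one₀ (abs_nonneg _) this
    _ = d := by simp

lemma rho_box {i₀ i₁ : Fin d} (h : i₀ ≠ i₁) {a₀ b₀ a₁ b₁ : ℝ} (h1 : -1 ≤ a₀) (h2 : a₀ ≤ b₀)
    (h3 : b₀ ≤ 1) (h4 : -1 ≤ a₁) (h5 : a₁ ≤ b₁) (h6 : b₁ ≤ 1) :
    uniformProbOn (cube d) {x | x ∈ cube d ∧ (a₀ ≤ x i₀ ∧ x i₀ ≤ b₀) ∧ (a₁ ≤ x i₁ ∧ x i₁ ≤ b₁)}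
      = ENNReal.ofReal ((b₀ - a₀) * (b₁ - a₁) / 4) := by
  set l : Fin d → ℝ := fun i => if i = i₀ then a₀ else if i = i₁ then a₁ else -1 with hl
  set u : Fin d → ℝ := fun i => if i = i₀ then b₀ else if i = i₁ then b₁ else 1 with hu
  have hset : {x : Eu d | x ∈ cube d ∧ (a₀ ≤ x i₀ ∧ x i₀ ≤ b₀) ∧ (a₁ ≤ x i₁ ∧ x i₁ ≤ b₁)}
      = {x : Eu d | ∀ i, l i ≤ x i ∧ x i ≤ u i} := by
    ext x
    simp only [Set.mem_ofPred_eq]
    constructor
    · rintro ⟨hc, ⟨h01, h02⟩, ⟨h11, h12⟩⟩ i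
      by_cases hi : i = i₀
      · subst hi; simp [hl, hu, h01, h02]
      · by_cases hi' : i = i₁
        · subst hi'; simp [hl, hu, hi, h11, h12]
        · have := abs_le.mp (hc i)
          simp [hl, hu, hi, hi', this.1, this.2]
    · intro hx
      have h0 := hx i₀
      have h1' := hx i₁
      simp only [hl, hu, if_true, if_neg h.symm] at h0 h1'
      refine ⟨fun i => ?_, h0, h1'⟩
      have hi := hx i
      rw [abs_le]
      by_cases hi0 : i = i₀
      · subst hi0; simp only [hl, hu, if_true] at hi; constructor <;> linarith [hi.1, hi.2]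
      · by_cases hi1 : i = i₁
        · subst hi1; simp only [hl, hu, if_neg hi0, if_true] at hi
          constructor <;> linarith [hi.1, hi.2]
        · simpa only [hl, hu, if_neg hi0, if_neg hi1] using hi
  have hsub : {x : Eu d | x ∈ cube d ∧ (a₀ ≤ x i₀ ∧ x i₀ ≤ b₀) ∧ (a₁ ≤ x i₁ ∧ x i₁ ≤ b₁)}
      ⊆ cube d := fun x hx => hx.1
  have hmeas : MeasurableSet {x : Eu d | x ∈ cube d ∧ (a₀ ≤ x i₀ ∧ x i₀ ≤ b₀) ∧ (a₁ ≤ x i₁ ∧ x i₁ ≤ b₁)} := by
    rw [hset]; exact measurableSet_box _ _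
  simp only [uniformProbOn, Measure.smul_apply, smul_eq_mul]
  rw [Measure.restrict_apply hmeas, Set.inter_eq_left.mpr hsub, hset, vol_box, vol_cube]
  have hnn : ∀ i, 0 ≤ u i - l i := by
    intro i
    simp only [hl, hu]
    split_ifs <;> linarith
  rw [← ENNReal.ofReal_prod_of_nonneg (fun i _ => hnn i)]
  have hpos : (0 : ℝ) < 2 ^ d := by positivity
  rw [← ENNReal.ofReal_inv_of_pos hpos, ← ENNReal.ofReal_mul (by positivity)]
  congr 1
  have hprod : ∏ i, (u i - l i) = 2 ^ d * ((b₀ - a₀) * (b₁ - a₁) / 4) := by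
    have h2 : ∏ i, ((u i - l i) / 2) = ((b₀ - a₀) / 2) * ((b₁ - a₁) / 2) := by
      rw [Finset.prod_eq_mul i₀ i₁ h]
      · simp [hl, hu, h.symm]
      · intro c _ hc
        simp [hl, hu, hc.1, hc.2]
      · simp
      · simp
    have h3 : ∏ i, ((u i - l i) / 2) = (∏ i, (u i - l i)) / 2 ^ d := by
      rw [Finset.prod_div_distrib]; simp
    rw [h3] at h2
    field_simp at h2 ⊢
    linarith
  rw [hprod]
  field_simp

/-- Reflection of the coordinate `i₁`. -/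
noncomputable def Rf (i₁ : Fin d) : Eu d ≃ₗᵢ[ℝ] Eu d :=
  LinearIsometryEquiv.piLpCongrRight 2
    (fun i => if i = i₁ then LinearIsometryEquiv.neg ℝ else LinearIsometryEquiv.refl ℝ ℝ)

lemma Rf_same (i₁ : Fin d) (x : Eu d) : (Rf i₁ x) i₁ = - x i₁ := by
  simp [Rf]

lemma Rf_ne {i₁ j : Fin d} (h : j ≠ i₁) (x : Eu d) : (Rf i₁ x) j = x j := by
  simp [Rf, h]

lemma Rf_mem_cube_iff (i₁ : Fin d) (x : Eu d) : Rf i₁ x ∈ cube d ↔ x ∈ cube d := by
  simp only [cube, Set.mem_ofPred_eq]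
  refine forall_congr' fun i => ?_
  by_cases h : i = i₁
  · subst h; rw [Rf_same, abs_neg]
  · rw [Rf_ne h]

lemma rho_map_Rf (i₁ : Fin d) :
    (uniformProbOn (cube d)).map (Rf i₁) = uniformProbOn (cube d) := by
  have mp := (LinearIsometryEquiv.measurePreserving (Rf i₁))
  have hpre : (Rf i₁) ⁻¹' cube d = cube d := by
    ext x; exact Rf_mem_cube_iff i₁ x
  have h := (mp.restrict_preimage (measurableSet_cube (d := d))).map_eq
  rw [hpre] at h
  unfold uniformProbOn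
  rw [Measure.map_smul, h]

end Cube


section Data

variable {d : ℕ}

/-- The three atoms. -/
noncomputable def ys (i₀ i₁ : Fin d) (ζ : ℝ) : Fin 3 → Eu d :=
  ![EuclideanSpace.single i₀ (-1 : ℝ), EuclideanSpace.single i₀ (1 : ℝ), EuclideanSpace.single i₁ ζ]

/-- The weights. -/
def cs (η : ℝ) : Fin 3 → ℝ := ![0, 0, -η]

/-- The selection of a maximiser. -/
noncomputable def sel (i₀ i₁ : Fin d) (ζ η : ℝ) (x : Eu d) : Fin 3 :=
  if |x i₀| ≤ ζ * x i₁ + η then 2 else if 0 ≤ x i₀ then 1 else 0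

lemma ys_coord (i₀ i₁ : Fin d) (h : i₀ ≠ i₁) (ζ : ℝ) (b : Fin 3) :
    (ys i₀ i₁ ζ b) i₀ = ![(-1 : ℝ), 1, 0] b := by
  fin_cases b <;> simp [ys, h]

lemma ys_inj {i₀ i₁ : Fin d} (h : i₀ ≠ i₁) (ζ : ℝ) : Function.Injective (ys i₀ i₁ ζ) := by
  intro b b' hb
  have := congrArg (fun z : Eu d => z i₀) hb
  simp only [ys_coord i₀ i₁ h] at this
  fin_cases b <;> fin_cases b' <;> simp_all <;> norm_num at this

lemma score_zero (i₀ i₁ : Fin d) (ζ η : ℝ) (x : Eu d) :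
    ⟪x, ys i₀ i₁ ζ 0⟫ - cs η 0 = - x i₀ := by
  simp [ys, cs, EuclideanSpace.inner_single_right]

lemma score_one (i₀ i₁ : Fin d) (ζ η : ℝ) (x : Eu d) :
    ⟪x, ys i₀ i₁ ζ 1⟫ - cs η 1 = x i₀ := by
  simp [ys, cs, EuclideanSpace.inner_single_right]

lemma score_two (i₀ i₁ : Fin d) (ζ η : ℝ) (x : Eu d) :
    ⟪x, ys i₀ i₁ ζ 2⟫ - cs η 2 = ζ * x i₁ + η := by
  simp [ys, cs, EuclideanSpace.inner_single_right]

lemma sel_max (i₀ i₁ : Fin d) (ζ η : ℝ) (x : Eu d) (b : Fin 3) :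
    ⟪x, ys i₀ i₁ ζ b⟫ - cs η b
      ≤ ⟪x, ys i₀ i₁ ζ (sel i₀ i₁ ζ η x)⟫ - cs η (sel i₀ i₁ ζ η x) := by
  have h0 := neg_abs_le (x i₀)
  have h1 := le_abs_self (x i₀)
  unfold sel
  split_ifs with h2 h3
  · rw [score_two]
    fin_cases b
    · show ⟪x, ys i₀ i₁ ζ 0⟫ - cs η 0 ≤ _
      rw [score_zero]; linarith
    · show ⟪x, ys i₀ i₁ ζ 1⟫ - cs η 1 ≤ _
      rw [score_one]; linarith
    · show ⟪x, ys i₀ i₁ ζ 2⟫ - cs η 2 ≤ _
      rw [score_two]
  · rw [score_one]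
    have h4 : |x i₀| = x i₀ := abs_of_nonneg h3
    fin_cases b
    · show ⟪x, ys i₀ i₁ ζ 0⟫ - cs η 0 ≤ _
      rw [score_zero]; linarith
    · show ⟪x, ys i₀ i₁ ζ 1⟫ - cs η 1 ≤ _
      rw [score_one]
    · show ⟪x, ys i₀ i₁ ζ 2⟫ - cs η 2 ≤ _
      rw [score_two]; linarith
  · rw [score_zero]
    have h4 : |x i₀| = - x i₀ := abs_of_neg (not_le.mp h3)
    fin_cases b
    · show ⟪x, ys i₀ i₁ ζ 0⟫ - cs η 0 ≤ _
      rw [score_zero]
    · show ⟪x, ys i₀ i₁ ζ 1⟫ - cs η 1 ≤ _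
      rw [score_one]; linarith
    · show ⟪x, ys i₀ i₁ ζ 2⟫ - cs η 2 ≤ _
      rw [score_two]; linarith

lemma measurable_sel (i₀ i₁ : Fin d) (ζ η : ℝ) : Measurable (sel i₀ i₁ ζ η) := by
  unfold sel
  have hm0 := measurable_coord (d := d) i₀
  have hm1 := measurable_coord (d := d) i₁
  refine Measurable.ite ?_ measurable_const (Measurable.ite ?_ measurable_const measurable_const)
  · exact measurableSet_le hm0.abs ((hm1.const_mul ζ).add_const η)
  · exact measurableSet_le measurable_const hm0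

/-- The transport map. -/
noncomputable def TT (i₀ i₁ : Fin d) (ζ η : ℝ) (x : Eu d) : Eu d :=
  ys i₀ i₁ ζ (sel i₀ i₁ ζ η x)

lemma measurable_TT (i₀ i₁ : Fin d) (ζ η : ℝ) : Measurable (TT i₀ i₁ ζ η) :=
  (measurable_of_finite (ys i₀ i₁ ζ)).comp (measurable_sel i₀ i₁ ζ η)

lemma ys_mem_cube (i₀ i₁ : Fin d) {ζ : ℝ} (hζ : |ζ| ≤ 1) (b : Fin 3) :
    ys i₀ i₁ ζ b ∈ cube d := by
  intro j
  fin_cases b
  · simp only [ys, Fin.zero_eta, Matrix.cons_val_zero, PiLp.single_apply]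
    split_ifs <;> simp
  · simp only [ys, Fin.mk_one, Matrix.cons_val_one, Matrix.cons_val_zero, PiLp.single_apply]
    split_ifs <;> simp
  · simp only [ys, Fin.reduceFinMk, Matrix.cons_val, PiLp.single_apply]
    split_ifs <;> simp [hζ]

lemma Rf_ys {i₀ i₁ : Fin d} (h : i₀ ≠ i₁) (ζ : ℝ) (b : Fin 3) :
    Rf i₁ (ys i₀ i₁ ζ b) = ys i₀ i₁ (-ζ) b := by
  ext j
  by_cases hj : j = i₁
  · subst hj
    rw [Rf_same]
    fin_cases b <;> simp [ys, h.symm]
  · rw [Rf_ne hj]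
    fin_cases b <;> simp [ys, hj]

lemma sel_Rf {i₀ i₁ : Fin d} (h : i₀ ≠ i₁) (ζ η : ℝ) (x : Eu d) :
    sel i₀ i₁ ζ η (Rf i₁ x) = sel i₀ i₁ (-ζ) η x := by
  unfold sel
  rw [Rf_same, Rf_ne h]
  simp only [neg_mul, mul_neg]

lemma TT_neg {i₀ i₁ : Fin d} (h : i₀ ≠ i₁) (ζ η : ℝ) (x : Eu d) :
    TT i₀ i₁ (-ζ) η x = Rf i₁ (TT i₀ i₁ ζ η (Rf i₁ x)) := by
  unfold TT
  rw [Rf_ys h, sel_Rf h]

end Data


section Main

variable {d : ℕ}

lemma map_eq_atoms {ρ : Measure (Eu d)} [IsProbabilityMeasure ρ] {y : Fin 3 → Eu d}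
    {a : Eu d → Fin 3} (ha : Measurable a) :
    ρ.map (fun x => y (a x))
      = ∑ b, ENNReal.ofReal (ρ (a ⁻¹' {b})).toReal • Measure.dirac (y b) := by
  classical
  have hT : Measurable (fun x => y (a x)) := (measurable_of_finite y).comp ha
  ext s hs
  rw [Measure.map_apply hT hs]
  simp only [Measure.coe_finsetSum, Finset.sum_apply, Measure.smul_apply, smul_eq_mul]
  have hset : (fun x => y (a x)) ⁻¹' s
      = ⋃ b ∈ Finset.univ.filter (fun b => y b ∈ s), a ⁻¹' {b} := by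
    ext x
    simp
  rw [hset, measure_biUnion_finset]
  · rw [Finset.sum_filter]
    refine Finset.sum_congr rfl fun b _ => ?_
    rw [ENNReal.ofReal_toReal (measure_ne_top _ _), Measure.dirac_apply' _ hs]
    by_cases hb : y b ∈ s
    · simp [hb]
    · simp [hb]
  · intro b _ b' _ hbb'
    exact Disjoint.preimage a (by simpa using hbb')
  · intro b _
    exact ha (measurableSet_singleton b)

lemma measurableSet_rbox (i₀ i₁ : Fin d) (a₀ b₀ a₁ b₁ : ℝ) :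
    MeasurableSet {x : Eu d | x ∈ cube d ∧ (a₀ ≤ x i₀ ∧ x i₀ ≤ b₀) ∧ (a₁ ≤ x i₁ ∧ x i₁ ≤ b₁)} := by
  have h0 := measurable_coord (d := d) i₀
  have h1 := measurable_coord (d := d) i₁
  exact measurableSet_cube.inter
    (((measurableSet_le measurable_const h0).inter (measurableSet_le h0 measurable_const)).inter
      ((measurableSet_le measurable_const h1).inter (measurableSet_le h1 measurable_const)))

lemma sel_preimage_pos {i₀ i₁ : Fin d} (h : i₀ ≠ i₁) {ζ η : ℝ} (hη0 : 0 < η) (hη1 : η ≤ 1 / 8)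
    (hζ : |ζ| ≤ η) (b : Fin 3) :
    0 < uniformProbOn (cube d) (sel i₀ i₁ ζ η ⁻¹' {b}) := by
  have key : ∀ x : Eu d, |x i₁| ≤ 1 → |ζ * x i₁| ≤ |x i₁| * η := by
    intro x hx
    rw [abs_mul, mul_comm]
    exact mul_le_mul_of_nonneg_left hζ (abs_nonneg _)
  fin_cases b
  · -- box around `x₀ ∈ [-1,-1/2]`
    have hsub : {x : Eu d | x ∈ cube d ∧ ((-1 : ℝ) ≤ x i₀ ∧ x i₀ ≤ -1 / 2) ∧ ((-1 : ℝ) ≤ x i₁ ∧ x i₁ ≤ 1)}
        ⊆ sel i₀ i₁ ζ η ⁻¹' {0} := by
      rintro x ⟨hc, ⟨h1, h2⟩, ⟨h3, h4⟩⟩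
      have hx1 : |x i₁| ≤ 1 := abs_le.mpr ⟨h3, h4⟩
      have h5 := abs_le.mp (key x hx1)
      have h6 : |x i₀| = - x i₀ := abs_of_neg (by linarith)
      have h7 : ¬ |x i₀| ≤ ζ * x i₁ + η := by
        rw [h6]; nlinarith [h5.2, abs_nonneg (x i₁)]
      have h8 : ¬ 0 ≤ x i₀ := by linarith
      simp only [Set.mem_preimage, Set.mem_singleton_iff, sel, if_neg h7, if_neg h8]
    refine lt_of_lt_of_le ?_ (measure_mono hsub)
    rw [rho_box h (by norm_num) (by norm_num) (by norm_num) (by norm_num) (by norm_num) (by norm_num)]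
    norm_num
  · have hsub : {x : Eu d | x ∈ cube d ∧ ((1 / 2 : ℝ) ≤ x i₀ ∧ x i₀ ≤ 1) ∧ ((-1 : ℝ) ≤ x i₁ ∧ x i₁ ≤ 1)}
        ⊆ sel i₀ i₁ ζ η ⁻¹' {1} := by
      rintro x ⟨hc, ⟨h1, h2⟩, ⟨h3, h4⟩⟩
      have hx1 : |x i₁| ≤ 1 := abs_le.mpr ⟨h3, h4⟩
      have h5 := abs_le.mp (key x hx1)
      have h6 : |x i₀| = x i₀ := abs_of_nonneg (by linarith)
      have h7 : ¬ |x i₀| ≤ ζ * x i₁ + η := by
        rw [h6]; nlinarith [h5.2, abs_nonneg (x i₁)]
      have h8 : 0 ≤ x i₀ := by linarith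
      simp only [Set.mem_preimage, Set.mem_singleton_iff, sel, if_neg h7, if_pos h8]
    refine lt_of_lt_of_le ?_ (measure_mono hsub)
    rw [rho_box h (by norm_num) (by norm_num) (by norm_num) (by norm_num) (by norm_num) (by norm_num)]
    norm_num
  · have hsub : {x : Eu d | x ∈ cube d ∧ ((-η / 2 : ℝ) ≤ x i₀ ∧ x i₀ ≤ η / 2) ∧ ((-1 / 2 : ℝ) ≤ x i₁ ∧ x i₁ ≤ 1 / 2)}
        ⊆ sel i₀ i₁ ζ η ⁻¹' {2} := by
      rintro x ⟨hc, ⟨h1, h2⟩, ⟨h3, h4⟩⟩
      have hx1 : |x i₁| ≤ 1 / 2 := abs_le.mpr ⟨by linarith, h4⟩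
      have h5 := abs_le.mp (key x (by linarith))
      have h6 : |x i₀| ≤ η / 2 := abs_le.mpr ⟨by linarith, h2⟩
      have h7 : |x i₀| ≤ ζ * x i₁ + η := by
        nlinarith [h5.1, abs_nonneg (x i₁)]
      simp only [Set.mem_preimage, Set.mem_singleton_iff, sel, if_pos h7]
    refine lt_of_lt_of_le ?_ (measure_mono hsub)
    rw [rho_box h (by linarith) (by linarith) (by linarith) (by norm_num) (by norm_num) (by norm_num)]
    simp only [ENNReal.ofReal_pos]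
    nlinarith

lemma prob_on {i₀ i₁ : Fin d} {ζ η : ℝ} (hζ : |ζ| ≤ 1) :
    IsProbabilityOn (cube d) ((uniformProbOn (cube d)).map (TT i₀ i₁ ζ η)) := by
  refine ⟨Measure.isProbabilityMeasure_map (measurable_TT i₀ i₁ ζ η).aemeasurable, ?_⟩
  rw [Measure.map_apply (measurable_TT i₀ i₁ ζ η) measurableSet_cube.compl]
  have : TT i₀ i₁ ζ η ⁻¹' (cube d)ᶜ = ∅ := by
    ext x
    simp only [Set.mem_preimage, Set.mem_compl_iff, Set.mem_empty_iff_false, iff_false, not_not]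
    exact ys_mem_cube i₀ i₁ hζ _
  rw [this]; simp

lemma three_atomic {i₀ i₁ : Fin d} (h : i₀ ≠ i₁) {ζ η : ℝ} (hη0 : 0 < η) (hη1 : η ≤ 1 / 8)
    (hζ : |ζ| ≤ η) :
    IsThreeAtomic ((uniformProbOn (cube d)).map (TT i₀ i₁ ζ η)) := by
  refine ⟨ys i₀ i₁ ζ, ys_inj h ζ,
    fun b => (uniformProbOn (cube d) (sel i₀ i₁ ζ η ⁻¹' {b})).toReal, fun b => ?_, ?_⟩
  · exact ENNReal.toReal_pos (sel_preimage_pos h hη0 hη1 hζ b).ne' (measure_ne_top _ _)
  · exact map_eq_atoms (measurable_sel i₀ i₁ ζ η)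

lemma optimal_TT {i₀ i₁ : Fin d} (h : i₀ ≠ i₁) (ζ η : ℝ) :
    IsOptimalMap (uniformProbOn (cube d)) ((uniformProbOn (cube d)).map (TT i₀ i₁ ζ η))
      (TT i₀ i₁ ζ η) :=
  isOptimal_of_sel (L := Real.sqrt d) (c := cs η) (ys_inj h ζ) (measurable_sel i₀ i₁ ζ η)
    (by filter_upwards [ae_mem_cube] with x hx using norm_le_of_cube hx)
    (sel_max i₀ i₁ ζ η)

lemma ae_argmax_TT {i₀ i₁ : Fin d} (h : i₀ ≠ i₁) (ζ η : ℝ) {S : Eu d → Eu d}
    (hS : IsOptimalMap (uniformProbOn (cube d)) ((uniformProbOn (cube d)).map (TT i₀ i₁ ζ η)) S) :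
    ∀ᵐ x ∂(uniformProbOn (cube d)), ∃ b, S x = ys i₀ i₁ ζ b ∧
      ⟪x, ys i₀ i₁ ζ b⟫ - cs η b
        = ⟪x, ys i₀ i₁ ζ (sel i₀ i₁ ζ η x)⟫ - cs η (sel i₀ i₁ ζ η x) :=
  ae_argmax_of_optimal (L := Real.sqrt d) (ys_inj h ζ) (measurable_sel i₀ i₁ ζ η)
    (by filter_upwards [ae_mem_cube] with x hx using norm_le_of_cube hx)
    (sel_max i₀ i₁ ζ η) hS

/-- The test box, where the two optimal maps are far apart. -/
def testBox (i₀ i₁ : Fin d) (η : ℝ) : Set (Eu d) :=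
  {x | x ∈ cube d ∧ (3 / 5 * η ≤ x i₀ ∧ x i₀ ≤ 7 / 5 * η) ∧ ((1 / 2 : ℝ) ≤ x i₁ ∧ x i₁ ≤ 1)}

lemma ae_first {i₀ i₁ : Fin d} (h : i₀ ≠ i₁) {η : ℝ} (hη0 : 0 < η) {S : Eu d → Eu d}
    (hS : IsOptimalMap (uniformProbOn (cube d)) ((uniformProbOn (cube d)).map (TT i₀ i₁ η η)) S) :
    ∀ᵐ x ∂(uniformProbOn (cube d)), x ∈ testBox i₀ i₁ η → S x = ys i₀ i₁ η 2 := by
  filter_upwards [ae_argmax_TT h η η hS] with x hx hB
  obtain ⟨b, hb, hscore⟩ := hx
  obtain ⟨-, ⟨h1, h2⟩, ⟨h3, h4⟩⟩ := hB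
  have habs : |x i₀| = x i₀ := abs_of_nonneg (by nlinarith)
  have hsel : sel i₀ i₁ η η x = 2 := by
    unfold sel
    rw [if_pos]
    rw [habs]; nlinarith
  rw [hsel, score_two] at hscore
  rw [hb]
  congr 1
  fin_cases b
  · exfalso
    have := score_zero i₀ i₁ η η x
    simp only [Fin.zero_eta] at hscore
    rw [this] at hscore
    nlinarith
  · exfalso
    have := score_one i₀ i₁ η η x
    simp only [Fin.mk_one] at hscore
    rw [this] at hscore
    nlinarith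
  · rfl

lemma ae_second {i₀ i₁ : Fin d} (h : i₀ ≠ i₁) {η : ℝ} (hη0 : 0 < η) {S : Eu d → Eu d}
    (hS : IsOptimalMap (uniformProbOn (cube d)) ((uniformProbOn (cube d)).map (TT i₀ i₁ (-η) η)) S) :
    ∀ᵐ x ∂(uniformProbOn (cube d)), x ∈ testBox i₀ i₁ η → S x = ys i₀ i₁ (-η) 1 := by
  filter_upwards [ae_argmax_TT h (-η) η hS] with x hx hB
  obtain ⟨b, hb, hscore⟩ := hx
  obtain ⟨-, ⟨h1, h2⟩, ⟨h3, h4⟩⟩ := hB
  have hx0 : 0 < x i₀ := by nlinarith
  have habs : |x i₀| = x i₀ := abs_of_pos hx0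
  have hsel : sel i₀ i₁ (-η) η x = 1 := by
    unfold sel
    rw [if_neg, if_pos hx0.le]
    rw [habs]; nlinarith
  rw [hsel, score_one] at hscore
  rw [hb]
  congr 1
  fin_cases b
  · exfalso
    have := score_zero i₀ i₁ (-η) η x
    simp only [Fin.zero_eta] at hscore
    rw [this] at hscore
    linarith
  · rfl
  · exfalso
    have := score_two i₀ i₁ (-η) η x
    simp only [Fin.reduceFinMk] at hscore
    rw [this] at hscore
    nlinarith

lemma lower_bound {i₀ i₁ : Fin d} (h : i₀ ≠ i₁) {η : ℝ} (hη0 : 0 < η) (hη1 : η ≤ 1 / 8)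
    {S S' : Eu d → Eu d}
    (hS : IsOptimalMap (uniformProbOn (cube d)) ((uniformProbOn (cube d)).map (TT i₀ i₁ η η)) S)
    (hS' : IsOptimalMap (uniformProbOn (cube d)) ((uniformProbOn (cube d)).map (TT i₀ i₁ (-η) η)) S') :
    ENNReal.ofReal (η / 10) ≤ ∫⁻ x, ‖S x - S' x‖ₑ ^ 2 ∂(uniformProbOn (cube d)) := by
  have hmeas : MeasurableSet (testBox i₀ i₁ η) := measurableSet_rbox i₀ i₁ _ _ _ _
  have hbox : uniformProbOn (cube d) (testBox i₀ i₁ η) = ENNReal.ofReal (η / 10) := by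
    unfold testBox
    rw [rho_box h (by linarith) (by linarith) (by linarith) (by norm_num) (by norm_num) (by norm_num)]
    congr 1
    ring
  rw [← hbox, ← lintegral_indicator_one hmeas]
  refine lintegral_mono_ae ?_
  filter_upwards [ae_first h hη0 hS, ae_second h hη0 hS'] with x h1 h2
  by_cases hx : x ∈ testBox i₀ i₁ η
  · rw [Set.indicator_of_mem hx, h1 hx, h2 hx]
    have hc : (ys i₀ i₁ η 2 - ys i₀ i₁ (-η) 1) i₀ = -1 := by
      simp [ys, h]
    have hn : (1 : ℝ) ≤ ‖ys i₀ i₁ η 2 - ys i₀ i₁ (-η) 1‖ := by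
      have := PiLp.norm_apply_le (ys i₀ i₁ η 2 - ys i₀ i₁ (-η) 1) i₀
      rw [hc] at this
      simpa using this
    have he : (1 : ℝ≥0∞) ≤ ‖ys i₀ i₁ η 2 - ys i₀ i₁ (-η) 1‖ₑ := by
      rw [← ofReal_norm, ← ENNReal.ofReal_one]
      exact ENNReal.ofReal_le_ofReal hn
    exact one_le_pow₀ he
  · rw [Set.indicator_of_notMem hx]
    exact zero_le

lemma cost_bound {i₀ i₁ : Fin d} (h : i₀ ≠ i₁) {η : ℝ} (hη0 : 0 < η) (hη1 : η ≤ 1 / 8) :
    ∫⁻ x, ‖TT i₀ i₁ η η x - Rf i₁ (TT i₀ i₁ η η x)‖ₑ ^ 2 ∂(uniformProbOn (cube d))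
      ≤ ENNReal.ofReal (8 * η ^ 3) := by
  set B : Set (Eu d) := {x | x ∈ cube d ∧ (-(2 * η) ≤ x i₀ ∧ x i₀ ≤ 2 * η) ∧ ((-1 : ℝ) ≤ x i₁ ∧ x i₁ ≤ 1)}
    with hB
  have hmeas : MeasurableSet B := measurableSet_rbox i₀ i₁ _ _ _ _
  have hbox : uniformProbOn (cube d) B = ENNReal.ofReal (2 * η) := by
    rw [hB, rho_box h (by linarith) (by linarith) (by linarith) (by norm_num) (by norm_num) (by norm_num)]
    congr 1
    ring
  have hle : ∀ᵐ x ∂(uniformProbOn (cube d)),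
      ‖TT i₀ i₁ η η x - Rf i₁ (TT i₀ i₁ η η x)‖ₑ ^ 2
        ≤ B.indicator (fun _ => ENNReal.ofReal (4 * η ^ 2)) x := by
    filter_upwards [ae_mem_cube] with x hx
    unfold TT
    rw [Rf_ys h]
    by_cases hs : |x i₀| ≤ η * x i₁ + η
    · have hsel : sel i₀ i₁ η η x = 2 := by
        unfold sel; rw [if_pos hs]
      have hx1 := abs_le.mp (hx i₁)
      have hxB : x ∈ B := by
        refine ⟨hx, abs_le.mp ?_, hx1⟩
        refine hs.trans ?_
        nlinarith [hx1.2]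
      rw [Set.indicator_of_mem hxB, hsel]
      have heq : ys i₀ i₁ η 2 - ys i₀ i₁ (-η) 2 = EuclideanSpace.single i₁ (2 * η) := by
        ext j
        by_cases hj : j = i₁
        · subst hj; simp [ys]; ring
        · simp [ys, hj]
      rw [heq, ← ofReal_norm, PiLp.norm_single, Real.norm_eq_abs, abs_of_pos (by linarith),
        ← ENNReal.ofReal_pow (by linarith)]
      apply ENNReal.ofReal_le_ofReal
      nlinarith
    · have hzero : ys i₀ i₁ η (sel i₀ i₁ η η x) - ys i₀ i₁ (-η) (sel i₀ i₁ η η x) = 0 := by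
        unfold sel
        rw [if_neg hs]
        split_ifs <;> simp [ys]
      rw [hzero]
      simp
  calc ∫⁻ x, ‖TT i₀ i₁ η η x - Rf i₁ (TT i₀ i₁ η η x)‖ₑ ^ 2 ∂(uniformProbOn (cube d))
      ≤ ∫⁻ x, B.indicator (fun _ => ENNReal.ofReal (4 * η ^ 2)) x ∂(uniformProbOn (cube d)) :=
        lintegral_mono_ae hle
    _ = ENNReal.ofReal (4 * η ^ 2) * uniformProbOn (cube d) B :=
        lintegral_indicator_const hmeas _
    _ = ENNReal.ofReal (8 * η ^ 3) := by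
        rw [hbox, ← ENNReal.ofReal_mul (by positivity)]
        congr 1
        ring

lemma exists_eta {α : ℝ} (hα : 1 / 3 < α) (C : ℝ≥0) :
    ∃ η : ℝ, 0 < η ∧ η ≤ 1 / 8 ∧ (C : ℝ) * (8 * η ^ 3) ^ α < η / 10 := by
  set β : ℝ := 3 * α - 1 with hβ
  have hβ0 : 0 < β := by rw [hβ]; linarith
  have hα0 : 0 < α := by linarith
  set K₀ : ℝ := (C : ℝ) * 8 ^ α with hK₀
  have hK₀nn : 0 ≤ K₀ := by positivity
  set M : ℝ := 20 * (K₀ + 1) with hM
  have hM0 : 0 < M := by positivity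
  set η : ℝ := min (1 / 8) ((1 / M) ^ (1 / β)) with hη
  have hpos : 0 < (1 / M) ^ (1 / β) := by positivity
  have hη0 : 0 < η := lt_min (by norm_num) hpos
  refine ⟨η, hη0, min_le_left _ _, ?_⟩
  have h1 : η ^ β ≤ 1 / M := by
    calc η ^ β ≤ ((1 / M) ^ (1 / β)) ^ β :=
          Real.rpow_le_rpow hη0.le (min_le_right _ _) hβ0.le
      _ = 1 / M := by
          rw [← Real.rpow_mul (by positivity), one_div_mul_cancel hβ0.ne', Real.rpow_one]
  have h2 : (8 * η ^ 3) ^ α = 8 ^ α * (η * η ^ β) := by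
    rw [Real.mul_rpow (by norm_num) (by positivity)]
    congr 1
    rw [← Real.rpow_natCast η 3, ← Real.rpow_mul hη0.le]
    have : η * η ^ β = η ^ (1 + β) := by
      rw [Real.rpow_add hη0, Real.rpow_one]
    rw [this]
    congr 1
    rw [hβ]; push_cast; ring
  rw [h2]
  have h3 : K₀ * η ^ β < 1 / 10 := by
    calc K₀ * η ^ β ≤ K₀ * (1 / M) := mul_le_mul_of_nonneg_left h1 hK₀nn
      _ < 1 / 10 := by
        rw [hM, mul_one_div, div_lt_div_iff₀ (by positivity) (by norm_num)]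
        nlinarith
  have h4 : (C : ℝ) * (8 ^ α * (η * η ^ β)) = η * (K₀ * η ^ β) := by
    rw [hK₀]; ring
  rw [h4]
  nlinarith

theorem main_cube (d : ℕ) (hd : 2 ≤ d) (α : ℝ) (hα : 1 / 3 < α) (C : ℝ≥0) :
    ∃ μ ν : Measure (Eu d),
      IsProbabilityOn (cube d) μ ∧ IsProbabilityOn (cube d) ν ∧
      IsThreeAtomic μ ∧ IsThreeAtomic ν ∧
      (∃ T, IsOptimalMap (uniformProbOn (cube d)) μ T) ∧
      (∃ T, IsOptimalMap (uniformProbOn (cube d)) ν T) ∧
      ∀ Tμ Tν : Eu d → Eu d,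
        IsOptimalMap (uniformProbOn (cube d)) μ Tμ →
        IsOptimalMap (uniformProbOn (cube d)) ν Tν →
        ∃ π : Measure (Eu d × Eu d), IsPairCoupling μ ν π ∧
          (C : ℝ≥0∞) * quadCost π ^ α < ∫⁻ x, ‖Tμ x - Tν x‖ₑ ^ 2 ∂(uniformProbOn (cube d)) := by
  obtain ⟨η, hη0, hη1, hηC⟩ := exists_eta hα C
  let i₀ : Fin d := ⟨0, by omega⟩
  let i₁ : Fin d := ⟨1, by omega⟩
  have h : i₀ ≠ i₁ := by
    intro hh
    have := congrArg Fin.val hh
    simp [i₀, i₁] at this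
  have habs : |η| ≤ η := by rw [abs_of_pos hη0]
  have habs' : |-η| ≤ η := by rw [abs_neg, abs_of_pos hη0]
  refine ⟨(uniformProbOn (cube d)).map (TT i₀ i₁ η η),
    (uniformProbOn (cube d)).map (TT i₀ i₁ (-η) η),
    prob_on (habs.trans (by linarith)), prob_on (habs'.trans (by linarith)),
    three_atomic h hη0 hη1 habs, three_atomic h hη0 hη1 habs',
    ⟨_, optimal_TT h η η⟩, ⟨_, optimal_TT h (-η) η⟩, fun Tμ Tν hTμ hTν => ?_⟩
  have hT := measurable_TT i₀ i₁ η η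
  have hR : Measurable (Rf i₁) := (Rf i₁).continuous.measurable
  have hν : (uniformProbOn (cube d)).map (TT i₀ i₁ (-η) η)
      = ((uniformProbOn (cube d)).map (TT i₀ i₁ η η)).map (Rf i₁) := by
    have hfun : TT i₀ i₁ (-η) η = (Rf i₁) ∘ (TT i₀ i₁ η η) ∘ (Rf i₁) := by
      funext x
      exact TT_neg h η η x
    rw [hfun]
    calc (uniformProbOn (cube d)).map ((Rf i₁) ∘ (TT i₀ i₁ η η) ∘ (Rf i₁))
        = ((uniformProbOn (cube d)).map (Rf i₁)).map ((Rf i₁) ∘ (TT i₀ i₁ η η)) :=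
          (Measure.map_map (hR.comp hT) hR).symm
      _ = (uniformProbOn (cube d)).map ((Rf i₁) ∘ (TT i₀ i₁ η η)) := by rw [rho_map_Rf]
      _ = ((uniformProbOn (cube d)).map (TT i₀ i₁ η η)).map (Rf i₁) :=
          (Measure.map_map hR hT).symm
  have hpair : Measurable (fun z : Eu d => (z, Rf i₁ z)) := measurable_id.prodMk hR
  refine ⟨((uniformProbOn (cube d)).map (TT i₀ i₁ η η)).map (fun z => (z, Rf i₁ z)), ⟨?_, ?_⟩, ?_⟩
  · rw [Measure.map_map measurable_fst hpair]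
    have : (Prod.fst ∘ fun z : Eu d => (z, Rf i₁ z)) = id := rfl
    rw [this, Measure.map_id]
  · rw [Measure.map_map measurable_snd hpair, hν]
    rfl
  · have hcost : quadCost (((uniformProbOn (cube d)).map (TT i₀ i₁ η η)).map (fun z => (z, Rf i₁ z)))
        ≤ ENNReal.ofReal (8 * η ^ 3) := by
      unfold quadCost
      have hm : Measurable (fun p : Eu d × Eu d => ‖p.1 - p.2‖ₑ ^ 2) :=
        ((measurable_fst.sub measurable_snd).enorm).pow_const 2
      rw [lintegral_map hm hpair]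
      have hm2 : Measurable (fun z : Eu d => ‖z - Rf i₁ z‖ₑ ^ 2) :=
        ((measurable_id.sub hR).enorm).pow_const 2
      rw [lintegral_map hm2 hT]
      exact cost_bound h hη0 hη1
    have hα0 : 0 ≤ α := by linarith
    refine lt_of_lt_of_le ?_ (lower_bound h hη0 hη1 hTμ hTν)
    calc (C : ℝ≥0∞) * quadCost (((uniformProbOn (cube d)).map (TT i₀ i₁ η η)).map (fun z => (z, Rf i₁ z))) ^ α
        ≤ (C : ℝ≥0∞) * (ENNReal.ofReal (8 * η ^ 3)) ^ α := by
          gcongr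
      _ = ENNReal.ofReal ((C : ℝ) * (8 * η ^ 3) ^ α) := by
          rw [ENNReal.ofReal_rpow_of_pos (by positivity), ENNReal.ofReal_mul (by positivity),
            ENNReal.ofReal_coe_nnreal]
      _ < ENNReal.ofReal (η / 10) := by
          rw [ENNReal.ofReal_lt_ofReal_iff (by positivity)]
          exact hηC

end Main

/-- The exponent one third is optimal, even on the cube with three-atom targets: for d ≥ 2, ρ the uniform probability measure on the cube of points of ℝᵈ with all coordinates in [-1, 1], every α > 1/3 and every C ≥ 0, there are three-atomic probability measures μ, ν on that cube, each admitting a quadratic optimal transport map from ρ, such that for all such optimal maps Tμ, Tν some coupling π of μ, ν has C · (∫ ‖y - z‖² dπ)^α < ∫ ‖Tμ - Tν‖² dρ. Hence ‖Tμ - Tν‖_{L²(ρ)} > √C · W₂(μ, ν)^α. -/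
theorem result
    (d : ℕ) (hd : 2 ≤ d) (α : ℝ) (hα : 1 / 3 < α) (C : ℝ≥0) :
    ∃ μ ν : Measure (EuclideanSpace ℝ (Fin d)),
      IsProbabilityOn {x : EuclideanSpace ℝ (Fin d) | ∀ i, |x i| ≤ 1} μ ∧
      IsProbabilityOn {x : EuclideanSpace ℝ (Fin d) | ∀ i, |x i| ≤ 1} ν ∧
      IsThreeAtomic μ ∧ IsThreeAtomic ν ∧
      (∃ T, IsOptimalMap (uniformProbOn {x : EuclideanSpace ℝ (Fin d) | ∀ i, |x i| ≤ 1}) μ T) ∧
      (∃ T, IsOptimalMap (uniformProbOn {x : EuclideanSpace ℝ (Fin d) | ∀ i, |x i| ≤ 1}) ν T) ∧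
      ∀ Tμ Tν : EuclideanSpace ℝ (Fin d) → EuclideanSpace ℝ (Fin d),
        IsOptimalMap (uniformProbOn {x : EuclideanSpace ℝ (Fin d) | ∀ i, |x i| ≤ 1}) μ Tμ →
        IsOptimalMap (uniformProbOn {x : EuclideanSpace ℝ (Fin d) | ∀ i, |x i| ≤ 1}) ν Tν →
        ∃ π : Measure (EuclideanSpace ℝ (Fin d) × EuclideanSpace ℝ (Fin d)), IsPairCoupling μ ν π ∧
          (C : ℝ≥0∞) * quadCost π ^ α < ∫⁻ x, ‖Tμ x - Tν x‖ₑ ^ 2 ∂(uniformProbOn {x : EuclideanSpace ℝ (Fin d) | ∀ i, |x i| ≤ 1}) :=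
  main_cube d hd α hα C

end Crest.Agent.S0110
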