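import Crest.Statements.S0112
-- import your own Crest.Agent.* helpers here
import Crest.Agent.Lib.ModBoot6

set_option autoImplicit false
open Crest Crest.AnalysisR Crest.AnalysisR.OperatorAlgebra

namespace Crest.Agent.S0112

section aux

open Crest.OpAlg Filter MeasureTheory Topology Set Crest.Agent.Lib.ModBoot
open scoped InnerProductSpace ComplexConjugate BoundedContinuousFunction Real

variable {H : Type*} [NormedAddCommGroup H] [InnerProductSpace ℂ H] [CompleteSpace H]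

local notation "BCF" => BoundedContinuousFunction ℝ ℂ

/-- The recovery at one scale. -/
lemma recovery_step (S : ModularDatum H) (herg : S.Ergodic)
    (ω : Ultrafilter ℕ) (hω : (ω : Filter ℕ) ≤ atTop)
    (T : H →L[ℂ] H) (s : ℝ) (ρ₀ : ℝ → ℂ) (Φ₀ : ℝ → ℂ) (hρ₀ : Integrable ρ₀)
    (hΦc : Continuous Φ₀) (hΦb : ∃ B, ∀ u, ‖Φ₀ u‖ ≤ B) (hΦ1 : ∀ u, |u| ≤ 1 → Φ₀ u = 1)
    (hΦ0 : ∀ u, 2 ≤ |u| → Φ₀ u = 0)
    (hΦρ : ∀ u, Φ₀ u = ∫ v, ρ₀ v * Complex.exp (Complex.I * (((2 * π * v) * u : ℝ) : ℂ)))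
    {c : ℝ} (hc : 0 < c) {δ : ℝ} (hδ : 0 < δ) (hδ1 : δ ≤ 1) {h : H} (hh : ‖h‖ = 1)
    (hband : S.D.SupportedIn (Set.Icc (s - δ) (s + δ)) h)
    (hmean : c ≤ ultraMean ω (fun t : ℝ => ‖T (S.D.wave t h)‖ ^ 2))
    {U₀ : ℝ} (hU₀ : 0 < U₀)
    (hU₀' : 6 * U₀ ^ 2 * (4 + (Real.exp ((s + 1) / 2) + 1) ^ 2) ≤ c / 4) :
    ∃ v : H →L[ℂ] H, v ∈ S.M ∧ ‖v‖ ≤ ∫ x, ‖ρ₀ x‖ ∧ U₀ ≤ ‖T (v S.vac)‖ ∧
      S.D.SupportedIn (Set.Icc (s - 4 * δ) (s + 4 * δ)) (v S.vac) := by
  set D := S.D with hD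
  obtain ⟨B, hB⟩ := hΦb
  -- the spectral cut-off at the scale δ
  let F : BCF := BoundedContinuousFunction.ofNormedAddCommGroup (fun u => Φ₀ ((u - s) / δ))
    (hΦc.comp ((continuous_id.sub continuous_const).div_const δ)) B (fun u => hB _)
  have hFu : ∀ u, F u = Φ₀ ((u - s) / δ) := fun u => rfl
  -- the kernel at this scale
  let ρ : ℝ → ℂ := fun v => ρ₀ v * Complex.exp (Complex.I * ((-(2 * π * v) * s / δ : ℝ) : ℂ))
  have hρnorm : ∀ v, ‖ρ v‖ = ‖ρ₀ v‖ := by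
    intro v
    simp only [ρ, norm_mul]
    rw [mul_comm Complex.I, Complex.norm_exp_ofReal_mul_I, mul_one]
  have hρint : Integrable ρ := by
    refine hρ₀.mul_bdd (c := 1) ?_ ?_
    · refine Continuous.aestronglyMeasurable ?_
      fun_prop
    · refine ae_of_all _ (fun v => ?_)
      rw [mul_comm Complex.I, Complex.norm_exp_ofReal_mul_I]
  let α : ℝ := 2 * π / δ
  have hF : ∀ u, F u = ∫ v, ρ v * LineCalculus.character (α * v) u := by
    intro u
    rw [hFu, hΦρ]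
    refine integral_congr_ae (ae_of_all _ (fun v => ?_))
    simp only [ρ, character_apply, α]
    rw [mul_assoc (ρ₀ v), ← Complex.exp_add, ← mul_add, ← Complex.ofReal_add]
    congr 4
    field_simp
    ring
  -- operator R
  let R : H →L[ℂ] H := T * D.apply F
  have hRv : ∀ w, R w = T (D.apply F w) := fun w => rfl
  by_cases hall : ∀ v ∈ S.M, ‖R (v S.vac)‖ ≤ U₀ * ‖v‖
  · -- contradiction with the mean
    exfalso
    have hmain := fun {a : H →L[ℂ] H} (ha : a ∈ S.M) =>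
      main_gen (R := R) hω herg hU₀.le hall ha
    -- F(D) h = h
    have hFh : D.apply F h = h := by
      have h1 : D.apply (F - 1) h = 0 := by
        apply hband
        intro u hu
        have : |(u - s) / δ| ≤ 1 := by
          rw [abs_div, abs_of_pos hδ, div_le_one hδ, abs_le]
          constructor <;> linarith [hu.1, hu.2]
        simp [hFu, hΦ1 _ this]
      rw [map_sub, map_one] at h1
      simpa [sub_eq_zero] using h1
    have hmf : c ≤ mf S R ω h := by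
      have h1 : ultraMean ω (fun t : ℝ => ‖T (D.wave t h)‖ ^ 2) = mf S R ω h := by
        refine ((mf_hasMean S R ω h).congr (fun t => ?_)).ultraMean_eq
        rw [hRv]
        congr 3
        change D.apply F (D.apply (LineCalculus.character t) h) = D.apply (LineCalculus.character t) h
        rw [apply_comm, hFh]
      rwa [← h1]
    -- the exponential cut-off
    let E₀ : BCF := BoundedContinuousFunction.ofNormedAddCommGroup
      (fun u => ((Real.exp (min u (s + 1) / 2) : ℝ) : ℂ)) (by fun_prop)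
      (Real.exp ((s + 1) / 2)) (fun u => by
        rw [Complex.norm_real, Real.norm_eq_abs, abs_of_pos (Real.exp_pos _)]
        exact Real.exp_le_exp.2 (by
          have := min_le_right u (s + 1)
          linarith))
    have hE₀ : ‖E₀‖ ≤ Real.exp ((s + 1) / 2) :=
      BoundedContinuousFunction.norm_ofNormedAddCommGroup_le _ (Real.exp_pos _).le _
    set z := D.apply E₀ h with hz
    have hznorm : ‖z‖ ≤ Real.exp ((s + 1) / 2) := by
      have := norm_apply_apply_le D E₀ h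
      rw [hh, mul_one] at this
      exact this.trans hE₀
    have hhalf : D.HalfExp h z := by
      intro f g hfg
      rw [hz, apply_mul_apply, ← sub_eq_zero]
      have h1 : D.apply (f * E₀ - g) h = 0 := by
        apply hband
        intro u hu
        have hu' : u ≤ s + 1 := by linarith [hu.2]
        have hmin : min u (s + 1) = u := min_eq_left hu'
        have e : E₀ u = ((Real.exp (u / 2) : ℝ) : ℂ) := by
          change ((Real.exp (min u (s + 1) / 2) : ℝ) : ℂ) = _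
          rw [hmin]
        simp only [BoundedContinuousFunction.coe_sub, BoundedContinuousFunction.coe_mul,
          Pi.sub_apply, Pi.mul_apply, e, hfg, sub_self]
      rw [map_sub, _root_.sub_apply] at h1
      exact h1
    have hp := mem_closure_of_halfExp S hhalf
    -- choice of ε
    set ε : ℝ := min 1 (Real.sqrt (c / (4 * (‖R‖ ^ 2 + 1)))) with hε
    have hεpos : 0 < ε := lt_min one_pos (Real.sqrt_pos.2 (by positivity))
    have hε1 : ε ≤ 1 := min_le_left _ _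
    have hε2 : ‖R‖ ^ 2 * ε ^ 2 ≤ c / 4 := by
      have h1 : ε ^ 2 ≤ c / (4 * (‖R‖ ^ 2 + 1)) := by
        have h2 : ε ≤ Real.sqrt (c / (4 * (‖R‖ ^ 2 + 1))) := min_le_right _ _
        have h3 : ε ^ 2 ≤ Real.sqrt (c / (4 * (‖R‖ ^ 2 + 1))) ^ 2 := by gcongr
        rwa [Real.sq_sqrt (by positivity)] at h3
      calc ‖R‖ ^ 2 * ε ^ 2 ≤ (‖R‖ ^ 2 + 1) * ε ^ 2 := by nlinarith [sq_nonneg ε]
        _ ≤ (‖R‖ ^ 2 + 1) * (c / (4 * (‖R‖ ^ 2 + 1))) := by gcongr
        _ = c / 4 := by field_simp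
    obtain ⟨_, ⟨a, rfl⟩, ha⟩ := Metric.mem_closure_iff.1 hp ε hεpos
    rw [Prod.dist_eq] at ha
    have ha1 : dist h ((a : H →L[ℂ] H) S.vac) < ε := lt_of_le_of_lt (le_max_left _ _) ha
    have ha2 : dist (S.J z) (star (a : H →L[ℂ] H) S.vac) < ε := lt_of_le_of_lt (le_max_right _ _) ha
    rw [dist_eq_norm] at ha1 ha2
    have haM : (a : H →L[ℂ] H) ∈ S.M := a.2
    have hn1 : ‖(a : H →L[ℂ] H) S.vac‖ ≤ 2 := by
      have : ‖(a : H →L[ℂ] H) S.vac‖ ≤ ‖h‖ + ‖h - (a : H →L[ℂ] H) S.vac‖ := by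
        have := norm_sub_le h (h - (a : H →L[ℂ] H) S.vac)
        simpa using this
      linarith
    have hn2 : ‖star (a : H →L[ℂ] H) S.vac‖ ≤ Real.exp ((s + 1) / 2) + 1 := by
      have : ‖star (a : H →L[ℂ] H) S.vac‖ ≤ ‖S.J z‖ + ‖S.J z - star (a : H →L[ℂ] H) S.vac‖ := by
        have := norm_sub_le (S.J z) (S.J z - star (a : H →L[ℂ] H) S.vac)
        simpa using this
      rw [LinearIsometryEquiv.norm_map] at this
      linarith
    have h1 := hmain haM
    have h2 : mf S R ω h ≤ 2 * mf S R ω ((a : H →L[ℂ] H) S.vac)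
        + 2 * mf S R ω (h - (a : H →L[ℂ] H) S.vac) := by
      have := mf_add_le S R hω ((a : H →L[ℂ] H) S.vac) (h - (a : H →L[ℂ] H) S.vac)
      simpa using this
    have h3 := mf_le S R hω (h - (a : H →L[ℂ] H) S.vac)
    have h4 : ‖R‖ ^ 2 * ‖h - (a : H →L[ℂ] H) S.vac‖ ^ 2 ≤ ‖R‖ ^ 2 * ε ^ 2 := by
      gcongr
    have h5 : ‖(a : H →L[ℂ] H) S.vac‖ ^ 2 + ‖star (a : H →L[ℂ] H) S.vac‖ ^ 2
        ≤ 4 + (Real.exp ((s + 1) / 2) + 1) ^ 2 := by
      have e1 : ‖(a : H →L[ℂ] H) S.vac‖ ^ 2 ≤ 2 ^ 2 := by gcongr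
      have e2 : ‖star (a : H →L[ℂ] H) S.vac‖ ^ 2 ≤ (Real.exp ((s + 1) / 2) + 1) ^ 2 := by gcongr
      norm_num at e1 ⊢
      linarith
    have h6 : 3 * U₀ ^ 2 * (‖(a : H →L[ℂ] H) S.vac‖ ^ 2 + ‖star (a : H →L[ℂ] H) S.vac‖ ^ 2)
        ≤ 3 * U₀ ^ 2 * (4 + (Real.exp ((s + 1) / 2) + 1) ^ 2) := by gcongr
    nlinarith
  · -- the good element
    simp only [not_forall, not_le] at hall
    obtain ⟨v₀, hv₀, hv₀'⟩ := hall
    have hv₀ne : v₀ ≠ 0 := by
      rintro rfl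
      simp at hv₀'
    have hnpos : 0 < ‖v₀‖ := norm_pos_iff.2 hv₀ne
    set v₁ : H →L[ℂ] H := ((‖v₀‖⁻¹ : ℝ) : ℂ) • v₀ with hv₁
    have hv₁M : v₁ ∈ S.M := S.M.toStarSubalgebra.smul_mem hv₀ _
    have hv₁norm : ‖v₁‖ = 1 := by
      rw [hv₁, norm_smul, Complex.norm_real, norm_inv, norm_norm, inv_mul_cancel₀ hnpos.ne']
    have hRv₁ : U₀ < ‖R (v₁ S.vac)‖ := by
      have e : v₁ S.vac = ((‖v₀‖⁻¹ : ℝ) : ℂ) • v₀ S.vac := rfl
      rw [e, map_smul, norm_smul, Complex.norm_real, norm_inv, norm_norm]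
      rw [inv_mul_eq_div, lt_div_iff₀ hnpos]
      exact hv₀'
    refine ⟨smoothOp S hρint α v₁, smoothOp_mem S hρint α hv₁M, ?_, ?_, ?_⟩
    · have := norm_smoothOp_le S hρint α v₁
      rw [hv₁norm, mul_one] at this
      refine this.trans (le_of_eq ?_)
      simp only [hρnorm]
    · rw [smoothOp_vac S hρint α v₁ F hF]
      exact hRv₁.le
    · rw [smoothOp_vac S hρint α v₁ F hF]
      intro f hf
      rw [apply_mul_apply]
      have : f * F = 0 := by
        ext u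
        simp only [BoundedContinuousFunction.coe_mul, Pi.mul_apply,
          BoundedContinuousFunction.coe_zero, Pi.zero_apply]
        by_cases hu : u ∈ Set.Icc (s - 4 * δ) (s + 4 * δ)
        · rw [hf u hu, zero_mul]
        · have h2 : 2 ≤ |(u - s) / δ| := by
            rw [abs_div, abs_of_pos hδ, le_div_iff₀ hδ]
            by_contra hcon
            push Not at hcon
            apply hu
            have := abs_lt.1 hcon
            constructor <;> linarith [this.1, this.2]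
          rw [hFu, hΦ0 _ h2, mul_zero]
      rw [this]
      simp

end aux

/-- Bounded recovery. Let S be modular data on H (algebra M, cyclic separating unit vector ξ, D = log of the modular operator) with ergodic state, ω a free ultrafilter on ℕ, T a bounded operator, δₙ → 0 positive, hₙ unit vectors with D-spectral support in [s − δₙ, s + δₙ]. If some c > 0 bounds the ω-mean over t of ‖T exp(itD) hₙ‖² from below infinitely often, along a subsequence n_j there are v_j ∈ M, C and η > 0 with ‖v_j‖ ≤ C, ‖T (v_j ξ)‖ ≥ η, v_j ξ supported in [s − 4δ_{n_j}, s + 4δ_{n_j}]. -/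
theorem result
    {H : Type*} [NormedAddCommGroup H] [InnerProductSpace ℂ H] [CompleteSpace H]
    (S : Crest.OpAlg.ModularDatum H) (herg : S.Ergodic)
    (ω : Ultrafilter ℕ) (hω : (ω : Filter ℕ) ≤ Filter.atTop)
    (T : H →L[ℂ] H) (s : ℝ) (δ : ℕ → ℝ) (hδ : ∀ n, 0 < δ n)
    (hδ0 : Filter.Tendsto δ Filter.atTop (nhds 0))
    (h : ℕ → H) (hh : ∀ n, ‖h n‖ = 1)
    (hband : ∀ n, S.D.SupportedIn (Set.Icc (s - δ n) (s + δ n)) (h n))
    (hpos : ∃ c : ℝ, 0 < c ∧ ∃ᶠ n in Filter.atTop,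
      c ≤ Crest.OpAlg.ultraMean ω (fun t : ℝ => ‖T (S.D.wave t (h n))‖ ^ 2)) :
    ∃ (n' : ℕ → ℕ) (v : ℕ → (H →L[ℂ] H)) (C η : ℝ), StrictMono n' ∧ 0 < η ∧
      ∀ j : ℕ, v j ∈ S.M ∧ ‖v j‖ ≤ C ∧ η ≤ ‖T (v j S.vac)‖ ∧
        S.D.SupportedIn (Set.Icc (s - 4 * δ (n' j)) (s + 4 * δ (n' j))) (v j S.vac) := by
  obtain ⟨c, hc, hfreq⟩ := hpos
  obtain ⟨ρ₀, Φ₀, hρ₀, hΦc, hΦb, hΦ1, hΦ0, hΦρ⟩ := Crest.Agent.Lib.ModBoot.exists_kernel
  -- the constant η
  set Q : ℝ := 4 + (Real.exp ((s + 1) / 2) + 1) ^ 2 with hQ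
  have hQpos : 0 < Q := by positivity
  set U₀ : ℝ := Real.sqrt (c / (24 * Q)) with hU₀
  have hU₀pos : 0 < U₀ := Real.sqrt_pos.2 (by positivity)
  have hU₀sq : U₀ ^ 2 = c / (24 * Q) := Real.sq_sqrt (by positivity)
  have hU₀' : 6 * U₀ ^ 2 * Q ≤ c / 4 := by
    rw [hU₀sq]
    refine le_of_eq ?_
    field_simp
    ring
  have hδ1 : ∀ᶠ n in Filter.atTop, δ n ≤ 1 := by
    have := hδ0.eventually (gt_mem_nhds (show (0 : ℝ) < 1 by norm_num))
    exact this.mono fun n hn => hn.le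
  obtain ⟨n', hn', hP⟩ := Filter.extraction_of_frequently_atTop (hfreq.and_eventually hδ1)
  have hv : ∀ j, ∃ v : H →L[ℂ] H, v ∈ S.M ∧ ‖v‖ ≤ ∫ x, ‖ρ₀ x‖ ∧ U₀ ≤ ‖T (v S.vac)‖ ∧
      S.D.SupportedIn (Set.Icc (s - 4 * δ (n' j)) (s + 4 * δ (n' j))) (v S.vac) := by
    intro j
    exact recovery_step S herg ω hω T s ρ₀ Φ₀ hρ₀ hΦc hΦb hΦ1 hΦ0 hΦρ hc (hδ _) (hP j).2 (hh _)
      (hband _) (hP j).1 hU₀pos hU₀'
  choose v hvM hvn hvT hvS using hv
  exact ⟨n', v, ∫ x, ‖ρ₀ x‖, U₀, hn', hU₀pos, fun j => ⟨hvM j, hvn j, hvT j, hvS j⟩⟩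

end Crest.Agent.S0112
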