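import Crest.Statements.S0122
-- import your own Crest.Agent.* helpers here
import Crest.Agent.Lib.MAGeo
import Crest.Agent.Lib.MADyn

set_option autoImplicit false
open Crest.AnalysisR.MassAction
open Crest Crest.AnalysisR Crest.AnalysisR.MassAction

namespace Crest.Agent.S0122

open Crest.Agent.MA in
/-- The barrier family exists. -/
theorem exists_barriers
    (d : ℕ) (hd : 1 ≤ d) (R : Network d) (hR : IsWeaklyReversible R)
    (k : (Fin d → ℕ) × (Fin d → ℕ) → ℝ) (hk : ∀ r ∈ R, 0 < k r)
    (c : Fin d → ℝ) (hc : ∀ i, 0 < c i) :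
    ∃ (J : Type) (_ : Finite J) (n : J → Fin d → ℝ) (b : J → ℝ → ℝ) (βs : ℝ),
      Barriers R k c n b βs := by
  classical
  -- the finite set of relevant directions
  let U : Set (Fin d → ℝ) :=
    (fun p : ((Fin d → ℕ) × (Fin d → ℕ)) × ((Fin d → ℕ) × (Fin d → ℕ)) × Equiv.Perm (Fin d) =>
      fun i => ((p.1.1 (p.2.2 i) : ℝ) - p.2.1.1 (p.2.2 i))) ''
    ((R : Set ((Fin d → ℕ) × (Fin d → ℕ))) ×ˢ
      ((R : Set ((Fin d → ℕ) × (Fin d → ℕ))) ×ˢ Set.univ))
  have hU : U.Finite := by
    apply Set.Finite.image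
    exact R.finite_toSet.prod (R.finite_toSet.prod Set.finite_univ)
  have hperm : ∀ u ∈ U, ∀ σ : Equiv.Perm (Fin d), u ∘ σ ∈ U := by
    rintro u ⟨⟨r, r', τ⟩, ⟨hr, hr', _⟩, rfl⟩ σ
    exact ⟨⟨r, r', τ * σ⟩, ⟨hr, hr', Set.mem_univ _⟩, rfl⟩
  obtain ⟨J, hJ, n, b, hb, hlarge, hgeo⟩ := geo d hd U hU hperm
  -- the key lemma constants
  have hkey := fun j => key_lemma R hR k hk (n j)
  choose Lj hLj using hkey
  obtain ⟨L, hL⟩ : ∃ L, ∀ j, Lj j ≤ L := by
    obtain ⟨C, _, hC⟩ := exists_bound_of_finite Lj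
    exact ⟨C, fun j => (le_abs_self _).trans (hC j)⟩
  obtain ⟨β0, hβ0⟩ := hgeo L
  obtain ⟨β1, hβ1⟩ := Filter.eventually_atTop.mp (hlarge c hc)
  refine ⟨J, hJ, n, b, max β0 β1, hb, hlarge, ?_, ?_, ?_⟩
  · intro β hβ x hx i
    exact (hβ0 β ((le_max_left _ _).trans hβ) x hx).1 i
  · intro β hβ j
    exact hβ1 β ((le_max_right _ _).trans hβ) j
  · intro β hβ x hx hxS j hact
    obtain ⟨hbox, hact'⟩ := hβ0 β ((le_max_left _ _).trans hβ) x hx
    have hpos : ∀ i, 0 < x i := fun i => (hbox i).1
    apply hLj j x hpos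
    · intro r hr r' hr' h1
      refine (hL j).trans ?_
      have hu : (fun i => ((r.1 i : ℝ) - r'.1 i)) ∈ U :=
        ⟨⟨r, r', 1⟩, ⟨hr, hr', Set.mem_univ _⟩, rfl⟩
      exact hact' j hact _ hu h1
    · by_contra hcon
      push Not at hcon
      -- the direction is orthogonal to the stoichiometric subspace
      have hperp : ∀ y ∈ stoichSubspace R, ∑ i, n j i * y i = 0 := by
        intro y hy
        induction hy using Submodule.span_induction with
        | mem y hy =>
          obtain ⟨r, hr, rfl⟩ := hy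
          exact hcon r hr
        | zero => simp
        | add y z _ _ h1 h2 =>
          simp only [Pi.add_apply, mul_add, Finset.sum_add_distrib, h1, h2, add_zero]
        | smul a y _ h1 =>
          have : ∑ i, n j i * (a • y) i = a * ∑ i, n j i * y i := by
            rw [Finset.mul_sum]
            apply Finset.sum_congr rfl
            intro i _
            simp only [Pi.smul_apply, smul_eq_mul]
            ring
          rw [this, h1, mul_zero]
      have h1 := hperp _ hxS
      have h2 : ∑ i, n j i * (x - c) i = ∑ i, n j i * x i - ∑ i, n j i * c i := by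
        rw [← Finset.sum_sub_distrib]
        apply Finset.sum_congr rfl
        intro i _
        simp only [Pi.sub_apply]
        ring
      rw [h2, hact] at h1
      have h3 := hβ1 β ((le_max_right _ _).trans hβ) j
      linarith

/-- For a finite reaction network on `d ≥ 1` species that is weakly reversible, with positive rate constants and mass-action kinetics, every positive stoichiometric class `P` contains a nonempty compact convex set `K` that is forward invariant and absorbing: from every point of `P` there is a solution defined for all forward time, it is unique, it stays coordinatewise positive, and it lies in `K` from some finite time on. -/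
theorem result
    (d : ℕ) (hd : 1 ≤ d) (R : Network d) (hR : IsWeaklyReversible R)
    (k : (Fin d → ℕ) × (Fin d → ℕ) → ℝ) (hk : ∀ r ∈ R, 0 < k r)
    (c : Fin d → ℝ) (hc : ∀ i, 0 < c i) :
    ∃ K : Set (Fin d → ℝ), K ⊆ positiveClass R c ∧ K.Nonempty ∧ IsCompact K ∧ Convex ℝ K ∧
      (∀ x : ℝ → (Fin d → ℝ), IsForwardSolution (field R k) x → x 0 ∈ K →
        ∀ t : ℝ, 0 ≤ t → x t ∈ K) ∧
      (∀ x₀ ∈ positiveClass R c,
        (∃ x : ℝ → (Fin d → ℝ), IsForwardSolution (field R k) x ∧ x 0 = x₀) ∧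
        (∀ x x' : ℝ → (Fin d → ℝ), IsForwardSolution (field R k) x →
          IsForwardSolution (field R k) x' → x 0 = x₀ → x' 0 = x₀ →
          ∀ t : ℝ, 0 ≤ t → x t = x' t) ∧
        (∀ x : ℝ → (Fin d → ℝ), IsForwardSolution (field R k) x → x 0 = x₀ →
          (∀ t : ℝ, 0 ≤ t → ∀ i, 0 < x t i) ∧
          ∃ T : ℝ, 0 ≤ T ∧ ∀ t : ℝ, T ≤ t → x t ∈ K)) := by
  obtain ⟨J, hJ, n, b, βs, B⟩ := exists_barriers d hd R hR k hk c hc
  exact Crest.Agent.MA.Barriers.main B

end Crest.Agent.S0122
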