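import Crest.Statements.S0166
import Crest.Agent.Lib.BlockSpace
import Crest.Agent.Lib.DiamondKI

set_option autoImplicit false
open Crest Crest.AnalysisR

namespace Crest.Agent.S0166

open Crest.Agent.Lib Crest.Agent.Lib.BlockSpace

/-- The underlying space: the `ℓ₂`-sum of the blocks. -/
noncomputable abbrev EE := lp (fun h : ℕ => Block h) 2

/-- The `RealBanach` record of the `ℓ₂`-sum of the blocks. -/
noncomputable def RR : RealBanach := ⟨EE, inferInstance, inferInstance, inferInstance⟩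

lemma block_hyp (h : ℕ) (x : Block h) (ε : ℝ) (hε : 0 < ε) :
    ∃ (ι : Type) (_ : Fintype ι) (φ : ι → StrongDual ℝ (Block h)),
      ∀ y, (∀ i, φ i y = 0) → Real.sqrt (‖x‖ ^ 2 + ‖y‖ ^ 2 / 4) - ε ≤ (‖x + y‖ + ‖x - y‖) / 2 := by
  obtain ⟨S, hS⟩ := block_core x.1 x.2 ε hε
  refine ⟨S, inferInstance, fun s => (ev h (deltaT h s.1)).comp (Block h).subtypeL, fun y hy => ?_⟩
  exact hS y.1 y.2 (fun s hs => hy ⟨s, hs⟩)

lemma key : DiamondKI.KeyIneq RR := by
  intro x ε hε
  obtain ⟨ι, _, φ, hφ⟩ := LpSum.lp_key (T := fun h : ℕ => Block h) block_hyp x ε hε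
  exact ⟨{y | ∀ i, φ i y = 0}, AUCTree.isCof_forall_ker RR φ, fun y hy => hφ y hy⟩

lemma midpoint_of_key (t c : ℝ) (ht : 0 < t) (hc : c ≤ Real.sqrt (1 + t ^ 2 / 4) - 1) :
    RR.MidpointModulusGE RR.norm t c := by
  letI := RR.normed
  letI := RR.space
  intro x hx η hη
  have hx1 : ‖x‖ = 1 := hx
  obtain ⟨F, hF, hFy⟩ := key x η hη
  refine ⟨F, hF, fun y hy hy1 => ?_⟩
  have hy1' : ‖y‖ = 1 := hy1
  have h1 := hFy (t • y) (AUCTree.isCof_smul_mem RR hF y hy t)
  rw [norm_smul, hy1', hx1, mul_one, Real.norm_of_nonneg ht.le] at h1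
  have h2 : (1 : ℝ) ^ 2 + t ^ 2 / 4 = 1 + t ^ 2 / 4 := by ring
  rw [h2] at h1
  show c - η ≤ (‖x + t • y‖ + ‖x - t • y‖) / 2 - 1
  linarith

lemma max_of_key (t : ℝ) (ht : 0 < t) :
    RR.MaxMidpointModulusGE RR.norm t (Real.sqrt (1 + t ^ 2 / 4) - 1) := by
  letI := RR.normed
  letI := RR.space
  intro x hx η hη
  have hx1 : ‖x‖ = 1 := hx
  obtain ⟨F, hF, hFy⟩ := key x η hη
  refine ⟨F, hF, fun y hy hy1 => ?_⟩
  have hy1' : ‖y‖ = 1 := hy1
  have h1 := hFy (t • y) (AUCTree.isCof_smul_mem RR hF y hy t)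
  rw [norm_smul, hy1', hx1, mul_one, Real.norm_of_nonneg ht.le] at h1
  have h2 : (1 : ℝ) ^ 2 + t ^ 2 / 4 = 1 + t ^ 2 / 4 := by ring
  rw [h2] at h1
  show Real.sqrt (1 + t ^ 2 / 4) - 1 - η ≤ max ‖x + t • y‖ ‖x - t • y‖ - 1
  have h3 := le_max_left ‖x + t • y‖ ‖x - t • y‖
  have h4 := le_max_right ‖x + t • y‖ ‖x - t • y‖
  linarith

/-- A vector in a block seen in the sum. -/
noncomputable def inj (h : ℕ) (a : Amb h) (ha : a ∈ Block h) : EE :=
  LpSum.J (T := fun h : ℕ => Block h) h ⟨a, ha⟩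

lemma norm_inj (h : ℕ) (a : Amb h) (ha : a ∈ Block h) : ‖inj h a ha‖ = ‖a‖ :=
  LpSum.norm_J (T := fun h : ℕ => Block h) h ⟨a, ha⟩

/-- Sibling directions. -/
noncomputable def stepV (h : ℕ) (r : List ℕ) (n : ℕ) : EE := inj h (coord h (n :: r)) (coord_mem _)

lemma stepV_sum (h : ℕ) (r : List ℕ) (A : Finset ℕ) : ‖∑ n ∈ A, stepV h r n‖ ≤ 1 * Real.sqrt A.card := by
  rw [one_mul]
  have e : ∑ n ∈ A, stepV h r n = inj h (∑ n ∈ A, coord h (n :: r))
      ((Block h).sum_mem fun n _ => coord_mem _) := by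
    unfold stepV inj
    rw [← map_sum]
    congr 1
    apply Subtype.ext
    rw [AddSubmonoidClass.coe_finsetSum]
  rw [e, norm_inj]
  exact norm_sum_siblings_le r A

lemma stepV_low (h : ℕ) (r : List ℕ) (n : ℕ) : 1 ≤ ‖stepV h r n‖ := by
  unfold stepV
  rw [norm_inj]
  exact one_le_norm_coord _

/-- Potential vectors in the sum. -/
noncomputable def potV (h : ℕ) (v : List ℕ) : EE := inj h (potVec h v) (potVec_mem v)

lemma potV_step (h : ℕ) (v : List ℕ) (n : ℕ) : potV h (n :: v) - potV h v = stepV h v n := by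
  unfold potV stepV inj
  rw [← map_sub]
  congr 1
  apply Subtype.ext
  show potVec h v + coord h (n :: v) - potVec h v = coord h (n :: v)
  abel

/-- There is a real Banach space (RealBanach record) that is separable, infinite-dimensional and reflexive, whose given norm has at every t > 0 averaged midpoint asymptotic modulus at least √(1 + t²/12) - 1 and at least (√(1 + t²/4) - 1)/2 and maximum-based midpoint modulus at least √(1 + t²/4) - 1, on which no equivalent norm is asymptotically uniformly convex, and in which for every k every map of the depth-k countably branching diamond graph of distortion at most D has 1 + k/4 ≤ D². -/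
theorem result :
    ∃ E : Crest.AnalysisR.RealBanach, E.IsSeparableInfiniteDim ∧ E.IsReflexive ∧
      (∀ t : ℝ, 0 < t → E.MidpointModulusGE E.norm t (Real.sqrt (1 + t ^ 2 / 12) - 1) ∧
        E.MidpointModulusGE E.norm t ((Real.sqrt (1 + t ^ 2 / 4) - 1) / 2) ∧
        E.MaxMidpointModulusGE E.norm t (Real.sqrt (1 + t ^ 2 / 4) - 1)) ∧
      (∀ N : E.X → ℝ, E.IsEquivNorm N → ¬ E.IsAUC N) ∧
      ∀ (k : ℕ) (f : Crest.AnalysisR.DiamondVertex k → E.X) (D : ℝ),
        E.HasDistortionLE k f D → 1 + (k : ℝ) / 4 ≤ D ^ 2 := by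
  refine ⟨RR, ⟨?_, ?_⟩, ?_, ?_, ?_, ?_⟩
  · exact LpSum.lp_separable (T := fun h : ℕ => Block h)
  · exact AUCTree.not_finiteDimensional_of_l2 RR (fun n => stepV 1 [] n) 1 1 one_pos
      (stepV_sum 1 []) (stepV_low 1 [])
  · exact LpSum.lp_reflexive (T := fun h : ℕ => Block h) (fun h => block_reflexive)
  · intro t ht
    refine ⟨midpoint_of_key t _ ht ?_, midpoint_of_key t _ ht ?_, max_of_key t ht⟩
    · have : Real.sqrt (1 + t ^ 2 / 12) ≤ Real.sqrt (1 + t ^ 2 / 4) := by
        apply Real.sqrt_le_sqrt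
        nlinarith [sq_nonneg t]
      linarith
    · have : 1 ≤ Real.sqrt (1 + t ^ 2 / 4) := by
        apply Real.le_sqrt_of_sq_le
        nlinarith [sq_nonneg t]
      linarith
  · intro N hN
    refine AUCTree.no_equiv_auc RR 1 1 1 one_pos one_pos ?_ N hN
    intro J
    refine ⟨fun j => {x | ∃ v : List ℕ, v.length ≤ j ∧ v.length ≤ J ∧ x = potV J v}, ?_, ?_, ?_⟩
    · refine ⟨potV J [], ⟨[], by simp, by simp, rfl⟩, ?_⟩
      show 1 ≤ ‖potV J []‖
      unfold potV
      rw [norm_inj]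
      exact one_le_norm_coord _
    · rintro j _ ⟨v, -, hv, rfl⟩
      show ‖potV J v‖ ≤ 1
      unfold potV
      rw [norm_inj]
      exact norm_potVec_le hv
    · rintro j hj _ ⟨v, hv1, hv2, rfl⟩ F hF ε hε
      obtain ⟨n, z, hz, hzn⟩ := AUCTree.exists_near_cof RR (fun n => stepV J v n) 1 (stepV_sum J v)
        F hF ε hε
      refine ⟨potV J (n :: v), ⟨n :: v, by simp; omega, by simp; omega, rfl⟩, ?_, z, hz, ?_⟩
      · show 1 ≤ ‖potV J (n :: v) - potV J v‖
        rw [potV_step]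
        exact stepV_low J v n
      · have h1 := potV_step J v n
        let z' : EE := z
        show ‖(potV J (n :: v) - potV J v) - z'‖ < ε
        rw [h1]
        exact hzn
  · exact fun k f D h => DiamondKI.diamond_bound RR key k f D h

end Crest.Agent.S0166
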