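import Crest.Statements.S0167
import Crest.Agent.Lib.DaugavetKDL
import Crest.Agent.Lib.L1Mid

set_option autoImplicit false
open Crest Crest.AnalysisR

namespace Crest.Agent.S0167

open Crest.Agent.Lib

/-- Let E be an infinite-dimensional closed subspace of the real L¹ of a probability space whose closed unit ball is totally bounded for convergence in measure and whose norm has the Daugavet property. Then at every unit x ∈ E and every t > 0 the averaged midpoint quantity sup_F inf_y ((‖x+ty‖+‖x-ty‖)/2 - 1) equals max(t/2, t-1) and the one-sided one sup_F inf_y (‖x+ty‖ - 1) equals max(0, t-2), as matching lower and upper bounds, and E admits no equivalent asymptotically uniformly convex norm. -/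
theorem result (Ω : Type) [MeasurableSpace Ω] (P : MeasureTheory.Measure Ω) [MeasureTheory.IsProbabilityMeasure P]
    (E : Submodule ℝ (MeasureTheory.Lp ℝ 1 P)) (hcl : IsClosed (E : Set (MeasureTheory.Lp ℝ 1 P)))
    (hinf : ¬ FiniteDimensional ℝ E)
    (htb : Crest.AnalysisR.L1Subspace.UnitBallTotallyBoundedInMeasure P E)
    (hD : Crest.AnalysisR.L1Subspace.HasDaugavetProperty E) :
    (∀ t : ℝ, 0 < t →
      (Crest.AnalysisR.L1Subspace.toRealBanach P E hcl).MidpointModulusGE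
          (Crest.AnalysisR.L1Subspace.toRealBanach P E hcl).norm t (max (t / 2) (t - 1)) ∧
        (Crest.AnalysisR.L1Subspace.toRealBanach P E hcl).MidpointModulusLE
          (Crest.AnalysisR.L1Subspace.toRealBanach P E hcl).norm t (max (t / 2) (t - 1)) ∧
        (Crest.AnalysisR.L1Subspace.toRealBanach P E hcl).OneSidedModulusGE
          (Crest.AnalysisR.L1Subspace.toRealBanach P E hcl).norm t (max 0 (t - 2)) ∧
        (Crest.AnalysisR.L1Subspace.toRealBanach P E hcl).OneSidedModulusLE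
          (Crest.AnalysisR.L1Subspace.toRealBanach P E hcl).norm t (max 0 (t - 2))) ∧
      ∀ N : E → ℝ, (Crest.AnalysisR.L1Subspace.toRealBanach P E hcl).IsEquivNorm N →
        ¬ (Crest.AnalysisR.L1Subspace.toRealBanach P E hcl).IsAUC N := by
  classical
  have hK : DaugavetKDL.KDLProp (Crest.AnalysisR.L1Subspace.toRealBanach P E hcl) :=
    DaugavetKDL.kdlProp_of _ hD
  have hne : ∃ x₀ : E, ‖x₀‖ = 1 := by
    by_contra hcon
    push Not at hcon
    have hsub : Subsingleton E := by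
      refine ⟨fun a b => ?_⟩
      have h0 : ∀ x : E, x = 0 := by
        intro x
        by_contra hx
        have hpos : 0 < ‖x‖ := norm_pos_iff.mpr hx
        apply hcon ((1 / ‖x‖) • x)
        rw [norm_smul, Real.norm_eq_abs, abs_of_pos (by positivity)]
        field_simp
      rw [h0 a, h0 b]
    exact hinf inferInstance
  refine ⟨fun t ht => ⟨?_, DaugavetKDL.midpoint_le hK t ht, DaugavetKDL.oneSided_ge t,
    DaugavetKDL.oneSided_le hK t ht⟩, fun N hN => DaugavetKDL.no_auc hK hne N hN⟩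
  intro x₀ hx η hη
  let x : E := x₀
  have hx1 : ‖(x : MeasureTheory.Lp ℝ 1 P)‖ = 1 := hx
  obtain ⟨s, hs⟩ := L1Mid.midpoint_lower E htb (x : MeasureTheory.Lp ℝ 1 P) hx1 t ht η hη
  have hbd : ∀ g : MeasureTheory.Lp ℝ 1 P, ∀ z, |L1Mid.sgn (g : Ω → ℝ) z| ≤ 1 :=
    fun g z => (L1Mid.abs_sgn _ z).le
  have hms : ∀ g : MeasureTheory.Lp ℝ 1 P, Measurable (L1Mid.sgn (g : Ω → ℝ)) :=
    fun g => L1Mid.sgn_meas (MeasureTheory.Lp.stronglyMeasurable g).measurable
  let φ : s → StrongDual ℝ E := fun g =>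
    (L1Mid.mulF (P := P) (L1Mid.sgn (g.1 : Ω → ℝ)) (hms g.1) (hbd g.1)).comp E.subtypeL
  refine ⟨{y | ∀ g, φ g y = 0}, AUCTree.isCof_forall_ker
    (Crest.AnalysisR.L1Subspace.toRealBanach P E hcl) φ, ?_⟩
  intro y₀ hy hy1
  let y : E := y₀
  have hy1' : ‖(y : MeasureTheory.Lp ℝ 1 P)‖ = 1 := hy1
  have h1 := hs (y : MeasureTheory.Lp ℝ 1 P) y.2 hy1' (fun g hg => hy ⟨g, hg⟩)
  have h2 := DaugavetKDL.midpoint_ge_easy (R := Crest.AnalysisR.L1Subspace.toRealBanach P E hcl)
    (x := x₀) (y := y₀) ht hy1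
  show max (t / 2) (t - 1) - η ≤ (‖(x : MeasureTheory.Lp ℝ 1 P) + t • (y : MeasureTheory.Lp ℝ 1 P)‖
    + ‖(x : MeasureTheory.Lp ℝ 1 P) - t • (y : MeasureTheory.Lp ℝ 1 P)‖) / 2 - 1
  have h3 : t ≤ (‖(x : MeasureTheory.Lp ℝ 1 P) + t • (y : MeasureTheory.Lp ℝ 1 P)‖
    + ‖(x : MeasureTheory.Lp ℝ 1 P) - t • (y : MeasureTheory.Lp ℝ 1 P)‖) / 2 := h2
  rcases le_total (t / 2) (t - 1) with h4 | h4
  · rw [max_eq_right h4]
    linarith
  · rw [max_eq_left h4]
    linarith

end Crest.Agent.S0167
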