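import Crest.Statements.S0168
import Crest.Agent.Lib.TreePotB

set_option autoImplicit false
open Crest Crest.AnalysisR

namespace Crest.Agent.S0168

open Crest.Agent.Lib Crest.Agent.Lib.TreePot Crest.AnalysisR.TreePotential

/-- For each of the four bounded-potential coordinate models on the countably branching tree (rootless sibling, rooted sibling, antichain, global), the generated space, namely the closure of the span of the coordinate vectors in the supremum norm over the model's tests, is separable and infinite-dimensional, its norm has at every unit centre and every 0 < t < 1 averaged midpoint asymptotic quantity at least √(1 + t²/4) - 1, and no equivalent norm on it is asymptotically uniformly convex. -/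
theorem result
    (m : Crest.AnalysisR.TreePotential.PotentialModel) :
    (Crest.AnalysisR.TreePotential.modelBanach m).IsSeparableInfiniteDim ∧
      (∀ t : ℝ, 0 < t → t < 1 →
        (Crest.AnalysisR.TreePotential.modelBanach m).MidpointModulusGE
          (Crest.AnalysisR.TreePotential.modelBanach m).norm t (Real.sqrt (1 + t ^ 2 / 4) - 1)) ∧
      ∀ N : (Crest.AnalysisR.TreePotential.modelBanach m).X → ℝ,
        (Crest.AnalysisR.TreePotential.modelBanach m).IsEquivNorm N →
          ¬ (Crest.AnalysisR.TreePotential.modelBanach m).IsAUC N := by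
  classical
  let e : List ℕ → modelSpace m := fun s => ⟨coordVector m s, coord_mem s⟩
  let xs : List ℕ → modelSpace m := fun v => ⟨potVec m v, potVec_mem v⟩
  have hsum : ∀ (r : List ℕ) (A : Finset ℕ), ‖∑ n ∈ A, e (n :: r)‖ ≤ 1 * Real.sqrt A.card := by
    intro r A
    rw [one_mul, Submodule.coe_norm, AddSubmonoidClass.coe_finsetSum]
    exact norm_sum_siblings_le r A
  have helow : ∀ (r : List ℕ) (n : ℕ), 1 ≤ ‖e (n :: r)‖ := fun r n =>
    one_le_norm_coord (by simp)
  have hxs : ∀ (v : List ℕ) (n : ℕ), xs (n :: v) - xs v = e (n :: v) := by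
    intro v n
    apply Subtype.ext
    show potVec m v + coordVector m (n :: v) - potVec m v = coordVector m (n :: v)
    abel
  refine ⟨⟨?_, ?_⟩, ?_, ?_⟩
  · have h : TopologicalSpace.IsSeparable ((modelSpace m : Submodule ℝ (Amb m)) : Set (Amb m)) := by
      rw [modelSpace, Submodule.topologicalClosure_coe]
      exact ((Set.countable_range _).isSeparable.span).closure
    exact h.separableSpace
  · exact AUCTree.not_finiteDimensional_of_l2 (modelBanach m) (fun n => e [n]) 1 1 one_pos
      (hsum []) (helow [])
  · intro t ht0 ht1 x₀ hx η hη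
    let x : modelSpace m := x₀
    have hx1 : ‖(x : Amb m)‖ = 1 := hx
    obtain ⟨S, hS⟩ := core t ht0 ht1 (x : Amb m) x.2 hx1 (η / 4) (by positivity)
    let φ : S → StrongDual ℝ (modelSpace m) := fun s =>
      (ev m (delta m s.1)).comp (modelSpace m).subtypeL
    refine ⟨{y | ∀ s, φ s y = 0}, AUCTree.isCof_forall_ker (modelBanach m) φ, ?_⟩
    intro y₀ hy hy1
    let y : modelSpace m := y₀
    have hy1' : ‖(y : Amb m)‖ = 1 := hy1
    have h := hS (y : Amb m) y.2 (fun s hs => hy ⟨s, hs⟩) hy1'
    show Real.sqrt (1 + t ^ 2 / 4) - 1 - η ≤ (‖(x : Amb m) + t • (y : Amb m)‖ + ‖(x : Amb m) - t • (y : Amb m)‖) / 2 - 1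
    linarith
  · intro N hN
    refine AUCTree.no_equiv_auc (modelBanach m) 1 1 1 one_pos one_pos ?_ N hN
    intro J
    refine ⟨fun _ => Set.range xs, ⟨xs [0], ⟨_, rfl⟩, one_le_norm_potVec (by simp)⟩, ?_, ?_⟩
    · rintro j _ ⟨v, rfl⟩
      exact norm_potVec_le v
    · rintro j - _ ⟨v, rfl⟩ F hF ε hε
      obtain ⟨n, z, hz, hzn⟩ := AUCTree.exists_near_cof (modelBanach m)
        (fun n => e (n :: v)) 1 (hsum v) F hF ε hε
      refine ⟨xs (n :: v), ⟨_, rfl⟩, ?_, z, hz, ?_⟩
      · have := helow v n
        rw [← hxs] at this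
        exact this
      · have h2 := hxs v n
        let z' : modelSpace m := z
        have h3 : ‖e (n :: v) - z'‖ < ε := hzn
        rw [← h2] at h3
        exact h3

end Crest.Agent.S0168
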