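import Crest.Statements.S0169
import Crest.Agent.Lib.TreeProd

set_option autoImplicit false
open MeasureTheory ProbabilityTheory
open Crest Crest.AnalysisR

namespace Crest.Agent.S0169

open Crest.Agent.Lib

/-- Let ν be a Borel probability law on ℝ carried by (0,∞), not a point mass, with mean 1 and finite second moment, and W an independent family of real random variables on a probability space indexed by the vertices of the countably branching tree (finite lists of naturals; root [], parent of a :: v is v), each non-root one with law ν. Then the closed linear span in L¹ of the path products ∏_{root ≺ u ≼ v} W_u is infinite-dimensional and has no equivalent asymptotically uniformly convex norm. -/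
theorem result (ν : Measure ℝ) [IsProbabilityMeasure ν] (hpos : ν (Set.Ioi 0) = 1)
    (hnc : ∀ c : ℝ, ν ≠ Measure.dirac c) (hmean : ∫ x, x ∂ν = 1)
    (hm2 : Integrable (fun x : ℝ => x ^ 2) ν)
    (Ω : Type) [MeasurableSpace Ω] (μ : Measure Ω) [IsProbabilityMeasure μ]
    (W : List ℕ → Ω → ℝ) (hW : Crest.AnalysisR.TreeProduct.IsRealization ν μ W) :
    ¬ FiniteDimensional ℝ (Crest.AnalysisR.TreeProduct.productSpan μ W) ∧
      ∀ N : (Crest.AnalysisR.TreeProduct.spanBanach μ W).X → ℝ,
        (Crest.AnalysisR.TreeProduct.spanBanach μ W).IsEquivNorm N →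
          ¬ (Crest.AnalysisR.TreeProduct.spanBanach μ W).IsAUC N := by
  classical
  obtain ⟨hm, hind, hlaw⟩ := hW
  have hmemν : MemLp (fun x : ℝ => x) 2 ν :=
    (memLp_two_iff_integrable_sq (by fun_prop)).2 hm2
  have hint : Integrable (fun x : ℝ => x) ν := hmemν.integrable one_le_two
  have hposae : ∀ᵐ x ∂ν, 0 < x :=
    (mem_ae_iff_prob_eq_one measurableSet_Ioi).2 hpos
  have habs : ∫ x, |x| ∂ν = 1 := by
    rw [← hmean]
    exact integral_congr_ae (hposae.mono fun x hx => abs_of_pos hx)
  have hδ := TreeProd.step_pos ν hnc hint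
  set δ := ∫ x, |x - 1| ∂ν with hδdef
  set C := Real.sqrt (∫ x, (x - 1) ^ 2 ∂ν) with hC
  have hfacts := TreeProd.integral_abs_path ν hm hind hlaw hint habs
  let x : List ℕ → Lp ℝ 1 μ := fun v => (hfacts v).1.toL1 _
  have hx : ∀ v, (x v : Ω → ℝ) =ᵐ[μ] TreeProduct.pathProduct W v :=
    fun v => (hfacts v).1.coeFn_toL1
  have hxmem : ∀ v, x v ∈ TreeProduct.productSpan μ W := fun v =>
    Submodule.le_topologicalClosure _ (Submodule.subset_span ⟨v, hx v⟩)
  let xs : List ℕ → TreeProduct.productSpan μ W := fun v => ⟨x v, hxmem v⟩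
  have hxs1 : ∀ v, ‖xs v‖ = 1 := by
    intro v
    have : ‖xs v‖ = ‖x v‖ := rfl
    rw [this, TreeProd.norm_of_ae (hx v)]
    exact (hfacts v).2
  have hstep : ∀ v n, ‖xs (n :: v) - xs v‖ = δ := by
    intro v n
    have : ‖xs (n :: v) - xs v‖ = ‖x (n :: v) - x v‖ := rfl
    rw [this]
    exact TreeProd.norm_step ν hm hind hlaw hint habs x hx v n
  have hsum : ∀ (v : List ℕ) (A : Finset ℕ), ‖∑ n ∈ A, (xs (n :: v) - xs v)‖ ≤ C * Real.sqrt A.card := by
    intro v A
    have : ‖∑ n ∈ A, (xs (n :: v) - xs v)‖ = ‖∑ n ∈ A, (x (n :: v) - x v)‖ := by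
      rw [Submodule.coe_norm]
      congr 1
      rw [AddSubmonoidClass.coe_finsetSum]
      rfl
    rw [this]
    exact TreeProd.norm_sum_siblings ν hm hind hlaw hm2 hmean habs x hx v A
  constructor
  · exact AUCTree.not_finiteDimensional_of_l2 (TreeProduct.spanBanach μ W)
      (fun n => xs [n] - xs []) C δ hδ (hsum []) (fun n => (hstep [] n).ge)
  · intro N hN
    refine AUCTree.no_equiv_auc (TreeProduct.spanBanach μ W) 1 δ 1 hδ one_pos ?_ N hN
    intro J
    refine ⟨fun _ => Set.range xs, ⟨xs [], ⟨[], rfl⟩, (hxs1 []).ge⟩, ?_, ?_⟩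
    · rintro j _ ⟨v, rfl⟩
      exact (hxs1 v).le
    · rintro j - _ ⟨v, rfl⟩ F hF ε hε
      obtain ⟨n, z, hz, hzn⟩ := AUCTree.exists_near_cof (TreeProduct.spanBanach μ W)
        (fun n => xs (n :: v) - xs v) C (hsum v) F hF ε hε
      exact ⟨xs (n :: v), ⟨_, rfl⟩, (hstep v n).ge, z, hz, hzn⟩

end Crest.Agent.S0169
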