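import Crest.Statements.S0223
import Crest.Agent.Lib.Thorp.ShuffleAux

set_option autoImplicit false
open Crest Crest.ProbabilityR

namespace Crest.Agent.S0223

open Crest.ProbabilityR.Shuffle

lemma stepPos_injective (m : ℕ) (c : Fin m → Bool) : Function.Injective (stepPos m c) := by
  intro x y hxy
  have hval := congrArg Fin.val hxy
  simp only [stepPos] at hval
  have hx := x.isLt
  have hy := y.isLt
  have hm : 0 < m := by omega
  have hxm : x.val % m < m := Nat.mod_lt _ hm
  have hym : y.val % m < m := Nat.mod_lt _ hm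
  have key : x.val % m = y.val % m ∧
      (xor (decide (m ≤ x.val)) (c ⟨x.val % m, hxm⟩) =
        xor (decide (m ≤ y.val)) (c ⟨y.val % m, hym⟩)) := by
    revert hval
    split_ifs with h1 h2 h2
    · intro h
      refine ⟨by omega, ?_⟩
      simp only [h1, h2]
    · intro h; omega
    · intro h; omega
    · intro h
      refine ⟨by omega, ?_⟩
      simp only [Bool.not_eq_true] at h1 h2
      simp only [h1, h2]
  obtain ⟨k1, k2⟩ := key
  have hc : c ⟨x.val % m, hxm⟩ = c ⟨y.val % m, hym⟩ := by
    congr 2
  rw [hc] at k2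
  have hside : decide (m ≤ x.val) = decide (m ≤ y.val) := by
    cases h : decide (m ≤ x.val) <;> cases h' : decide (m ≤ y.val) <;>
      cases h'' : c ⟨y.val % m, hym⟩ <;> simp_all
  have hside' : m ≤ x.val ↔ m ≤ y.val := by
    simpa using hside
  apply Fin.ext
  by_cases hxm' : m ≤ x.val
  · have hym' := hside'.1 hxm'
    have h1 : x.val % m = x.val - m := by
      rw [Nat.mod_eq_sub_mod hxm']
      exact Nat.mod_eq_of_lt (by omega)
    have h2 : y.val % m = y.val - m := by
      rw [Nat.mod_eq_sub_mod hym']
      exact Nat.mod_eq_of_lt (by omega)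
    omega
  · have hym' : ¬ m ≤ y.val := fun h => hxm' (hside'.2 h)
    have h1 : x.val % m = x.val := Nat.mod_eq_of_lt (by omega)
    have h2 : y.val % m = y.val := Nat.mod_eq_of_lt (by omega)
    omega

lemma iterPos_injective (m : ℕ) :
    ∀ (t : ℕ) (cs : Fin t → Fin m → Bool), Function.Injective (iterPos m t cs)
  | 0, _ => by
      intro x y h
      simpa [iterPos] using h
  | t + 1, cs => by
      intro x y h
      simp only [iterPos] at h
      exact iterPos_injective m t _ (stepPos_injective m _ h)

/-- The permutation associated to a table of bits. -/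
noncomputable def iterPerm (m t : ℕ) (cs : Fin t → Fin m → Bool) : Equiv.Perm (Fin (2 * m)) :=
  Equiv.ofBijective (iterPos m t cs) (Finite.injective_iff_bijective.mp (iterPos_injective m t cs))

lemma iterPerm_coe (m t : ℕ) (cs : Fin t → Fin m → Bool) :
    ⇑(iterPerm m t cs) = iterPos m t cs := rfl

theorem result (d t : ℕ) :
    1 - (2 : ℝ) ^ (2 ^ d * t) / ((2 * 2 ^ d).factorial : ℝ)
      ≤ Crest.ProbabilityR.Shuffle.tvFromUniform (2 ^ d) t := by
  classical
  set m := 2 ^ d with hm
  set Ω := Fin t → Fin m → Bool with hΩ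
  have hcardΩ : (Fintype.card Ω : ℝ) = (2 : ℝ) ^ (m * t) := by
    have : Fintype.card Ω = 2 ^ (m * t) := by
      simp only [hΩ, Fintype.card_fun, Fintype.card_fin, Fintype.card_bool]
      rw [← pow_mul]
    rw [this]; push_cast; rfl
  have hΩpos : (0 : ℝ) < Fintype.card Ω := by rw [hcardΩ]; positivity
  set N : ℝ := ((2 * m).factorial : ℝ) with hN
  have hNpos : 0 < N := by rw [hN]; exact_mod_cast Nat.factorial_pos _
  -- fibres
  let fib : Equiv.Perm (Fin (2 * m)) → Finset Ω :=
    fun g => Finset.univ.filter (fun cs => iterPerm m t cs = g)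
  have hprob : ∀ g : Equiv.Perm (Fin (2 * m)),
      Crest.FinProb.uniformProb {cs : Fin t → Fin m → Bool | iterPos m t cs = ⇑g}
        = ((fib g).card : ℝ) / (Fintype.card Ω : ℝ) := by
    intro g
    unfold Crest.FinProb.uniformProb
    congr 2
    apply congrArg
    ext cs
    simp only [fib, Finset.mem_filter, Finset.mem_univ, true_and, Set.mem_ofPred_eq]
    constructor
    · intro h
      apply Equiv.coe_fn_injective
      show ⇑(iterPerm m t cs) = ⇑g
      rw [iterPerm_coe]; exact h
    · intro h
      rw [← iterPerm_coe, h]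
  have hsum : ∑ g : Equiv.Perm (Fin (2 * m)), ((fib g).card : ℝ) = Fintype.card Ω := by
    have : (Finset.univ : Finset Ω).card =
        ∑ g : Equiv.Perm (Fin (2 * m)), (fib g).card :=
      Finset.card_eq_sum_card_fiberwise (fun cs _ => Finset.mem_coe.2 (Finset.mem_univ _))
    rw [Finset.card_univ] at this
    rw [this]; push_cast; rfl
  -- the support
  let S : Finset (Equiv.Perm (Fin (2 * m))) := Finset.univ.image (iterPerm m t)
  have hScard : (S.card : ℝ) ≤ Fintype.card Ω := by
    have : S.card ≤ (Finset.univ : Finset Ω).card := Finset.card_image_le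
    rw [Finset.card_univ] at this
    exact_mod_cast this
  have hfibS : ∀ g, g ∉ S → (fib g).card = 0 := by
    intro g hg
    rw [Finset.card_eq_zero, Finset.filter_eq_empty_iff]
    intro cs _ h
    exact hg (Finset.mem_image.2 ⟨cs, Finset.mem_univ _, h⟩)
  set u : ℝ := 1 / N with hu
  have hupos : 0 < u := by positivity
  -- pointwise bound
  have hpoint : ∀ g : Equiv.Perm (Fin (2 * m)),
      (if g ∈ S then (((fib g).card : ℝ) / (Fintype.card Ω : ℝ) - u) else u) ≤
        |((fib g).card : ℝ) / (Fintype.card Ω : ℝ) - u| := by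
    intro g
    split_ifs with hg
    · exact le_abs_self _
    · rw [hfibS g hg]
      simp [abs_of_pos hupos]
  have hperm : (Finset.univ : Finset (Equiv.Perm (Fin (2 * m)))).card = (2 * m).factorial := by
    rw [Finset.card_univ, Fintype.card_perm, Fintype.card_fin]
  have hsum2 : ∑ g : Equiv.Perm (Fin (2 * m)),
      (if g ∈ S then (((fib g).card : ℝ) / (Fintype.card Ω : ℝ) - u) else u)
        = 2 - 2 * (S.card : ℝ) * u := by
    have h1 : ∑ g : Equiv.Perm (Fin (2 * m)),
        (if g ∈ S then (((fib g).card : ℝ) / (Fintype.card Ω : ℝ) - u) else u)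
        = ∑ g : Equiv.Perm (Fin (2 * m)), ((fib g).card : ℝ) / (Fintype.card Ω : ℝ)
          + ∑ g : Equiv.Perm (Fin (2 * m)), u - 2 * ∑ g ∈ S, u := by
      have : ∀ g : Equiv.Perm (Fin (2 * m)),
          (if g ∈ S then (((fib g).card : ℝ) / (Fintype.card Ω : ℝ) - u) else u)
            = ((fib g).card : ℝ) / (Fintype.card Ω : ℝ) + u - 2 * (if g ∈ S then u else 0) := by
        intro g
        split_ifs with hg
        · ring
        · rw [hfibS g hg]; simp
      simp_rw [this]
      rw [Finset.sum_sub_distrib, Finset.sum_add_distrib, ← Finset.mul_sum]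
      congr 2
      rw [Finset.sum_ite_mem]
      simp
    rw [h1, ← Finset.sum_div, hsum, div_self hΩpos.ne']
    rw [Finset.sum_const, hperm, Finset.sum_const, nsmul_eq_mul, nsmul_eq_mul]
    have : ((2 * m).factorial : ℝ) * u = 1 := by
      rw [hu, ← hN]; field_simp
    rw [this]; ring
  unfold tvFromUniform
  simp_rw [hprob]
  have hle : 2 - 2 * (S.card : ℝ) * u ≤ ∑ g : Equiv.Perm (Fin (2 * m)),
      |((fib g).card : ℝ) / (Fintype.card Ω : ℝ) - u| := by
    rw [← hsum2]
    exact Finset.sum_le_sum (fun g _ => hpoint g)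
  have hS : (S.card : ℝ) * u ≤ (2 : ℝ) ^ (m * t) / N := by
    rw [← hcardΩ, hu, mul_one_div]
    exact div_le_div_of_nonneg_right hScard hNpos.le
  linarith

end Crest.Agent.S0223
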