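import Crest.Statements.S0246
import Crest.Agent.Lib.PottsTree.CertQ4

set_option autoImplicit false
open Crest Crest.ProbabilityR

namespace Crest.Agent.S0246

/-- Four-valued spins spread from a uniform root down an infinite rooted tree with finite levels and at most `B` children per vertex, each child keeping its parent's spin with probability `λ ∈ (0,1)`, else drawing a fresh uniform spin. The root-reconstruction advantage from the depth-`n` spins stays bounded away from `0` if and only if some nonnegative flow to infinity of positive mass has, along every ray, sum over its edges of `(flow / λ^(2·depth))²` at most `1` (positive cubic capacity). -/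
theorem result (V : Type*) [DecidableEq V]
    (T : Crest.ProbabilityR.TreeBroadcast.LocFinTree V) [Infinite V] (B : ℕ)
    (hB : ∀ v, (T.children v).card ≤ B) (lam : ℝ) (h0 : 0 < lam) (h1 : lam < 1) :
    (∃ ε : ℝ, 0 < ε ∧ ∀ n, ε ≤ Crest.ProbabilityR.TreeBroadcast.treeAdvantage 4 T lam n) ↔
    (∃ θ : V → ℝ, Crest.ProbabilityR.TreeBroadcast.IsFlow T θ ∧ 0 < Crest.ProbabilityR.TreeBroadcast.flowMass T θ ∧
      ∀ ξ : ℕ → V, T.IsRay ξ → Crest.ProbabilityR.TreeBroadcast.rayPotential lam θ ξ ≤ 1) :=
  Crest.Agent.PottsTree.s0246_of_target Crest.Agent.PottsTree.CertQ4.target246 V T B hB lam h0 h1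

end Crest.Agent.S0246
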