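import Crest.Statements.S0324
import Crest.Agent.Lib.TetraMain
import Crest.Agent.Lib.CylArea

set_option autoImplicit false
open MeasureTheory
open scoped ENNReal
open Crest Crest.GeometryTopology Crest.GeometryTopology.Convex

namespace Crest.Agent.S0324

/-- The regular tetrahedron `K` with vertices `(±1, 0, 0)`, `(0, ±1, √2)` is covered by finitely many cylinders `Bᵢ + ℝ uᵢ`, each with unit direction `uᵢ` and base `Bᵢ` a triangle (convex hull of three points) in the plane `uᵢ^⊥`, whose total base area `∑ᵢ area(Bᵢ)` is smaller, by a positive margin, than half the area of the orthogonal projection of `K` onto `v^⊥` for every unit vector `v`; areas are 2-dimensional Hausdorff measure. -/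
theorem result :
    ∃ (m : ℕ) (u p q r : Fin m → EuclideanSpace ℝ (Fin 3)),
      (∀ i, ‖u i‖ = 1) ∧
      (∀ i, inner ℝ (p i) (u i) = 0 ∧ inner ℝ (q i) (u i) = 0 ∧ inner ℝ (r i) (u i) = 0) ∧
      convexHull ℝ {!₂[1, 0, 0], !₂[-1, 0, 0], !₂[0, 1, Real.sqrt 2], !₂[0, -1, Real.sqrt 2]} ⊆
        ⋃ i, {x : EuclideanSpace ℝ (Fin 3) | ∃ b ∈ convexHull ℝ {p i, q i, r i}, ∃ t : ℝ, x = b + t • u i} ∧
      ∃ δ : ℝ, 0 < δ ∧ ∀ v : EuclideanSpace ℝ (Fin 3), ‖v‖ = 1 →
        ∑ i, (μH[(2 : ℝ)] (convexHull ℝ {p i, q i, r i})).toReal + δ ≤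
          (μH[(2 : ℝ)] ((fun y => y - inner ℝ y v • v) '' convexHull ℝ {!₂[1, 0, 0], !₂[-1, 0, 0], !₂[0, 1, Real.sqrt 2], !₂[0, -1, Real.sqrt 2]})).toReal / 2 := by
  have hκ : (0 : ℝ) < (Crest.Agent.Lib.CylArea.kappa : ℝ) := by
    have := Crest.Agent.Lib.CylArea.kappa_ne_zero
    exact_mod_cast pos_iff_ne_zero.mpr this
  have hr : 0 < Real.sqrt 2 := by positivity
  obtain ⟨u, p, q, r, hu, hort, hcov, hsum⟩ :=
    Crest.Agent.Lib.TetraFan.padded_cover (w := Crest.Agent.Lib.TetraFan.wc) (ℓ := 2) (by norm_num)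
      Crest.Agent.Lib.TetraFan.wc_dist (2 * Crest.Agent.Lib.TetraFan.nn + 1) le_rfl
      (Real.sqrt 2 * (1 / 2 - 3 / 10 ^ 8)) (by
        have : ((2 : ℝ) / 2) ^ 2 = 1 := by norm_num
        rw [this, one_mul])
  refine ⟨2 * Crest.Agent.Lib.TetraFan.nn + 1, u, p, q, r, hu, hort, ?_, ?_⟩
  · rw [← Crest.Agent.Lib.TetraFan.wc_range]
    exact hcov
  · refine ⟨Real.sqrt 2 * (3 / 10 ^ 8) / (Crest.Agent.Lib.CylArea.kappa : ℝ), by positivity, ?_⟩
    intro v hv
    simp only [Crest.Agent.Lib.CylArea.muH_toReal]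
    rw [← Finset.sum_div, hsum]
    have hmin := Crest.Agent.Lib.TetraFan.K_min_proj_toReal (w := Crest.Agent.Lib.TetraFan.wc)
      (ℓ := 2) (by norm_num) Crest.Agent.Lib.TetraFan.wc_dist v hv
    rw [Crest.Agent.Lib.TetraFan.wc_range] at hmin
    have h1 : Real.sqrt 2 ≤ (μHE[2] ((fun y => y - inner ℝ y v • v) '' convexHull ℝ {!₂[1, 0, 0], !₂[-1, 0, 0], !₂[0, 1, Real.sqrt 2], !₂[0, -1, Real.sqrt 2]})).toReal := by
      have e : Real.sqrt 2 * ((2 : ℝ) / 2) ^ 2 = Real.sqrt 2 := by norm_num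
      rw [e] at hmin
      exact hmin
    rw [← add_div, div_div, div_le_div_iff₀ hκ (by positivity)]
    nlinarith

end Crest.Agent.S0324
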