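-- Statement S0328 (row 211).
import Crest.Statements.S0328
import Crest.Agent.Lib.SweepCyl

set_option autoImplicit false
open MeasureTheory
open scoped ENNReal
open Crest Crest.GeometryTopology Crest.GeometryTopology.Convex

namespace Crest.Agent.S0328

open Crest.Agent.Lib.SweepCyl

/-- Unit e; a, b, p₀ ∈ e^⊥, a, b independent; α < β; L > 0; R ≥ 0, λ both continuous on [α, β]; w(t) ∈ e^⊥, w′ = λ(t)(a + tb). S = {p₀ + ρ(a + t b) + s(e + w t) : α ≤ t ≤ β, 0 ≤ ρ ≤ R t, ‖s‖ ≤ L}; A = κ ∫_α^β R²/(2√(1 + ‖w‖²)), κ = area spanned by a, b. For η > 0 a δ > 0 makes each partition t₀ < … < t_N of [α, β] of mesh ≤ δ, tags cᵢ, admit N cylinders (axes e + w(cᵢ), nondegenerate triangle bases) covering S, total area within η of A; same for S's pieces tᵢ ≤ t ≤ tᵢ₊₁ projected along these axes. -/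
theorem result
    (e a b p₀ : EuclideanSpace ℝ (Fin 3)) (he : ‖e‖ = 1)
    (ha : inner ℝ a e = 0) (hb : inner ℝ b e = 0) (hp₀ : inner ℝ p₀ e = 0)
    (hab : LinearIndependent ℝ ![a, b]) (L : ℝ) (hL : 0 < L) (α β : ℝ) (hαβ : α < β)
    (R : ℝ → ℝ) (hR : ContinuousOn R (Set.Icc α β)) (hR0 : ∀ t ∈ Set.Icc α β, 0 ≤ R t)
    (w : ℝ → EuclideanSpace ℝ (Fin 3)) (hw : ∀ t ∈ Set.Icc α β, inner ℝ (w t) e = 0)
    (lam : ℝ → ℝ) (hlam : ContinuousOn lam (Set.Icc α β))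
    (hw' : ∀ t ∈ Set.Icc α β, HasDerivWithinAt w (lam t • (a + t • b)) (Set.Icc α β) t)
    (η : ℝ) (hη : 0 < η) :
    ∃ δ : ℝ, 0 < δ ∧ ∀ (N : ℕ) (t : Fin (N + 1) → ℝ) (c : Fin N → ℝ),
      StrictMono t → t 0 = α → t (Fin.last N) = β →
      (∀ i : Fin N, t i.succ - t i.castSucc ≤ δ) →
      (∀ i : Fin N, t i.castSucc ≤ c i ∧ c i ≤ t i.succ) →
      (∃ (p q r : Fin N → EuclideanSpace ℝ (Fin 3)),
        (∀ i, inner ℝ (p i) (e + w (c i)) = 0 ∧ inner ℝ (q i) (e + w (c i)) = 0 ∧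
          inner ℝ (r i) (e + w (c i)) = 0) ∧
        (∀ i, AffineIndependent ℝ ![p i, q i, r i]) ∧
        {x : EuclideanSpace ℝ (Fin 3) | ∃ τ ∈ Set.Icc α β, ∃ ρ ∈ Set.Icc 0 (R τ), ∃ s : ℝ, abs s ≤ L ∧
            x = p₀ + ρ • (a + τ • b) + s • (e + w τ)} ⊆
          ⋃ i, {x : EuclideanSpace ℝ (Fin 3) | ∃ y ∈ convexHull ℝ {p i, q i, r i}, ∃ σ : ℝ,
            x = y + σ • (e + w (c i))} ∧
        abs ((∑ i, (μHE[2] (convexHull ℝ ({p i, q i, r i} : Set (EuclideanSpace ℝ (Fin 3))))).toReal) -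
            Real.sqrt (‖a‖ ^ 2 * ‖b‖ ^ 2 - inner ℝ a b ^ 2) *
              ∫ τ in α..β, R τ ^ 2 / (2 * Real.sqrt (1 + ‖w τ‖ ^ 2))) ≤ η) ∧
      abs ((∑ i : Fin N, (μHE[2] ((fun y => y - (inner ℝ y (e + w (c i)) / ‖e + w (c i)‖ ^ 2) • (e + w (c i))) ''
            {x : EuclideanSpace ℝ (Fin 3) | ∃ τ ∈ Set.Icc (t i.castSucc) (t i.succ), ∃ ρ ∈ Set.Icc 0 (R τ),
              ∃ s : ℝ, abs s ≤ L ∧ x = p₀ + ρ • (a + τ • b) + s • (e + w τ)})).toReal) -
          Real.sqrt (‖a‖ ^ 2 * ‖b‖ ^ 2 - inner ℝ a b ^ 2) *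
            ∫ τ in α..β, R τ ^ 2 / (2 * Real.sqrt (1 + ‖w τ‖ ^ 2))) ≤ η := by
  have hG : 0 < grm a b := grm_pos_of_li hab
  have hκdef : Real.sqrt (‖a‖ ^ 2 * ‖b‖ ^ 2 - inner ℝ a b ^ 2) = √(grm a b) := rfl
  rw [hκdef]
  set κ := √(grm a b) with hκ
  have hκ0 : 0 ≤ κ := Real.sqrt_nonneg _
  have hwcont : ContinuousOn w (Set.Icc α β) := fun x hx => (hw' x hx).continuousWithinAt
  -- the density
  set φ : ℝ → ℝ := fun τ => 1 / √(1 + ‖w τ‖ ^ 2) with hφ
  have hφ1 : ∀ τ, φ τ ≤ 1 := fun τ => inv_sqrt_le_one _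
  have hφ0 : ∀ τ, 0 ≤ φ τ := fun τ => by simp only [hφ]; positivity
  have hsqrt_ne : ∀ τ, √(1 + ‖w τ‖ ^ 2) ≠ 0 := fun τ => by positivity
  have hφc : ContinuousOn φ (Set.Icc α β) := by
    apply ContinuousOn.div continuousOn_const
    · exact (continuousOn_const.add (hwcont.norm.pow 2)).sqrt
    · intro x _; exact hsqrt_ne x
  set g : ℝ → ℝ := fun τ => R τ ^ 2 / (2 * √(1 + ‖w τ‖ ^ 2)) with hg
  have hgφ : ∀ τ, g τ = R τ ^ 2 * φ τ / 2 := by
    intro τ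
    simp only [hg, hφ]
    have := hsqrt_ne τ
    field_simp
  have hgc : ContinuousOn g (Set.Icc α β) := by
    have : g = fun τ => R τ ^ 2 * φ τ / 2 := funext hgφ
    rw [this]
    exact ((hR.pow 2).mul hφc).div_const 2
  -- bounds
  obtain ⟨Rm, hRm⟩ := isCompact_Icc.exists_bound_of_continuousOn hR
  obtain ⟨Λ, hΛ⟩ := isCompact_Icc.exists_bound_of_continuousOn hlam
  have hRm' : ∀ x ∈ Set.Icc α β, R x ≤ Rm := fun x hx => (le_abs_self _).trans (hRm x hx)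
  have hαmem : α ∈ Set.Icc α β := ⟨le_refl _, hαβ.le⟩
  have hRm0 : 0 ≤ Rm := (norm_nonneg _).trans (hRm α hαmem)
  have hΛ0 : 0 ≤ Λ := (norm_nonneg _).trans (hΛ α hαmem)
  have hΛ' : ∀ x ∈ Set.Icc α β, |lam x| ≤ Λ := hΛ
  -- small parameter
  set C₀ := 2 * (Rm + 3) ^ 2 with hC₀
  have hC₀0 : 0 ≤ C₀ := by positivity
  set Z := κ * (C₀ * (β - α)) with hZ
  have hZ0 : 0 ≤ Z := mul_nonneg hκ0 (mul_nonneg hC₀0 (by linarith))
  set ε := min 1 (η / (Z + 1)) with hε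
  have hεpos : 0 < ε := lt_min one_pos (div_pos hη (by linarith))
  have hε1 : ε ≤ 1 := min_le_left _ _
  have hZε : Z * ε ≤ η := by
    have h1 : ε ≤ η / (Z + 1) := min_le_right _ _
    have h2 : (Z + 1) * ε ≤ η := by
      rw [le_div_iff₀ (by linarith)] at h1
      linarith
    nlinarith
  -- uniform continuity
  obtain ⟨δ₁, hδ₁, hδ₁R⟩ := Metric.uniformContinuousOn_iff.1
    (isCompact_Icc.uniformContinuousOn_of_continuous hR) (ε / 2) (by positivity)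
  obtain ⟨δ₂, hδ₂, hδ₂φ⟩ := Metric.uniformContinuousOn_iff.1
    (isCompact_Icc.uniformContinuousOn_of_continuous hφc) ε hεpos
  set δ₃ := ε ^ 2 / (2 * (L * Λ + 1)) with hδ₃
  have hLΛ : 0 ≤ L * Λ := by positivity
  have hδ₃0 : 0 < δ₃ := by positivity
  refine ⟨min (min (δ₁ / 2) (δ₂ / 2)) δ₃, by positivity, ?_⟩
  intro N t c ht ht0 htN hmesh htag
  -- basic partition facts
  have hmono : Monotone t := ht.monotone
  have htα : ∀ j, α ≤ t j := fun j => ht0 ▸ hmono (Fin.zero_le j)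
  have htβ : ∀ j, t j ≤ β := fun j => htN ▸ hmono (Fin.le_last j)
  have hΔpos : ∀ i : Fin N, t i.castSucc < t i.succ := fun i => ht (Fin.castSucc_lt_succ)
  have hcmem : ∀ i, c i ∈ Set.Icc (t i.castSucc) (t i.succ) := fun i => ⟨(htag i).1, (htag i).2⟩
  have hsubI : ∀ i : Fin N, Set.Icc (t i.castSucc) (t i.succ) ⊆ Set.Icc α β :=
    fun i => Set.Icc_subset_Icc (htα _) (htβ _)
  have hu : ∀ i, e + w (c i) ≠ 0 := fun i =>
    add_ne_zero_of_perp he (hw _ (hsubI i (hcmem i)))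
  have hδle : ∀ i : Fin N, ∀ τ ∈ Set.Icc (t i.castSucc) (t i.succ),
      dist τ (c i) < δ₁ ∧ dist τ (c i) < δ₂ := by
    intro i τ hτ
    have h1 := hmesh i
    have h2 : t i.succ - t i.castSucc ≤ δ₁ / 2 := h1.trans ((min_le_left _ _).trans (min_le_left _ _))
    have h3 : t i.succ - t i.castSucc ≤ δ₂ / 2 := h1.trans ((min_le_left _ _).trans (min_le_right _ _))
    have h4 : dist τ (c i) ≤ t i.succ - t i.castSucc := by
      rw [Real.dist_eq, abs_le]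
      constructor <;> linarith [hτ.1, hτ.2, (hcmem i).1, (hcmem i).2]
    constructor <;> linarith
  have hRclose : ∀ i : Fin N, ∀ τ ∈ Set.Icc (t i.castSucc) (t i.succ),
      |R τ - R (c i)| ≤ ε / 2 := by
    intro i τ hτ
    have := hδ₁R τ (hsubI i hτ) (c i) (hsubI i (hcmem i)) (hδle i τ hτ).1
    rw [Real.dist_eq] at this
    exact this.le
  have hφclose : ∀ i : Fin N, ∀ τ ∈ Set.Icc (t i.castSucc) (t i.succ),
      |φ τ - φ (c i)| ≤ ε := by
    intro i τ hτ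
    have := hδ₂φ τ (hsubI i hτ) (c i) (hsubI i (hcmem i)) (hδle i τ hτ).2
    rw [Real.dist_eq] at this
    exact this.le
  have hsmall : ∀ i : Fin N, L * Λ * (t i.succ - t i.castSucc) ≤ ε ^ 2 / 2 := by
    intro i
    have h1 : t i.succ - t i.castSucc ≤ δ₃ := (hmesh i).trans (min_le_right _ _)
    calc L * Λ * (t i.succ - t i.castSucc) ≤ L * Λ * δ₃ := mul_le_mul_of_nonneg_left h1 hLΛ
      _ = (L * Λ) / (L * Λ + 1) * (ε ^ 2 / 2) := by rw [hδ₃]; field_simp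
      _ ≤ 1 * (ε ^ 2 / 2) := by
          apply mul_le_mul_of_nonneg_right _ (by positivity)
          rw [div_le_one (by positivity)]; linarith
      _ = _ := one_mul _
  -- the triangles
  set P : Fin N → EuclideanSpace ℝ (Fin 3) := fun i => p₀ - ε • (a + c i • b) with hP
  set A₁ : Fin N → ℝ := fun i => t i.castSucc - ε * (t i.succ - t i.castSucc) with hA₁
  set A₂ : Fin N → ℝ := fun i => t i.succ + ε * (t i.succ - t i.castSucc) with hA₂
  set mm : Fin N → ℝ := fun i => R (c i) + 2 * ε with hmm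
  have hmmpos : ∀ i, 0 < mm i := fun i => by
    have := hR0 _ (hsubI i (hcmem i))
    simp only [hmm]; positivity
  have hA₁₂ : ∀ i, A₁ i < A₂ i := fun i => by
    have h1 := hΔpos i
    have : 0 < ε * (t i.succ - t i.castSucc) := mul_pos hεpos (by linarith)
    simp only [hA₁, hA₂]; linarith
  -- areas
  set Gup : Fin N → ℝ := fun i => 1 / 2 * ((R (c i) + 2 * ε) ^ 2 * (1 + 2 * ε) * φ (c i)) with hGup
  set Glo : Fin N → ℝ := fun i => 1 / 2 * ((max (R (c i) - ε) 0) ^ 2 * φ (c i)) with hGlo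
  have hareaU : ∀ i, μHE[2] (convexHull ℝ ({prj (e + w (c i)) (P i),
        prj (e + w (c i)) (P i + mm i • (a + A₁ i • b)),
        prj (e + w (c i)) (P i + mm i • (a + A₂ i • b))} : Set (EuclideanSpace ℝ (Fin 3))))
      = ENNReal.ofReal (κ * ((t i.succ - t i.castSucc) * Gup i)) := by
    intro i
    rw [area_tri he ha hb (hw _ (hsubI i (hcmem i))) _ _ _ _ (hA₁₂ i).le]
    congr 1
    simp only [hA₁, hA₂, hmm, hGup, hφ]
    ring
  have hareaL : ∀ i, μHE[2] (convexHull ℝ ({prj (e + w (c i)) p₀,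
        prj (e + w (c i)) (p₀ + max (R (c i) - ε) 0 • (a + t i.castSucc • b)),
        prj (e + w (c i)) (p₀ + max (R (c i) - ε) 0 • (a + t i.succ • b))} : Set (EuclideanSpace ℝ (Fin 3))))
      = ENNReal.ofReal (κ * ((t i.succ - t i.castSucc) * Glo i)) := by
    intro i
    rw [area_tri he ha hb (hw _ (hsubI i (hcmem i))) _ _ _ _ (hΔpos i).le]
    congr 1
    simp only [hGlo, hφ]
    ring
  have hGup0 : ∀ i, 0 ≤ κ * ((t i.succ - t i.castSucc) * Gup i) := by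
    intro i
    have h1 := hΔpos i
    have h2 := hφ0 (c i)
    have h3 : 0 ≤ t i.succ - t i.castSucc := by linarith
    simp only [hGup]; positivity
  have hGlo0 : ∀ i, 0 ≤ κ * ((t i.succ - t i.castSucc) * Glo i) := by
    intro i
    have h1 := hΔpos i
    have h2 := hφ0 (c i)
    have h3 : 0 ≤ t i.succ - t i.castSucc := by linarith
    simp only [hGlo]; positivity
  -- piece cover
  have hcover : ∀ i : Fin N, ∀ τ ∈ Set.Icc (t i.castSucc) (t i.succ), ∀ ρ ∈ Set.Icc 0 (R τ),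
      ∀ s : ℝ, |s| ≤ L →
      prj (e + w (c i)) (p₀ + ρ • (a + τ • b) + s • (e + w τ)) ∈
        convexHull ℝ ({prj (e + w (c i)) (P i),
        prj (e + w (c i)) (P i + mm i • (a + A₁ i • b)),
        prj (e + w (c i)) (P i + mm i • (a + A₂ i • b))} : Set (EuclideanSpace ℝ (Fin 3))) := by
    intro i τ hτ ρ hρ s hs
    have h1 := (abs_le.1 (hRclose i τ hτ)).2
    exact piece_cover hG hw' hΛ' (htα _) (htβ _) (hΔpos i) (hu i) (hcmem i) hτ hρ.1
      (by linarith [hρ.2]) hs hεpos hε1 (hsmall i)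
  -- Riemann sums
  have hgc' : ContinuousOn g (Set.Icc (t 0) (t (Fin.last N))) := by rw [ht0, htN]; exact hgc
  have hRU := riemann N t hmono g hgc' Gup (C₀ * ε) (by
    intro i τ hτ
    rw [hgφ]
    have := hRclose i τ hτ
    have h2 := hφclose i τ hτ
    exact bound_up (hR0 _ (hsubI i (hcmem i))) (hR0 _ (hsubI i hτ)) (hRm' _ (hsubI i hτ))
      (hφ0 _) (hφ1 _) (by rwa [abs_sub_comm]) (by rw [abs_sub_comm]; linarith) hεpos hε1)
  have hRL := riemann N t hmono g hgc' Glo (C₀ * ε) (by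
    intro i τ hτ
    rw [hgφ]
    have := hRclose i τ hτ
    have h2 := hφclose i τ hτ
    exact bound_low (hR0 _ (hsubI i hτ)) (hRm' _ (hsubI i hτ))
      (hφ0 _) (hφ1 _) (by rwa [abs_sub_comm]) (by rw [abs_sub_comm]; linarith) hεpos)
  rw [ht0, htN] at hRU hRL
  set I := ∫ τ in α..β, g τ with hI
  have hscale : ∀ X : ℝ, |X - I| ≤ C₀ * ε * (β - α) → |κ * X - κ * I| ≤ η := by
    intro X hX
    rw [← mul_sub, abs_mul, abs_of_nonneg hκ0]
    calc κ * |X - I| ≤ κ * (C₀ * ε * (β - α)) := mul_le_mul_of_nonneg_left hX hκ0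
      _ = Z * ε := by rw [hZ]; ring
      _ ≤ η := hZε
  have hU' := hscale _ hRU
  have hL' := hscale _ hRL
  rw [Finset.mul_sum] at hU' hL'
  refine ⟨⟨fun i => prj (e + w (c i)) (P i), fun i => prj (e + w (c i)) (P i + mm i • (a + A₁ i • b)),
    fun i => prj (e + w (c i)) (P i + mm i • (a + A₂ i • b)), ?_, ?_, ?_, ?_⟩, ?_⟩
  · intro i
    exact ⟨inner_prj (hu i) _, inner_prj (hu i) _, inner_prj (hu i) _⟩
  · intro i
    exact affInd_tri he ha hb (hw _ (hsubI i (hcmem i))) hG _ (hmmpos i) (hA₁₂ i)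
  · rintro x ⟨τ, hτ, ρ, hρ, s, hs, rfl⟩
    have hNpos : N ≠ 0 := by
      rintro rfl
      have h1 : t (Fin.last 0) = t 0 := rfl
      rw [htN, ht0] at h1
      exact hαβ.ne' h1
    obtain ⟨N', rfl⟩ := Nat.exists_eq_succ_of_ne_zero hNpos
    obtain ⟨i, hi1, hi2⟩ := exists_piece N' t τ (by rw [ht0]; exact hτ.1) (by rw [htN]; exact hτ.2)
    refine Set.mem_iUnion.2 ⟨i, _, hcover i τ ⟨hi1, hi2⟩ ρ hρ s hs, _, eq_prj_add _ _⟩
  · have : ∀ i, (μHE[2] (convexHull ℝ ({prj (e + w (c i)) (P i),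
        prj (e + w (c i)) (P i + mm i • (a + A₁ i • b)),
        prj (e + w (c i)) (P i + mm i • (a + A₂ i • b))} : Set (EuclideanSpace ℝ (Fin 3))))).toReal
        = κ * ((t i.succ - t i.castSucc) * Gup i) := fun i => by
      rw [hareaU i, ENNReal.toReal_ofReal (hGup0 i)]
    simp only [this]
    exact hU'
  · -- the projected pieces
    have hup : ∀ i, (μHE[2] (prj (e + w (c i)) ''
          {x : EuclideanSpace ℝ (Fin 3) | ∃ τ ∈ Set.Icc (t i.castSucc) (t i.succ), ∃ ρ ∈ Set.Icc 0 (R τ),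
              ∃ s : ℝ, abs s ≤ L ∧ x = p₀ + ρ • (a + τ • b) + s • (e + w τ)})).toReal
          ≤ κ * ((t i.succ - t i.castSucc) * Gup i) := by
      intro i
      rw [← ENNReal.toReal_ofReal (hGup0 i), ← hareaU i, hareaU i]
      apply ENNReal.toReal_mono ENNReal.ofReal_ne_top
      rw [← hareaU i]
      apply measure_mono
      rintro _ ⟨x, ⟨τ, hτ, ρ, hρ, s, hs, rfl⟩, rfl⟩
      exact hcover i τ hτ ρ hρ s hs
    have hlow : ∀ i, κ * ((t i.succ - t i.castSucc) * Glo i) ≤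
        (μHE[2] (prj (e + w (c i)) ''
          {x : EuclideanSpace ℝ (Fin 3) | ∃ τ ∈ Set.Icc (t i.castSucc) (t i.succ), ∃ ρ ∈ Set.Icc 0 (R τ),
              ∃ s : ℝ, abs s ≤ L ∧ x = p₀ + ρ • (a + τ • b) + s • (e + w τ)})).toReal := by
      intro i
      rw [← ENNReal.toReal_ofReal (hGlo0 i), ← hareaL i]
      have hfin : μHE[2] (prj (e + w (c i)) ''
          {x : EuclideanSpace ℝ (Fin 3) | ∃ τ ∈ Set.Icc (t i.castSucc) (t i.succ), ∃ ρ ∈ Set.Icc 0 (R τ),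
              ∃ s : ℝ, abs s ≤ L ∧ x = p₀ + ρ • (a + τ • b) + s • (e + w τ)}) ≠ ⊤ := by
        apply ne_top_of_le_ne_top (ENNReal.ofReal_ne_top (r := κ * ((t i.succ - t i.castSucc) * Gup i)))
        rw [← hareaU i]
        apply measure_mono
        rintro _ ⟨x, ⟨τ, hτ, ρ, hρ, s, hs, rfl⟩, rfl⟩
        exact hcover i τ hτ ρ hρ s hs
      apply ENNReal.toReal_mono hfin
      apply measure_mono
      apply inscribed_piece (hΔpos i).le (le_max_right _ _)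
      intro τ hτ ρ hρ
      refine ⟨τ, hτ, ρ, ⟨hρ.1, ?_⟩, 0, by rw [abs_zero]; exact hL.le, by simp⟩
      refine hρ.2.trans (max_le ?_ (hR0 _ (hsubI i hτ)))
      have := (abs_le.1 (hRclose i τ hτ)).1
      linarith
    change |∑ i : Fin N, (μHE[2] (prj (e + w (c i)) ''
          {x : EuclideanSpace ℝ (Fin 3) | ∃ τ ∈ Set.Icc (t i.castSucc) (t i.succ), ∃ ρ ∈ Set.Icc 0 (R τ),
              ∃ s : ℝ, abs s ≤ L ∧ x = p₀ + ρ • (a + τ • b) + s • (e + w τ)})).toReal - κ * I| ≤ η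
    have h1 := Finset.sum_le_sum (fun i (_ : i ∈ Finset.univ) => hup i)
    have h2 := Finset.sum_le_sum (fun i (_ : i ∈ Finset.univ) => hlow i)
    obtain ⟨u1, u2⟩ := abs_le.1 hU'
    obtain ⟨l1, l2⟩ := abs_le.1 hL'
    rw [abs_le]
    constructor <;> linarith

end Crest.Agent.S0328
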