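import Crest.Statements.S0329
import Crest.Agent.S0326
import Crest.Agent.Lib.CylArea
import Crest.Agent.Lib.RuledCover

set_option autoImplicit false
open MeasureTheory
open scoped ENNReal RealInnerProductSpace
open Crest Crest.GeometryTopology Crest.GeometryTopology.Convex
open Crest.Agent.Lib.CylArea Crest.Agent.Lib.RuledCover

namespace Crest.Agent.S0329

section tile

variable (h : ℝ) (c a b g : R2)

/-- The embedding of the plane `x = 0`. -/
noncomputable def sig (ξ : R2) : R3 := !₂[0, ξ 0, h * ξ 1]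

/-- The norm of the direction vector. -/
noncomputable def NN : ℝ := Real.sqrt (1 + (g 0) ^ 2 + h ^ 2 * (g 1) ^ 2)

lemma NN_pos : 0 < NN h g := Real.sqrt_pos.2 (by positivity)

/-- The unit direction. -/
noncomputable def uu : R3 := !₂[1 / NN h g, g 0 / NN h g, h * g 1 / NN h g]

lemma uu_norm : ‖uu h g‖ = 1 := by
  have hN := NN_pos h g
  have h1 : ‖uu h g‖ ^ 2 = 1 := by
    rw [normsq3]
    simp only [uu]
    simp
    have h2 : NN h g ^ 2 = 1 + (g 0) ^ 2 + h ^ 2 * (g 1) ^ 2 := Real.sq_sqrt (by positivity)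
    field_simp
    rw [h2]
  exact (pow_eq_one_iff_of_nonneg (norm_nonneg _) (by norm_num)).1 h1

/-- first chart coordinate in the parallelogram frame -/
noncomputable def sc (y : R3) : ℝ :=
  ((y 1 - y 0 * g 0 - c 0) * a 0 + ((y 2 - y 0 * (h * g 1)) / h - c 1) * a 1) / (a 0 ^ 2 + a 1 ^ 2)

/-- second chart coordinate in the parallelogram frame -/
noncomputable def tc (y : R3) : ℝ :=
  ((y 1 - y 0 * g 0 - c 0) * b 0 + ((y 2 - y 0 * (h * g 1)) / h - c 1) * b 1) / (a 0 ^ 2 + a 1 ^ 2)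

lemma continuous_sc : Continuous (sc h c a g) := by
  unfold sc; fun_prop

lemma continuous_tc : Continuous (tc h c a b g) := by
  unfold tc; fun_prop

/-- The open set defining the base. -/
def OO (η : ℝ) : Set R3 :=
  {y | sc h c a g y ∈ Set.Ioo (-η) (1 + η) ∧ tc h c a b g y ∈ Set.Ioo (-η) (1 + η)}

lemma isOpen_OO (η : ℝ) : IsOpen (OO h c a b g η) :=
  (isOpen_Ioo.preimage (continuous_sc h c a g)).inter (isOpen_Ioo.preimage (continuous_tc h c a b g))

/-- The closed square `[-η, 1+η]²`. -/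
def SQ (η : ℝ) : Set R2 := {x | x 0 ∈ Set.Icc (-η) (1 + η) ∧ x 1 ∈ Set.Icc (-η) (1 + η)}

lemma volume_SQ {η : ℝ} (hη : 0 ≤ η) : volume (SQ η) = ENNReal.ofReal ((1 + 2 * η) ^ 2) := by
  have := volume_eq_prod_region (Set.Icc (-η) (1 + η) ×ˢ Set.Icc (-η) (1 + η))
    (measurableSet_Icc.prod measurableSet_Icc)
  have h2 : {x : R2 | (x 0, x 1) ∈ Set.Icc (-η) (1 + η) ×ˢ Set.Icc (-η) (1 + η)} = SQ η := by
    ext x; exact Iff.rfl
  rw [h2] at this
  rw [this, Measure.volume_eq_prod, Measure.prod_prod, Real.volume_Icc,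
    ← ENNReal.ofReal_mul (by linarith)]
  congr 1
  ring

variable {h a b}

/-- Coordinates of an orthogonal pair of equal length. -/
lemma frame_rel (hn : a 0 ^ 2 + a 1 ^ 2 = b 0 ^ 2 + b 1 ^ 2) (hab : a 0 * b 0 + a 1 * b 1 = 0)
    (hpos : 0 < a 0 ^ 2 + a 1 ^ 2) (X Y : ℝ) :
    (X * a 0 + Y * a 1) / (a 0 ^ 2 + a 1 ^ 2) * a 0 + (X * b 0 + Y * b 1) / (a 0 ^ 2 + a 1 ^ 2) * b 0 = X ∧
    (X * a 0 + Y * a 1) / (a 0 ^ 2 + a 1 ^ 2) * a 1 + (X * b 0 + Y * b 1) / (a 0 ^ 2 + a 1 ^ 2) * b 1 = Y := by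
  set n := a 0 ^ 2 + a 1 ^ 2 with hndef
  have hn1 : a 0 ^ 2 + a 1 ^ 2 = n := rfl
  have hn2 : b 0 ^ 2 + b 1 ^ 2 = n := hn.symm
  have hne : n ≠ 0 := hpos.ne'
  have hP : b 0 ^ 2 = a 1 ^ 2 := by
    have : n * (b 0 ^ 2 - a 1 ^ 2) = 0 := by
      linear_combination (a 0 * b 0 - a 1 * b 1) * hab - b 0 ^ 2 * hn1 + a 1 ^ 2 * hn2
    have := (mul_eq_zero.1 this).resolve_left hne
    linarith
  have hQ : a 0 * a 1 + b 0 * b 1 = 0 := by
    have : n * (a 0 * a 1 + b 0 * b 1) = 0 := by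
      linear_combination (a 0 * b 1 + a 1 * b 0) * hab + a 0 * a 1 * (hn1 - hn2) -
        (a 0 * a 1 + b 0 * b 1) * hn1
    exact (mul_eq_zero.1 this).resolve_left hne
  constructor
  · field_simp
    have h3 : a 0 ^ 2 + b 0 ^ 2 = n := by rw [hP]
    linear_combination X * h3 + Y * hQ
  · field_simp
    have h3 : a 1 ^ 2 + b 1 ^ 2 = n := by nlinarith
    linear_combination Y * h3 + X * hQ

lemma proj_sub_smul {u y : R3} (hu : ‖u‖ = 1) (hy : ⟪y, u⟫ = 0) (κ : ℝ) :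
    proj u (y - κ • u) = y := by
  have hu2 : ⟪u, u⟫ = 1 := by rw [real_inner_self_eq_norm_sq, hu]; norm_num
  simp only [proj, inner_sub_left, real_inner_smul_left, hy, hu2]
  simp

/-- The base is contained in the projected image of a closed square. -/
lemma base_subset (hh : 0 < h) (hn : a 0 ^ 2 + a 1 ^ 2 = b 0 ^ 2 + b 1 ^ 2)
    (hab : a 0 * b 0 + a 1 * b 1 = 0) (hpos : 0 < a 0 ^ 2 + a 1 ^ 2) (η : ℝ) :
    OO h c a b g η ∩ {x | inner ℝ x (uu h g) = 0} ⊆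
      (fun x : R2 => proj (uu h g) (sig h c + x 0 • sig h a + x 1 • sig h b)) '' SQ η := by
  rintro y ⟨⟨hs, ht⟩, hy⟩
  refine ⟨!₂[sc h c a g y, tc h c a b g y], ⟨?_, ?_⟩, ?_⟩
  · simpa using ⟨hs.1.le, hs.2.le⟩
  · simpa using ⟨ht.1.le, ht.2.le⟩
  · have hN := NN_pos h g
    obtain ⟨h1, h2⟩ := frame_rel hn hab hpos (y 1 - y 0 * g 0 - c 0)
      ((y 2 - y 0 * (h * g 1)) / h - c 1)
    have hW : sig h c + (sc h c a g y) • sig h a + (tc h c a b g y) • sig h b =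
        y - (y 0 * NN h g) • uu h g := by
      ext i
      fin_cases i
      · simp [sig, uu]
        field_simp
        simp
      · simp [sig, uu]
        have : sc h c a g y * a 0 + tc h c a b g y * b 0 = y 1 - y 0 * g 0 - c 0 := h1
        field_simp
        linarith
      · simp [sig, uu]
        have : sc h c a g y * a 1 + tc h c a b g y * b 1 = (y 2 - y 0 * (h * g 1)) / h - c 1 := h2
        field_simp at this ⊢
        linarith
    simp only [PiLp.toLp_apply]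
    simp only [Matrix.cons_val_zero, Matrix.cons_val_one]
    rw [hW]
    exact proj_sub_smul (uu_norm h g) hy _

/-- The point of the ruled set lies in the cylinder over the base. -/
lemma cover_point (hh : 0 < h) (hn : a 0 ^ 2 + a 1 ^ 2 = b 0 ^ 2 + b 1 ^ 2)
    (hab : a 0 * b 0 + a 1 * b 1 = 0) (hpos : 0 < a 0 ^ 2 + a 1 ^ 2) {η : ℝ} (hη : 0 < η)
    (p Vp : R2) (x s t : ℝ) (hs : s ∈ Set.Icc (0 : ℝ) 1) (ht : t ∈ Set.Icc (0 : ℝ) 1)
    (hpt : p + x • Vp = c + s • a + t • b + x • g) :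
    ∃ y ∈ OO h c a b g η ∩ {x | inner ℝ x (uu h g) = 0}, ∃ τ : ℝ,
      (!₂[x, p 0 + x * Vp 0, h * (p 1 + x * Vp 1)] : R3) = y + τ • uu h g := by
  set z : R3 := !₂[x, p 0 + x * Vp 0, h * (p 1 + x * Vp 1)] with hz
  have hN := NN_pos h g
  have h0 := congrArg (fun w : R2 => w 0) hpt
  have h1 := congrArg (fun w : R2 => w 1) hpt
  simp at h0 h1
  refine ⟨proj (uu h g) z, ⟨?_, inner_proj (uu_norm h g) z⟩, ⟪z, uu h g⟫, by simp [proj]⟩
  set τ := ⟪z, uu h g⟫ with hτ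
  have hproj : proj (uu h g) z = z - τ • uu h g := rfl
  have z0 : z 0 = x := by simp [hz]
  have z1 : z 1 = p 0 + x * Vp 0 := by simp [hz]
  have z2 : z 2 = h * (p 1 + x * Vp 1) := by simp [hz]
  have u0 : uu h g 0 = 1 / NN h g := by simp [uu]
  have u1 : uu h g 1 = g 0 / NN h g := by simp [uu]
  have u2 : uu h g 2 = h * g 1 / NN h g := by simp [uu]
  have c0 : (proj (uu h g) z) 0 = x - τ * (1 / NN h g) := by
    rw [hproj, PiLp.sub_apply, PiLp.smul_apply, z0, u0, smul_eq_mul]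
  have c1 : (proj (uu h g) z) 1 = p 0 + x * Vp 0 - τ * (g 0 / NN h g) := by
    rw [hproj, PiLp.sub_apply, PiLp.smul_apply, z1, u1, smul_eq_mul]
  have c2 : (proj (uu h g) z) 2 = h * (p 1 + x * Vp 1) - τ * (h * g 1 / NN h g) := by
    rw [hproj, PiLp.sub_apply, PiLp.smul_apply, z2, u2, smul_eq_mul]
  have eX : (proj (uu h g) z) 1 - (proj (uu h g) z) 0 * g 0 - c 0 = s * a 0 + t * b 0 := by
    rw [c0, c1]; field_simp; linear_combination NN h g * h0
  have eY : ((proj (uu h g) z) 2 - (proj (uu h g) z) 0 * (h * g 1)) / h - c 1 =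
      s * a 1 + t * b 1 := by
    rw [c0, c2]; field_simp; linear_combination NN h g * h1
  have es : sc h c a g (proj (uu h g) z) = s := by
    unfold sc
    rw [eX, eY]
    field_simp
    linear_combination t * hab
  have et : tc h c a b g (proj (uu h g) z) = t := by
    unfold tc
    rw [eX, eY]
    field_simp
    linear_combination s * hab + t * (-hn)
  refine ⟨?_, ?_⟩
  · rw [es]; exact ⟨by linarith [hs.1], by linarith [hs.2]⟩
  · rw [et]; exact ⟨by linarith [ht.1], by linarith [ht.2]⟩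

/-- Area bound of the base. -/
lemma area_base (hh : 0 < h) (hn : a 0 ^ 2 + a 1 ^ 2 = b 0 ^ 2 + b 1 ^ 2)
    (hab : a 0 * b 0 + a 1 * b 1 = 0) (hpos : 0 < a 0 ^ 2 + a 1 ^ 2) {η : ℝ} (hη : 0 < η) :
    (μHE[2] (OO h c a b g η ∩ {x | inner ℝ x (uu h g) = 0})).toReal ≤
      h * ((a 0 ^ 2 + a 1 ^ 2) / NN h g) * (1 + 2 * η) ^ 2 := by
  apply ENNReal.toReal_le_of_le_ofReal (by have := NN_pos h g; positivity)
  refine (measure_mono (base_subset c g hh hn hab hpos η)).trans ?_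
  rw [area_proj_image (uu_norm h g), volume_SQ hη.le, ← ENNReal.ofReal_mul (abs_nonneg _)]
  apply ENNReal.ofReal_le_ofReal
  apply mul_le_mul_of_nonneg_right _ (by positivity)
  have hN := NN_pos h g
  have hdet : det3 (sig h a) (sig h b) (uu h g) = h * (a 0 * b 1 - a 1 * b 0) / NN h g := by
    simp [det3, sig, uu]
    field_simp
    ring
  rw [hdet, abs_div, abs_of_pos hN, abs_mul, abs_of_pos hh]
  have hsq : (a 0 * b 1 - a 1 * b 0) ^ 2 = (a 0 ^ 2 + a 1 ^ 2) ^ 2 := by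
    have : (a 0 * b 1 - a 1 * b 0) ^ 2 + (a 0 * b 0 + a 1 * b 1) ^ 2 =
        (a 0 ^ 2 + a 1 ^ 2) * (b 0 ^ 2 + b 1 ^ 2) := by ring
    rw [hab, ← hn] at this
    nlinarith
  have habs : |a 0 * b 1 - a 1 * b 0| = a 0 ^ 2 + a 1 ^ 2 := by
    rw [← Real.sqrt_sq_eq_abs, hsq, Real.sqrt_sq hpos.le]
  rw [habs]
  apply le_of_eq
  ring

/-- Boundedness of the base. -/
lemma bounded_base (hh : 0 < h) (hn : a 0 ^ 2 + a 1 ^ 2 = b 0 ^ 2 + b 1 ^ 2)
    (hab : a 0 * b 0 + a 1 * b 1 = 0) (hpos : 0 < a 0 ^ 2 + a 1 ^ 2) (η : ℝ) (hη : 0 < η) :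
    Bornology.IsBounded (OO h c a b g η ∩ {x | inner ℝ x (uu h g) = 0}) := by
  refine Bornology.IsBounded.subset ?_ (base_subset c g hh hn hab hpos η)
  have hSQ : IsCompact (SQ η) := by
    have hcl : IsClosed (SQ η) :=
      (isClosed_Icc.preimage (by fun_prop)).inter (isClosed_Icc.preimage (by fun_prop))
    have hbd : Bornology.IsBounded (SQ η) := by
      refine (Metric.isBounded_closedBall (x := (0 : R2)) (r := 2 * (1 + η))).subset ?_
      rintro x ⟨hx0, hx1⟩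
      rw [mem_closedBall_zero_iff]
      apply (abs_le_of_sq_le_sq' _ (by positivity)).2
      rw [normsq2]
      have h0 : x 0 ^ 2 ≤ (1 + η) ^ 2 := sq_le_sq' (by linarith [hx0.1]) hx0.2
      have h1 : x 1 ^ 2 ≤ (1 + η) ^ 2 := sq_le_sq' (by linarith [hx1.1]) hx1.2
      nlinarith
    exact Metric.isCompact_of_isClosed_isBounded hcl hbd
  refine (hSQ.image ?_).isBounded
  unfold proj
  fun_prop

end tile

/-- Let h, M > 0, D ⊂ ℝ² be compact with Lebesgue-null boundary, and V : ℝ² → ℝ² be C¹ on an open set containing D with tr DV(p) = 0 and −1/M² < det DV(p) < 0 for p ∈ D. For every ε > 0 the set of points (x, p₁ + x V₁(p), h (p₂ + x V₂(p))) ∈ ℝ³ with p ∈ D, −M ≤ x ≤ M is covered by finitely many cylinders Bᵢ + ℝ uᵢ, ‖uᵢ‖ = 1, with bases Bᵢ bounded relatively open subsets of the planes uᵢ^⊥ and ∑ᵢ area(Bᵢ) ≤ h ∫_D (1 + V₁² + h² V₂²)^(−1/2) + ε (areas: normalised 2-dimensional Hausdorff measure). -/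
theorem result
    (h M : ℝ) (hh : 0 < h) (hM : 0 < M) (D : Set (EuclideanSpace ℝ (Fin 2))) (hD : IsCompact D)
    (hbd : volume (frontier D) = 0)
    (V : EuclideanSpace ℝ (Fin 2) → EuclideanSpace ℝ (Fin 2)) (U : Set (EuclideanSpace ℝ (Fin 2)))
    (hU : IsOpen U) (hDU : D ⊆ U) (hV : ContDiffOn ℝ 1 V U)
    (htr : ∀ p ∈ D, LinearMap.trace ℝ _ (fderiv ℝ V p).toLinearMap = 0)
    (hdet : ∀ p ∈ D, -(M ^ 2)⁻¹ < LinearMap.det (fderiv ℝ V p).toLinearMap ∧
      LinearMap.det (fderiv ℝ V p).toLinearMap < 0)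
    (ε : ℝ) (hε : 0 < ε) :
    ∃ (k : ℕ) (u : Fin k → EuclideanSpace ℝ (Fin 3)) (B : Fin k → Set (EuclideanSpace ℝ (Fin 3))),
      (∀ i, ‖u i‖ = 1) ∧
      (∀ i, Bornology.IsBounded (B i) ∧ ∃ O : Set (EuclideanSpace ℝ (Fin 3)), IsOpen O ∧
        B i = O ∩ {x | inner ℝ x (u i) = 0}) ∧
      {z : EuclideanSpace ℝ (Fin 3) | ∃ p ∈ D, ∃ x : ℝ, abs x ≤ M ∧
          z = !₂[x, p 0 + x * V p 0, h * (p 1 + x * V p 1)]} ⊆
        ⋃ i, {z : EuclideanSpace ℝ (Fin 3) | ∃ y ∈ B i, ∃ τ : ℝ, z = y + τ • u i} ∧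
      ∑ i, (μHE[2] (B i)).toReal ≤
        h * (∫ p in D, 1 / Real.sqrt (1 + (V p 0) ^ 2 + h ^ 2 * (V p 1) ^ 2)) + ε := by
  set I := ∫ p in D, 1 / Real.sqrt (1 + (V p 0) ^ 2 + h ^ 2 * (V p 1) ^ 2) with hI
  have hI0 : 0 ≤ I := integral_nonneg fun x => by positivity
  set ε' := ε / (2 * h) with hε'def
  have hε' : 0 < ε' := by positivity
  have hIε : 0 < I + ε' := by positivity
  set η := min 1 (ε / (16 * h * (I + ε'))) with hηdef
  have hη : 0 < η := lt_min one_pos (by positivity)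
  have hη1 : η ≤ 1 := min_le_left _ _
  have hη2 : 8 * η * (h * (I + ε')) ≤ ε / 2 := by
    have h1 : η ≤ ε / (16 * h * (I + ε')) := min_le_right _ _
    have h2 : 8 * η * (h * (I + ε')) ≤ 8 * (ε / (16 * h * (I + ε'))) * (h * (I + ε')) := by
      apply mul_le_mul_of_nonneg_right _ (by positivity)
      linarith
    have h3 : 8 * (ε / (16 * h * (I + ε'))) * (h * (I + ε')) = ε / 2 := by
      field_simp; norm_num
    linarith
  obtain ⟨k, c, a, b, g, h1, h2, h3⟩ := Crest.Agent.S0326.result D hD V U hU hDU hV M h hM hh htr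
    (fun p hp => ⟨(hdet p hp).1, (hdet p hp).2.le⟩) ε' hε'
  have hn : ∀ i, (a i) 0 ^ 2 + (a i) 1 ^ 2 = (b i) 0 ^ 2 + (b i) 1 ^ 2 := by
    intro i
    rw [← normsq2, ← normsq2, (h1 i).2.1]
  have hab : ∀ i, (a i) 0 * (b i) 0 + (a i) 1 * (b i) 1 = 0 := by
    intro i
    have := (h1 i).2.2
    simp only [PiLp.inner_apply, Fin.sum_univ_two] at this
    simp at this
    linarith
  have hpos : ∀ i, 0 < (a i) 0 ^ 2 + (a i) 1 ^ 2 := by
    intro i
    rw [← normsq2]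
    have := norm_pos_iff.2 (h1 i).1
    positivity
  refine ⟨k, fun i => uu h (g i),
    fun i => OO h (c i) (a i) (b i) (g i) η ∩ {x | inner ℝ x (uu h (g i)) = 0},
    fun i => uu_norm h (g i), fun i => ⟨bounded_base (c i) (g i) hh (hn i) (hab i) (hpos i) η hη,
      OO h (c i) (a i) (b i) (g i) η, isOpen_OO _ _ _ _ _ _, rfl⟩, ?_, ?_⟩
  · rintro z ⟨p, hp, x, hx, rfl⟩
    have hmem : (x, p + x • V p) ∈
        {z : ℝ × EuclideanSpace ℝ (Fin 2) | ∃ p ∈ D, abs z.1 ≤ M ∧ z.2 = p + z.1 • V p} :=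
      ⟨p, hp, hx, rfl⟩
    obtain ⟨i, s, hs, t, ht, he⟩ := Set.mem_iUnion.1 (h2 hmem)
    obtain ⟨y, hy, τ, hyτ⟩ := cover_point (c i) (g i) hh (hn i) (hab i) (hpos i) hη p (V p) x s t
      hs ht he
    exact Set.mem_iUnion.2 ⟨i, y, hy, τ, hyτ⟩
  · have hterm : ∀ i, (μHE[2] (OO h (c i) (a i) (b i) (g i) η ∩
        {x | inner ℝ x (uu h (g i)) = 0})).toReal ≤
        (h * (1 + 2 * η) ^ 2) * (‖a i‖ ^ 2 / Real.sqrt (1 + (g i 0) ^ 2 + h ^ 2 * (g i 1) ^ 2)) := by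
      intro i
      refine (area_base (c i) (g i) hh (hn i) (hab i) (hpos i) hη).trans (le_of_eq ?_)
      rw [normsq2]
      simp only [NN]
      ring
    refine (Finset.sum_le_sum fun i _ => hterm i).trans ?_
    rw [← Finset.mul_sum]
    have h4 : (1 + 2 * η) ^ 2 ≤ 1 + 8 * η := by nlinarith
    calc (h * (1 + 2 * η) ^ 2) * _ ≤ (h * (1 + 2 * η) ^ 2) * (I + ε') :=
          mul_le_mul_of_nonneg_left h3 (by positivity)
      _ ≤ (h * (1 + 8 * η)) * (I + ε') := by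
          apply mul_le_mul_of_nonneg_right _ hIε.le
          exact mul_le_mul_of_nonneg_left h4 hh.le
      _ = h * I + h * ε' + 8 * η * (h * (I + ε')) := by ring
      _ ≤ h * I + ε := by
          have : h * ε' = ε / 2 := by rw [hε'def]; field_simp
          linarith

end Crest.Agent.S0329
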