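import Crest.Statements.S0423
import Crest.Agent.Lib.TruncExp.Pi

set_option autoImplicit false
open Crest Crest.AlgGeometry

namespace Crest.Agent.S0423

open MeasureTheory Set Real Filter Topology Crest.Agent.Lib.TruncExp

/-- Survival function of `4/3 + Y`. -/
noncomputable def Gs {N : ℕ} (a : Fin N → ℝ) (t : ℝ) : ℝ := En a (fun s => ind (4 / 3 + s) t)

lemma measurable_ind_param (t : ℝ) : Measurable (fun s : ℝ => ind (4 / 3 + s) t) := by
  unfold ind
  exact Measurable.ite (measurableSet_lt measurable_const (measurable_const.add measurable_id))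
    measurable_const measurable_const

lemma abs_ind_le (p t : ℝ) : |ind p t| ≤ 1 := by
  rw [abs_of_nonneg (ind_nonneg p t)]; exact ind_le_one p t

lemma Gs_succ {N : ℕ} (a : Fin (N + 1) → ℝ) : Gs a = tOp (-a 0) (Gs (fun i => a i.succ)) := by
  funext t
  unfold Gs
  rw [En_succ a (measurable_ind_param t) (fun s => abs_ind_le _ _), integral_hh_mul]
  unfold tOp
  apply setIntegral_congr_fun measurableSet_Ioi
  intro y _
  simp only
  congr 1
  unfold En
  apply integral_congr_ae
  refine Eventually.of_forall (fun x => ?_)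
  simp only
  congr 1
  unfold ind
  have : t < 4 / 3 + (a 0 * y + Yf (fun i => a i.succ) x) ↔
      t + -a 0 * y < 4 / 3 + Yf (fun i => a i.succ) x := by
    constructor <;> intro h <;> linarith
  simp only [this]

lemma Gs_zero (a : Fin 0 → ℝ) : Gs a = ind (4 / 3) := by
  funext t
  unfold Gs
  rw [En_zero]
  simp

lemma tOp_ind {a0 c : ℝ} (ha : 0 < a0) : tOp (-a0) (ind c) = Lfun (1 / a0) c := by
  funext t
  unfold tOp
  by_cases htc : t ≤ c
  · have h1 : ∀ x ∈ Ioi (0:ℝ), ind c (t + -a0 * x) * Real.exp (-x) = Real.exp (-x) := by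
      intro x (hx : 0 < x)
      have : t + -a0 * x < c := by nlinarith [mul_pos ha hx]
      rw [ind, if_pos this, one_mul]
    rw [setIntegral_congr_fun measurableSet_Ioi h1, integral_exp_neg_Ioi_zero]
    unfold Lfun
    symm
    apply min_eq_left
    apply Real.one_le_exp
    have : 0 ≤ 1 / a0 := by positivity
    nlinarith
  · push Not at htc
    set x0 := (t - c) / a0 with hx0
    have hx0pos : 0 < x0 := div_pos (by linarith) ha
    have hx0eq : a0 * x0 = t - c := by rw [hx0]; field_simp
    have e : (fun x => ind c (t + -a0 * x) * Real.exp (-x)) =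
        (Ioi x0).indicator (fun x => Real.exp (-x)) := by
      funext x
      simp only [ind, indicator, mem_Ioi]
      by_cases hx : x0 < x
      · have : t + -a0 * x < c := by nlinarith
        rw [if_pos hx, if_pos this, one_mul]
      · have : ¬ t + -a0 * x < c := by
          push Not at hx ⊢
          nlinarith
        rw [if_neg hx, if_neg this, zero_mul]
    rw [e, setIntegral_indicator measurableSet_Ioi]
    have hinter : Ioi (0:ℝ) ∩ Ioi x0 = Ioi x0 := by
      ext x
      simp only [mem_inter_iff, mem_Ioi]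
      constructor
      · exact fun h => h.2
      · exact fun h => ⟨by linarith, h⟩
    rw [hinter, integral_exp_neg_Ioi]
    unfold Lfun
    have e2 : -(1 / a0) * (t - c) = -x0 := by rw [hx0]; field_simp
    rw [e2]
    symm
    apply min_eq_right
    apply Real.exp_le_one_iff.2
    linarith

lemma isLC_Lfun {s τ : ℝ} (hs : 0 < s) : IsLC (Lfun s τ) := by
  refine ⟨?_, Lfun_pos s τ, Lfun_le_one s τ, ?_, ?_⟩
  · unfold Lfun
    exact continuous_const.min (by fun_prop)
  · intro t t' htt
    unfold Lfun
    apply min_le_min le_rfl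
    apply Real.exp_le_exp.2
    nlinarith
  · have e : (fun t => Real.log (Lfun s τ t)) = fun t => min 0 (-s * (t - τ)) := by
      funext t
      unfold Lfun
      by_cases h : Real.exp (-s * (t - τ)) ≤ 1
      · rw [min_eq_right h, Real.log_exp, min_eq_right]
        exact (Real.exp_le_one_iff.1 h)
      · push Not at h
        rw [min_eq_left h.le, Real.log_one, min_eq_left]
        exact (Real.one_lt_exp_iff.1 h).le
    rw [e]
    apply ConcaveOn.inf (concaveOn_const 0 convex_univ)
    refine ⟨convex_univ, fun x _ y _ p q hp hq hpq => ?_⟩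
    simp only [smul_eq_mul]
    have : q = 1 - p := by linarith
    subst this
    apply le_of_eq
    ring

lemma isLC_Gs : ∀ {N : ℕ} (a : Fin (N + 1) → ℝ), 0 < a (Fin.last N) → IsLC (Gs a) := by
  intro N
  induction N with
  | zero =>
    intro a ha
    have ha' : 0 < a 0 := ha
    rw [Gs_succ, Gs_zero, tOp_ind ha']
    exact isLC_Lfun (by positivity)
  | succ M ih =>
    intro a ha
    rw [Gs_succ]
    apply IsLC.tOp
    apply ih
    simpa [Fin.succ_last] using ha

/-- First Fubini identity. -/
lemma one_sub_En {N : ℕ} (a : Fin N → ℝ) :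
    1 - En a (fun s => truncExpWeight (4 / 3 + s)) = ∫ t, w t * Gs a t := by
  have hF : Integrable (Function.uncurry
      (fun (x : Fin N → ℝ) (t : ℝ) => w t * ind (4 / 3 + Yf a x) t * Dn x))
      ((volume : Measure (Fin N → ℝ)).prod (volume : Measure ℝ)) := by
    have h1 : Integrable (fun z : (Fin N → ℝ) × ℝ => Dn z.1 * w z.2)
        ((volume : Measure (Fin N → ℝ)).prod (volume : Measure ℝ)) :=
      integrable_Dn.mul_prod integrable_w
    have hm : Measurable (fun z : (Fin N → ℝ) × ℝ => ind (4 / 3 + Yf a z.1) z.2) := by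
      unfold ind
      exact Measurable.ite (measurableSet_lt measurable_snd
        (measurable_const.add ((measurable_Yf a).comp measurable_fst)))
        measurable_const measurable_const
    have h2 := h1.mul_bdd (c := 1) hm.aestronglyMeasurable
      (Eventually.of_forall (fun z => by simpa [Real.norm_eq_abs] using abs_ind_le _ _))
    refine h2.congr (Eventually.of_forall (fun z => ?_))
    simp only [Function.uncurry]
    ring
  have hswap := integral_integral_swap hF
  have hL : ∀ x : Fin N → ℝ, ∫ t, w t * ind (4 / 3 + Yf a x) t * Dn x =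
      (1 - truncExpWeight (4 / 3 + Yf a x)) * Dn x := by
    intro x
    rw [integral_mul_const, integral_w_ind]
  have hR : ∀ t : ℝ, ∫ x : Fin N → ℝ, w t * ind (4 / 3 + Yf a x) t * Dn x = w t * Gs a t := by
    intro t
    unfold Gs En
    rw [← integral_const_mul]
    apply integral_congr_ae
    refine Eventually.of_forall (fun x => ?_)
    simp only
    ring
  simp_rw [hL, hR] at hswap
  rw [← hswap]
  have hi : Integrable (fun x : Fin N → ℝ => truncExpWeight (4 / 3 + Yf a x) * Dn x) := by
    apply integrable_En a (φ := fun s => truncExpWeight (4 / 3 + s)) (C := 1)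
    · unfold truncExpWeight
      exact Measurable.ite (measurableSet_le (by fun_prop) measurable_const) measurable_const
        (by fun_prop)
    · intro s
      unfold truncExpWeight
      split_ifs with h
      · simp
      · push Not at h
        rw [abs_of_pos (by positivity)]
        have h1 := Real.add_one_le_exp (4 / 3 + s)
        have h2 := Real.exp_pos (4 / 3 + s)
        rw [Real.exp_neg, ← div_eq_mul_inv, div_le_one h2]
        linarith
  have e : (fun x : Fin N → ℝ => (1 - truncExpWeight (4 / 3 + Yf a x)) * Dn x) =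
      fun x => Dn x - truncExpWeight (4 / 3 + Yf a x) * Dn x := by
    funext x; ring
  rw [e, integral_sub integrable_Dn hi, integral_Dn]
  rfl

lemma coord_Dn {N : ℕ} (i : Fin N) :
    Integrable (fun x : Fin N → ℝ => x i * Dn x) ∧ ∫ x : Fin N → ℝ, x i * Dn x = 1 := by
  classical
  set f : Fin N → ℝ → ℝ := fun j y => if j = i then y * hh y else hh y with hf
  have heq : ∀ x : Fin N → ℝ, ∏ j, f j (x j) = x i * Dn x := by
    intro x
    have h1 : ∀ j, f j (x j) = (if j = i then x j else 1) * hh (x j) := by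
      intro j
      simp only [hf]
      split_ifs <;> simp
    unfold Dn
    rw [Finset.prod_congr rfl (fun j _ => h1 j), Finset.prod_mul_distrib, Finset.prod_ite_eq']
    simp
  have hint : ∀ j, Integrable (f j) := by
    intro j
    simp only [hf]
    split_ifs
    · exact integrable_mul_hh
    · exact integrable_hh
  constructor
  · have := Integrable.fintype_prod (f := f) (μ := fun _ => volume) hint
    refine Integrable.congr this (Eventually.of_forall (fun x => ?_))
    exact heq x
  · have := integral_fintype_prod_eq_prod (𝕜 := ℝ) (f := f) (μ := fun _ => volume)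
    simp_rw [heq] at this
    rw [show (∫ x : Fin N → ℝ, x i * Dn x) = _ from this]
    apply Finset.prod_eq_one
    intro j _
    simp only [hf]
    split_ifs
    · exact integral_mul_hh
    · exact integral_hh

lemma Y_Dn {N : ℕ} (a : Fin N → ℝ) :
    Integrable (fun x : Fin N → ℝ => Yf a x * Dn x) ∧
      ∫ x : Fin N → ℝ, Yf a x * Dn x = ∑ i, a i := by
  have e : (fun x : Fin N → ℝ => Yf a x * Dn x) = fun x => ∑ i, a i * (x i * Dn x) := by
    funext x
    unfold Yf
    rw [Finset.sum_mul]
    apply Finset.sum_congr rfl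
    intro i _
    ring
  rw [e]
  constructor
  · exact integrable_finsetSum _ (fun i _ => (coord_Dn i).1.const_mul _)
  · rw [integral_finsetSum _ (fun i _ => (coord_Dn i).1.const_mul _)]
    apply Finset.sum_congr rfl
    intro i _
    rw [integral_const_mul, (coord_Dn i).2, mul_one]

lemma ind_mono {p q : ℝ} (h : q ≤ p) (t : ℝ) : ind q t ≤ ind p t := by
  unfold ind
  by_cases h1 : t < q
  · have h2 : t < p := lt_of_lt_of_le h1 h
    simp [h1, h2]
  · by_cases h2 : t < p
    · simp [h1, h2]
    · simp [h1, h2]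

lemma integral_abs_ind_sub (p q : ℝ) : ∫ t, |ind p t - ind q t| = |p - q| := by
  rcases le_total q p with h | h
  · have e : (fun t => |ind p t - ind q t|) = fun t => ind p t - ind q t := by
      funext t
      exact abs_of_nonneg (sub_nonneg.2 (ind_mono h t))
    rw [e, integral_ind_sub_ind, abs_of_nonneg (by linarith)]
  · have e : (fun t => |ind p t - ind q t|) = fun t => ind q t - ind p t := by
      funext t
      rw [abs_of_nonpos (sub_nonpos.2 (ind_mono h t))]
      ring
    rw [e, integral_ind_sub_ind, abs_of_nonpos (by linarith)]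
    ring

/-- Second Fubini identity: the mean. -/
lemma mean_zero {N : ℕ} (a : Fin N → ℝ) (hsum : ∑ i, a i = 0) :
    Integrable (fun t => Gs a t - ind (4 / 3) t) ∧ ∫ t, (Gs a t - ind (4 / 3) t) = 0 := by
  set f : (Fin N → ℝ) × ℝ → ℝ :=
    fun z => (ind (4 / 3 + Yf a z.1) z.2 - ind (4 / 3) z.2) * Dn z.1 with hf_def
  have hm : Measurable f := by
    have h1 : Measurable (fun z : (Fin N → ℝ) × ℝ => ind (4 / 3 + Yf a z.1) z.2) := by
      unfold ind
      exact Measurable.ite (measurableSet_lt measurable_snd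
        (measurable_const.add ((measurable_Yf a).comp measurable_fst)))
        measurable_const measurable_const
    have h2 : Measurable (fun z : (Fin N → ℝ) × ℝ => ind (4 / 3) z.2) :=
      (measurable_ind _).comp measurable_snd
    exact (h1.sub h2).mul (measurable_Dn.comp measurable_fst)
  have hnorm : ∀ x : Fin N → ℝ, ∫ t, ‖f (x, t)‖ = |Yf a x| * Dn x := by
    intro x
    have e : (fun t => ‖f (x, t)‖) = fun t => |ind (4 / 3 + Yf a x) t - ind (4 / 3) t| * Dn x := by
      funext t
      simp only [hf_def]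
      rw [Real.norm_eq_abs, abs_mul, abs_of_nonneg (Dn_nonneg x)]
    rw [e, integral_mul_const, integral_abs_ind_sub]
    congr 2
    ring
  have hf : Integrable f ((volume : Measure (Fin N → ℝ)).prod (volume : Measure ℝ)) := by
    rw [integrable_prod_iff hm.aestronglyMeasurable]
    constructor
    · refine Eventually.of_forall (fun x => ?_)
      exact (integrable_ind_sub_ind (4 / 3 + Yf a x) (4 / 3)).mul_const (Dn x)
    · simp_rw [hnorm]
      refine (Y_Dn a).1.norm.congr (Eventually.of_forall (fun x => ?_))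
      simp only [Real.norm_eq_abs]
      rw [abs_mul, abs_of_nonneg (Dn_nonneg x)]
  have hG : ∀ t, Gs a t - ind (4 / 3) t = ∫ x : Fin N → ℝ, f (x, t) := by
    intro t
    simp only [hf_def]
    have e : (fun x : Fin N → ℝ => (ind (4 / 3 + Yf a x) t - ind (4 / 3) t) * Dn x) =
        fun x => ind (4 / 3 + Yf a x) t * Dn x - ind (4 / 3) t * Dn x := by
      funext x; ring
    rw [e, integral_sub (integrable_En a (φ := fun s => ind (4 / 3 + s) t)
      (measurable_ind_param t) (fun s => abs_ind_le _ _)) (integrable_Dn.const_mul _),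
      integral_const_mul, integral_Dn, mul_one]
    rfl
  constructor
  · have := hf.integral_prod_right
    exact this.congr (Eventually.of_forall (fun t => (hG t).symm))
  · simp_rw [hG]
    rw [← integral_prod_symm _ hf, integral_prod _ hf]
    have hin : ∀ x : Fin N → ℝ, ∫ t, f (x, t) = Yf a x * Dn x := by
      intro x
      simp only [hf_def]
      rw [integral_mul_const, integral_ind_sub_ind]
      congr 1
      ring
    simp_rw [hin]
    rw [(Y_Dn a).2, hsum]

lemma exp_neg_one_le : Real.exp (-1) ≤ 46 / 125 := by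
  have h := Real.exp_one_gt_d9
  rw [Real.exp_neg, inv_eq_one_div, div_le_div_iff₀ (Real.exp_pos _) (by norm_num)]
  linarith

lemma g_at_c : truncExpWeight (4 / 3) ≤ 1 - mu0 := by
  have hne : ¬ (4 / 3 : ℝ) ≤ 0 := by norm_num
  simp only [truncExpWeight, hne, if_false]
  unfold mu0
  have h1 : Real.exp (-(4 / 3)) = Real.exp (-1) * Real.exp (-(1 / 3)) := by
    rw [← Real.exp_add]; congr 1; norm_num
  rw [h1]
  have h2 := exp_neg_third_le
  have h3 := exp_neg_one_le
  have h4 := Real.exp_pos (-(1 / 3 : ℝ))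
  have h5 := Real.exp_pos (-1 : ℝ)
  nlinarith [mul_le_mul h3 h2 h4.le (by norm_num)]

lemma Dn_integral_const {N : ℕ} (c : ℝ) : ∫ x : Fin N → ℝ, c * Dn x = c := by
  rw [integral_const_mul, integral_Dn, mul_one]

theorem En_upper {N : ℕ} (a : Fin N → ℝ) (hN : 1 ≤ N) (hsum : ∑ i, a i = 0) :
    En a (fun s => truncExpWeight (4 / 3 + s)) ≤ 1 - mu0 := by
  by_cases hex : ∃ i, 0 < a i
  · obtain ⟨i, hi⟩ := hex
    obtain ⟨M, rfl⟩ : ∃ M, N = M + 1 := ⟨N - 1, by omega⟩
    set σ : Equiv.Perm (Fin (M + 1)) := Equiv.swap i (Fin.last M) with hσ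
    set a' := a ∘ σ with ha'
    have hlast : 0 < a' (Fin.last M) := by
      simp only [ha', hσ, Function.comp, Equiv.swap_apply_right]
      exact hi
    have hsum' : ∑ j, a' j = 0 := by
      simp only [ha', Function.comp]
      rw [Equiv.sum_comp σ a, hsum]
    rw [← En_perm a σ]
    have h1 := one_sub_En a'
    have h2 := mean_zero a' hsum'
    have h3 := key_bound (isLC_Gs a' hlast) h2.1 h2.2
    change 1 - En a' _ = _ at h1
    linarith
  · push Not at hex
    have hzero : ∀ i, a i = 0 := by
      intro i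
      have := (Finset.sum_eq_zero_iff_of_nonpos (fun j _ => hex j)).1 hsum i (Finset.mem_univ i)
      exact this
    have hY : ∀ x : Fin N → ℝ, Yf a x = 0 := by
      intro x
      unfold Yf
      simp [hzero]
    unfold En
    simp_rw [hY, add_zero]
    rw [Dn_integral_const]
    exact g_at_c

/-- The coefficient family approaching the supremum. -/
noncomputable def aa (n m : ℕ) : Fin (m + 1) → ℝ := fun i => if i = Fin.last m then 2 else -2 / n

lemma aa_zero_succ (n m : ℕ) : aa n (m + 1) 0 = -2 / n := by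
  unfold aa
  have : (0 : Fin (m + 2)) ≠ Fin.last (m + 1) := by
    intro h
    have := congrArg Fin.val h
    simp at this
  simp [this]

lemma aa_tail (n m : ℕ) : (fun i : Fin (m + 1) => aa n (m + 1) i.succ) = aa n m := by
  funext i
  unfold aa
  have : (i.succ = Fin.last (m + 1)) ↔ i = Fin.last m := by
    rw [← Fin.succ_last, Fin.succ_inj]
  simp only [this]

lemma aa_last (n m : ℕ) : 0 < aa n m (Fin.last m) := by
  unfold aa
  simp

lemma aa_sum {n : ℕ} (hn : 0 < n) : ∑ i, aa n n i = 0 := by
  rw [Fin.sum_univ_castSucc]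
  have h1 : ∀ i : Fin n, aa n n i.castSucc = -2 / n := by
    intro i
    unfold aa
    have : i.castSucc ≠ Fin.last n := (Fin.castSucc_lt_last i).ne
    simp [this]
  simp only [h1]
  have h2 : aa n n (Fin.last n) = 2 := by
    unfold aa; simp
  rw [h2]
  simp only [Finset.sum_const, Finset.card_univ, Fintype.card_fin, nsmul_eq_mul]
  have : (n : ℝ) ≠ 0 := by positivity
  field_simp
  ring

lemma tOp_exp_bound {n : ℕ} (hn : 0 < n) {F : ℝ → ℝ} (hF : IsLC F) {C : ℝ} (hC : 0 ≤ C)
    (hb : ∀ t, F t ≤ C * Real.exp (-(t - 4 / 3) / 2)) (t : ℝ) :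
    tOp (2 / n) F t ≤ C * (n / (n + 1)) * Real.exp (-(t - 4 / 3) / 2) := by
  unfold tOp
  have hnr : (0:ℝ) < n := by positivity
  have hσ : -(1 + 1 / (n:ℝ)) < 0 := by
    have : 0 < 1 / (n:ℝ) := by positivity
    linarith
  have hint := integrableOn_exp_mul_Ioi hσ 0
  have hval := integral_exp_mul_Ioi hσ 0
  have hpt : ∀ x ∈ Ioi (0:ℝ), F (t + 2 / n * x) * Real.exp (-x) ≤
      (C * Real.exp (-(t - 4 / 3) / 2)) * Real.exp (-(1 + 1 / (n:ℝ)) * x) := by
    intro x _
    have h1 := hb (t + 2 / n * x)
    have h2 : C * Real.exp (-(t + 2 / n * x - 4 / 3) / 2) * Real.exp (-x) =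
        (C * Real.exp (-(t - 4 / 3) / 2)) * Real.exp (-(1 + 1 / (n:ℝ)) * x) := by
      rw [mul_assoc, mul_assoc, ← Real.exp_add, ← Real.exp_add]
      congr 2
      field_simp
      ring
    rw [← h2]
    exact mul_le_mul_of_nonneg_right h1 (Real.exp_pos _).le
  have h3 := setIntegral_mono_on (integrableOn_tOp hF.cont.measurable hF.abs_le (2 / n) t)
    (hint.const_mul (C * Real.exp (-(t - 4 / 3) / 2))) measurableSet_Ioi hpt
  refine h3.trans (le_of_eq ?_)
  rw [integral_const_mul, hval]
  simp only [mul_zero, Real.exp_zero]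
  field_simp

lemma Gs_aa_le {n : ℕ} (hn : 0 < n) (m : ℕ) (t : ℝ) :
    Gs (aa n m) t ≤ ((n:ℝ) / (n + 1)) ^ m * Real.exp (-(t - 4 / 3) / 2) := by
  have hr : (0:ℝ) ≤ (n:ℝ) / (n + 1) := by positivity
  induction m generalizing t with
  | zero =>
    rw [Gs_succ, Gs_zero]
    have h0 : aa n 0 0 = 2 := by
      unfold aa; simp
    rw [h0, tOp_ind (by norm_num)]
    simp only [pow_zero, one_mul]
    unfold Lfun
    refine (min_le_right _ _).trans (le_of_eq ?_)
    congr 1
    ring
  | succ k ih =>
    rw [Gs_succ, aa_zero_succ, aa_tail]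
    have hneg : -(-2 / (n:ℝ)) = 2 / n := by ring
    rw [hneg]
    have := tOp_exp_bound hn (isLC_Gs (aa n k) (aa_last n k)) (pow_nonneg hr k) ih t
    rw [pow_succ]
    exact this

lemma integral_w_exp :
    ∫ t, w t * Real.exp (-(t - 4 / 3) / 2) = 4 / 9 * Real.exp (2 / 3) ∧
    Integrable (fun t => w t * Real.exp (-(t - 4 / 3) / 2)) := by
  have e : (fun t => w t * Real.exp (-(t - 4 / 3) / 2)) = (Ioi 0).indicator
      (fun t => Real.exp (2 / 3) * (t * Real.exp (-(3 / 2 * t)))) := by
    funext t
    simp only [w, indicator, mem_Ioi]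
    by_cases h : 0 < t
    · simp only [h, if_true]
      have : -(3 / 2 * t) = -t + (-(2 / 3) + -(t - 4 / 3) / 2) := by ring
      rw [this, Real.exp_add, Real.exp_add, Real.exp_neg (2 / 3)]
      have h3 := Real.exp_ne_zero (2 / 3 : ℝ)
      field_simp
    · simp [h]
  have hi := mul_exp_Ioi (σ := 3 / 2) (by norm_num) (le_refl (0:ℝ))
  rw [e]
  constructor
  · rw [integral_indicator measurableSet_Ioi, integral_const_mul, hi.2]
    simp
    ring
  · rw [integrable_indicator_iff measurableSet_Ioi]
    exact hi.1.const_mul _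

lemma En_aa_lower {n : ℕ} (hn : 0 < n) :
    1 - 4 / 9 * Real.exp (2 / 3) * ((n:ℝ) / (n + 1)) ^ n ≤
      En (aa n n) (fun s => truncExpWeight (4 / 3 + s)) := by
  have h1 := one_sub_En (aa n n)
  have hG := isLC_Gs (aa n n) (aa_last n n)
  have hr : (0:ℝ) ≤ ((n:ℝ) / (n + 1)) ^ n := by positivity
  have h2 : ∫ t, w t * Gs (aa n n) t ≤
      ∫ t, ((n:ℝ) / (n + 1)) ^ n * (w t * Real.exp (-(t - 4 / 3) / 2)) := by
    apply integral_mono (integrable_w_mul hG.cont.measurable hG.abs_le)
      (integral_w_exp.2.const_mul _)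
    intro t
    have := mul_le_mul_of_nonneg_left (Gs_aa_le hn n t) (w_nonneg t)
    calc w t * Gs (aa n n) t ≤ _ := this
      _ = _ := by ring
  rw [integral_const_mul, integral_w_exp.1] at h2
  change 1 - En (aa n n) _ = _ at h1
  nlinarith

/-- For independent mean-one exponential random variables `X_1, …, X_N` (written as an integral over the positive orthant against the density `exp (-(x_1 + ⋯ + x_N))`), real coefficients `a_1, …, a_N` summing to zero, and the weight `g = truncExpWeight`, the quantity `(e^{4/3} / (4/3)) · E[g(4/3 + a_1 X_1 + ⋯ + a_N X_N)]` has supremum over all `N ≥ 1` and all such `a` exactly `(3/4) e^{4/3} − e/3`: it never exceeds this value, and comes within any `ε > 0` of it for some `N` and `a`. -/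
theorem result :
    (∀ (N : ℕ) (a : Fin N → ℝ), 1 ≤ N → ∑ i, a i = 0 →
      Real.exp (4 / 3) / (4 / 3) *
          ∫ x in Set.pi Set.univ (fun _ : Fin N => Set.Ioi (0 : ℝ)),
            Crest.AlgGeometry.truncExpWeight (4 / 3 + ∑ i, a i * x i) * Real.exp (-∑ i, x i)
        ≤ 3 / 4 * Real.exp (4 / 3) - Real.exp 1 / 3) ∧
    (∀ ε : ℝ, 0 < ε → ∃ (N : ℕ) (a : Fin N → ℝ), 1 ≤ N ∧ ∑ i, a i = 0 ∧
      3 / 4 * Real.exp (4 / 3) - Real.exp 1 / 3 - ε <
        Real.exp (4 / 3) / (4 / 3) *
          ∫ x in Set.pi Set.univ (fun _ : Fin N => Set.Ioi (0 : ℝ)),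
            Crest.AlgGeometry.truncExpWeight (4 / 3 + ∑ i, a i * x i) * Real.exp (-∑ i, x i)) := by
  have hconv : ∀ {N : ℕ} (a : Fin N → ℝ),
      ∫ x in Set.pi Set.univ (fun _ : Fin N => Set.Ioi (0 : ℝ)),
        Crest.AlgGeometry.truncExpWeight (4 / 3 + ∑ i, a i * x i) * Real.exp (-∑ i, x i) =
      En a (fun s => truncExpWeight (4 / 3 + s)) := by
    intro N a
    have hms : MeasurableSet (Set.pi Set.univ (fun _ : Fin N => Set.Ioi (0 : ℝ))) :=
      MeasurableSet.univ_pi (fun _ => measurableSet_Ioi)
    rw [← integral_indicator hms]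
    unfold En
    apply integral_congr_ae
    refine Eventually.of_forall (fun x => ?_)
    simp only
    rw [Dn_eq_indicator]
    simp only [indicator]
    split_ifs
    · rfl
    · simp
  have hexp : Real.exp (4 / 3) * Real.exp (-(1 / 3)) = Real.exp 1 := by
    rw [← Real.exp_add]; congr 1; norm_num
  have hpos43 := Real.exp_pos (4 / 3 : ℝ)
  constructor
  · intro N a hN hsum
    rw [hconv]
    have h := En_upper a hN hsum
    have hc : 0 ≤ Real.exp (4 / 3) / (4 / 3) := by positivity
    have h2 := mul_le_mul_of_nonneg_left h hc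
    refine h2.trans (le_of_eq ?_)
    unfold mu0
    have : Real.exp (4 / 3) / (4 / 3) * (1 - 4 / 9 * Real.exp (-(1 / 3))) =
        3 / 4 * Real.exp (4 / 3) - 1 / 3 * (Real.exp (4 / 3) * Real.exp (-(1 / 3))) := by
      ring
    rw [this, hexp]
    ring
  · intro ε hε
    -- the limit of `(1 + 1/n)^n`
    have hlim : Tendsto (fun n : ℕ => 1 / 3 * Real.exp 2 * ((1 + 1 / (n:ℝ)) ^ n)⁻¹) atTop
        (𝓝 (1 / 3 * Real.exp 2 * (Real.exp 1)⁻¹)) := by
      apply Tendsto.const_mul
      apply Tendsto.inv₀ (Real.tendsto_one_add_div_pow_exp 1) (Real.exp_pos 1).ne'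
    have hval : 1 / 3 * Real.exp 2 * (Real.exp 1)⁻¹ = Real.exp 1 / 3 := by
      have : Real.exp 2 = Real.exp 1 * Real.exp 1 := by
        rw [← Real.exp_add]; norm_num
      rw [this]
      have h1 := Real.exp_ne_zero (1 : ℝ)
      field_simp
    rw [hval] at hlim
    have hev : ∀ᶠ n : ℕ in atTop, 1 / 3 * Real.exp 2 * ((1 + 1 / (n:ℝ)) ^ n)⁻¹ <
        Real.exp 1 / 3 + ε := hlim.eventually (gt_mem_nhds (by linarith))
    obtain ⟨n, hn1, hn2⟩ := (hev.and (eventually_gt_atTop 0)).exists
    refine ⟨n + 1, aa n n, by omega, aa_sum hn2, ?_⟩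
    rw [hconv]
    have hlow := En_aa_lower hn2
    have hnr : (0:ℝ) < n := by exact_mod_cast hn2
    have hinv : ((n:ℝ) / (n + 1)) ^ n = ((1 + 1 / (n:ℝ)) ^ n)⁻¹ := by
      rw [← inv_pow]
      congr 1
      field_simp
    rw [hinv] at hlow
    have hc : 0 < Real.exp (4 / 3) / (4 / 3) := by positivity
    have h2 := mul_le_mul_of_nonneg_left hlow hc.le
    refine lt_of_lt_of_le ?_ h2
    have hee : Real.exp (4 / 3) * Real.exp (2 / 3) = Real.exp 2 := by
      rw [← Real.exp_add]; congr 1; norm_num
    have : Real.exp (4 / 3) / (4 / 3) * (1 - 4 / 9 * Real.exp (2 / 3) * ((1 + 1 / (n:ℝ)) ^ n)⁻¹) =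
        3 / 4 * Real.exp (4 / 3) -
          1 / 3 * (Real.exp (4 / 3) * Real.exp (2 / 3)) * ((1 + 1 / (n:ℝ)) ^ n)⁻¹ := by
      ring
    rw [this, hee]
    linarith

end Crest.Agent.S0423
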