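import Crest.Statements.S0453
import Crest.Agent.Lib.SW.Poincare
import Crest.Agent.Lib.SW.Kernel

set_option autoImplicit false
open Finset
open Crest Crest.LogicCS

namespace Crest.Agent.S0453

/-- The Poincaré inequality, part (ii). -/
theorem poincare_ii (n : ℕ) (hn : 4 ≤ n) (d : Fin n → ℕ)
    (hd : (Crest.SwitchChain.realizations d).Nonempty) (f : Finset (Crest.SwitchChain.Edge n) → ℝ) :
    ((Crest.SwitchChain.realizations d).card : ℝ) *
          (∑ G ∈ Crest.SwitchChain.realizations d, f G ^ 2) -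
        (∑ G ∈ Crest.SwitchChain.realizations d, f G) ^ 2 ≤
      24 * (n : ℝ) ^ 2 * (n.choose 4 : ℝ) * (Crest.SwitchChain.realizations d).card *
        ∑ G ∈ Crest.SwitchChain.realizations d,
          f G * (f G - ∑ G' ∈ Crest.SwitchChain.realizations d,
            Crest.SwitchChain.kernel n G G' * f G') := by
  set Ω := Crest.SwitchChain.realizations d with hΩ
  set E := ∑ G ∈ Ω, f G * (f G - ∑ G' ∈ Ω, Crest.SwitchChain.kernel n G G' * f G') with hE
  have hC : (0 : ℝ) < (n.choose 4 : ℝ) := by exact_mod_cast Nat.choose_pos hn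
  have hN : (0 : ℝ) < (Ω.card : ℝ) := by exact_mod_cast hd.card_pos
  have hn4 : (4 : ℝ) ≤ (n : ℝ) := by exact_mod_cast hn
  have h1 := Crest.Agent.Lib.SW.poincare (d := d) (fun G => f G.1)
  have h2 := Crest.Agent.Lib.SW.kernel_energy (d := d) hn f
  have e1 : ∑ G : Crest.Agent.Lib.SW.Om d, (fun G : Crest.Agent.Lib.SW.Om d => f G.1) G ^ 2 =
      ∑ G ∈ Ω, f G ^ 2 :=
    sum_coe_sort Ω (fun G => f G ^ 2)
  have e2 : ∑ G : Crest.Agent.Lib.SW.Om d, (fun G : Crest.Agent.Lib.SW.Om d => f G.1) G =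
      ∑ G ∈ Ω, f G :=
    sum_coe_sort Ω f
  have e3 : Fintype.card (Crest.Agent.Lib.SW.Om d) = Ω.card := Fintype.card_coe Ω
  rw [e1, e2, e3] at h1
  -- `E ≥ 0`
  have hEnn : 0 ≤ E := by
    have h3 : 0 ≤ ∑ a, ∑ b, ∑ c, ∑ e, Crest.Agent.Lib.SW.swE a b c e
        (fun G : Crest.Agent.Lib.SW.Om d => f G.1) :=
      sum_nonneg fun a _ => sum_nonneg fun b _ => sum_nonneg fun c _ => sum_nonneg fun e _ =>
        Crest.Agent.Lib.SW.swE_nonneg a b c e _
    have h4 : 0 ≤ 48 * (n.choose 4 : ℝ) * E := h3.trans h2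
    have h5 : 0 < 48 * (n.choose 4 : ℝ) := by positivity
    exact nonneg_of_mul_nonneg_right h4 h5
  -- combine
  have h6 : 8 * (∑ G ∈ Ω, f G ^ 2 - (∑ G ∈ Ω, f G) ^ 2 / (Ω.card : ℝ)) ≤
      48 * (n.choose 4 : ℝ) * E := h1.trans h2
  have h7 : (Ω.card : ℝ) * (∑ G ∈ Ω, f G ^ 2 - (∑ G ∈ Ω, f G) ^ 2 / (Ω.card : ℝ)) =
      (Ω.card : ℝ) * (∑ G ∈ Ω, f G ^ 2) - (∑ G ∈ Ω, f G) ^ 2 := by
    field_simp
  rw [← h7]
  have h8 : (Ω.card : ℝ) * (∑ G ∈ Ω, f G ^ 2 - (∑ G ∈ Ω, f G) ^ 2 / (Ω.card : ℝ)) ≤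
      (Ω.card : ℝ) * (6 * (n.choose 4 : ℝ) * E) :=
    mul_le_mul_of_nonneg_left (by linarith) hN.le
  have h9 : 0 ≤ (n.choose 4 : ℝ) * (Ω.card : ℝ) * E := by positivity
  have h10 : (1 : ℝ) ≤ (n : ℝ) ^ 2 := by nlinarith
  have h11 : 24 * (n : ℝ) ^ 2 * (n.choose 4 : ℝ) * (Ω.card : ℝ) * E =
      (24 * (n : ℝ) ^ 2) * ((n.choose 4 : ℝ) * (Ω.card : ℝ) * E) := by ring
  have h12 : 6 * ((n.choose 4 : ℝ) * (Ω.card : ℝ) * E) ≤
      (24 * (n : ℝ) ^ 2) * ((n.choose 4 : ℝ) * (Ω.card : ℝ) * E) :=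
    mul_le_mul_of_nonneg_right (by linarith) h9
  rw [h11]
  calc _ ≤ _ := h8
    _ = 6 * ((n.choose 4 : ℝ) * (Ω.card : ℝ) * E) := by ring
    _ ≤ _ := h12

/-- For every n ≥ 4 and every labeled degree vector on n vertices with a simple realization: the lazy switch chain (hold with probability 1/2, else take a uniform four-vertex set and a uniform ordered pair of distinct perfect matchings on it, swapping the first for the second when the first is present and the second absent) is, from every realization, within total variation 1/4 of uniform on the realizations after some t ≤ 2n^8 steps; and Var(f) ≤ 24 n² C(n,4) ⟨f, (I − P) f⟩ for the uniform law. -/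
theorem result (n : ℕ) (hn : 4 ≤ n)
    (d : Fin n → ℕ) (hd : (Crest.SwitchChain.realizations d).Nonempty) :
    (∃ t : ℕ, t ≤ 2 * n ^ 8 ∧ ∀ G ∈ Crest.SwitchChain.realizations d,
        Crest.SwitchChain.tvDist (fun G' => (Crest.SwitchChain.kernel n ^ t) G G')
          (Crest.SwitchChain.unifOn (Crest.SwitchChain.realizations d)) ≤ 1 / 4) ∧
      ∀ f : Finset (Crest.SwitchChain.Edge n) → ℝ,
        ((Crest.SwitchChain.realizations d).card : ℝ) *
              (∑ G ∈ Crest.SwitchChain.realizations d, f G ^ 2) -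
            (∑ G ∈ Crest.SwitchChain.realizations d, f G) ^ 2 ≤
          24 * (n : ℝ) ^ 2 * (n.choose 4 : ℝ) * (Crest.SwitchChain.realizations d).card *
            ∑ G ∈ Crest.SwitchChain.realizations d,
              f G * (f G - ∑ G' ∈ Crest.SwitchChain.realizations d,
                Crest.SwitchChain.kernel n G G' * f G') :=
  ⟨Crest.Agent.Lib.SwitchMix.mixing_of_poincare hn d hd (poincare_ii n hn d hd),
    poincare_ii n hn d hd⟩

end Crest.Agent.S0453
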